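import Mathlib

/-! Row 95: abstract tracial von Neumann algebras (C⋆-algebra, faithful tracial state, unit ball
complete and separable for the trace 2-norm). -/

set_option autoImplicit false

namespace Crest.Agent.R95

open Filter Topology
open scoped ComplexConjugate InnerProductSpace

/-- A faithful tracial state. -/
class Tr (A : Type*) [CStarAlgebra A] where
  τ : A →L[ℂ] ℂ
  τ_one : τ 1 = 1
  τ_comm : ∀ x y, τ (x * y) = τ (y * x)
  τ_star : ∀ x, τ (star x) = conj (τ x)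
  τ_nonneg : ∀ x, 0 ≤ (τ (star x * x)).re
  faithful : ∀ x, (τ (star x * x)).re = 0 → x = 0

export Tr (τ τ_one τ_comm τ_star τ_nonneg faithful)

/-- The algebra with the trace inner product. -/
def L2 (A : Type*) : Type _ := A

section Tr
variable {A : Type*} [CStarAlgebra A] [Tr A]

instance : AddCommGroup (L2 A) := inferInstanceAs (AddCommGroup A)
instance : Module ℂ (L2 A) := inferInstanceAs (Module ℂ A)

/-- The identity map to `L2 A`. -/
noncomputable def toL2 : A ≃ₗ[ℂ] L2 A := LinearEquiv.refl ℂ A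

/-- The trace inner product. -/
@[reducible] noncomputable def l2core : InnerProductSpace.Core ℂ (L2 A) where
  inner x y := τ (star (toL2.symm x) * (toL2.symm y : A))
  conj_inner_symm x y := by rw [← τ_star, star_mul, star_star]
  re_inner_nonneg x := τ_nonneg _
  add_left x y z := by simp [add_mul]
  smul_left x y r := by simp
  definite x hx := toL2.symm.map_eq_zero_iff.mp (faithful _ (by rw [hx]; simp))

noncomputable instance : NormedAddCommGroup (L2 A) := (l2core (A := A)).toNormedAddCommGroup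
noncomputable instance : InnerProductSpace ℂ (L2 A) := .ofCore (l2core (A := A)).toCore

lemma inner_toL2 (x y : A) : ⟪toL2 x, toL2 y⟫_ℂ = τ (star x * y) := rfl

/-- The trace 2-norm. -/
noncomputable def n2 (x : A) : ℝ := ‖toL2 x‖

lemma n2_def (x : A) : n2 x = ‖toL2 x‖ := rfl

lemma dist_toL2 (x y : A) : dist (toL2 x) (toL2 y) = n2 (x - y) := by
  rw [dist_eq_norm, ← map_sub, n2]

lemma τ_star_mul_self (x : A) : τ (star x * x) = ((n2 x ^ 2 : ℝ) : ℂ) := by
  rw [← inner_toL2, inner_self_eq_norm_sq_to_K, n2]; simp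

lemma n2_sq (x : A) : n2 x ^ 2 = (τ (star x * x)).re := by rw [τ_star_mul_self, Complex.ofReal_re]

lemma n2_nonneg (x : A) : 0 ≤ n2 x := norm_nonneg _

lemma n2_eq_zero {x : A} : n2 x = 0 ↔ x = 0 := by rw [n2, norm_eq_zero, toL2.map_eq_zero_iff]

@[simp] lemma n2_zero : n2 (0 : A) = 0 := n2_eq_zero.mpr rfl

lemma n2_add_le (x y : A) : n2 (x + y) ≤ n2 x + n2 y := by
  simp only [n2, map_add]; exact norm_add_le _ _

lemma n2_sub_le (x y : A) : n2 (x - y) ≤ n2 x + n2 y := by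
  simp only [n2, map_sub]; exact norm_sub_le _ _

lemma n2_triangle (x y z : A) : n2 (x - z) ≤ n2 (x - y) + n2 (y - z) := by
  simpa using n2_add_le (x - y) (y - z)

@[simp] lemma n2_neg (x : A) : n2 (-x) = n2 x := by simp [n2]

lemma n2_sub_comm (x y : A) : n2 (x - y) = n2 (y - x) := by rw [← n2_neg, neg_sub]

lemma n2_smul (c : ℂ) (x : A) : n2 (c • x) = ‖c‖ * n2 x := by simp [n2, norm_smul]

lemma n2_rsmul (c : ℝ) (x : A) : n2 (c • x) = |c| * n2 x := by
  rw [← Complex.coe_smul, n2_smul]; simp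

lemma n2_sum_le {ι : Type*} (s : Finset ι) (f : ι → A) : n2 (∑ i ∈ s, f i) ≤ ∑ i ∈ s, n2 (f i) := by
  simp only [n2, map_sum]; exact norm_sum_le _ _

@[simp] lemma n2_star (x : A) : n2 (star x) = n2 x := by
  rw [← sq_eq_sq₀ (n2_nonneg _) (n2_nonneg _), n2_sq, n2_sq, star_star, τ_comm]

@[simp] lemma n2_one : n2 (1 : A) = 1 := by
  rw [← sq_eq_sq₀ (n2_nonneg _) zero_le_one, n2_sq]; simp [τ_one]

lemma nontrivial_of_tr (A : Type*) [CStarAlgebra A] [Tr A] : Nontrivial A :=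
  ⟨1, 0, fun h => by have := n2_one (A := A); rw [h] at this; simp at this⟩

lemma τ_rsmul (c : ℝ) (x : A) : τ (c • x) = c * τ x := by
  rw [← Complex.coe_smul, map_smul, smul_eq_mul]

lemma norm_τ_mul_le (x y : A) : ‖τ (x * y)‖ ≤ n2 x * n2 y := by
  have := norm_inner_le_norm (𝕜 := ℂ) (toL2 (star x)) (toL2 y)
  rwa [inner_toL2, star_star, ← n2, ← n2, n2_star] at this

lemma norm_τ_le_n2 (x : A) : ‖τ x‖ ≤ n2 x := by simpa using norm_τ_mul_le 1 x

lemma τ_im_of_sa {x : A} (h : IsSelfAdjoint x) : (τ x).im = 0 := by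
  have := τ_star x
  rw [h.star_eq] at this
  exact Complex.conj_eq_iff_im.mp this.symm

section Order
attribute [local instance] CStarAlgebra.spectralOrder CStarAlgebra.spectralOrderedRing

lemma τ_re_nonneg {x : A} (h : 0 ≤ x) : 0 ≤ (τ x).re := by
  obtain ⟨y, rfl⟩ := CStarAlgebra.nonneg_iff_eq_star_mul_self.mp h
  exact τ_nonneg y

lemma τ_re_mono {x y : A} (h : x ≤ y) : (τ x).re ≤ (τ y).re := by
  have := τ_re_nonneg (sub_nonneg.mpr h)
  simpa using this

lemma eq_zero_of_τ_re {x : A} (h : 0 ≤ x) (h0 : (τ x).re = 0) : x = 0 := by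
  obtain ⟨y, rfl⟩ := CStarAlgebra.nonneg_iff_eq_star_mul_self.mp h
  rw [faithful y h0]; simp

lemma τ_mul_re_nonneg {x y : A} (hx : 0 ≤ x) (hy : 0 ≤ y) : 0 ≤ (τ (x * y)).re := by
  obtain ⟨z, rfl⟩ := CStarAlgebra.nonneg_iff_eq_star_mul_self.mp hy
  rw [← mul_assoc, τ_comm, ← mul_assoc]
  exact τ_re_nonneg (star_right_conjugate_nonneg hx z)

lemma n2_mul_le_left (x y : A) : n2 (x * y) ≤ ‖x‖ * n2 y := by
  refine (sq_le_sq₀ (n2_nonneg _) (mul_nonneg (norm_nonneg _) (n2_nonneg _))).mp ?_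
  have h := τ_re_mono (star_left_conjugate_le_conjugate
    (CStarAlgebra.star_mul_le_algebraMap_norm_sq (a := x)) y)
  rw [n2_sq, mul_pow, n2_sq, star_mul]
  rw [Algebra.algebraMap_eq_smul_one, mul_smul_comm, smul_mul_assoc, mul_one, τ_rsmul] at h
  simpa [mul_assoc, ← Complex.ofReal_pow] using h

end Order

lemma n2_mul_le_right (x y : A) : n2 (x * y) ≤ n2 x * ‖y‖ := by
  rw [← n2_star, star_mul, mul_comm, ← n2_star x, ← norm_star y]
  exact n2_mul_le_left _ _

lemma n2_le_norm (x : A) : n2 x ≤ ‖x‖ := by simpa using n2_mul_le_left x 1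

lemma norm_τ_le (x : A) : ‖τ x‖ ≤ ‖x‖ := (norm_τ_le_n2 x).trans (n2_le_norm x)

lemma n2_unitary_mul {u : A} (hu : u ∈ unitary A) (x : A) : n2 (u * x) = n2 x := by
  rw [← sq_eq_sq₀ (n2_nonneg _) (n2_nonneg _), n2_sq, n2_sq, star_mul, mul_assoc,
    ← mul_assoc (star u), hu.1, one_mul]

lemma n2_mul_unitary {u : A} (hu : u ∈ unitary A) (x : A) : n2 (x * u) = n2 x := by
  rw [← n2_star, star_mul, n2_unitary_mul (Unitary.star_mem hu), n2_star]

lemma n2_unitary {u : A} (hu : u ∈ unitary A) : n2 u = 1 := by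
  simpa using n2_mul_unitary hu 1

lemma n2_sq_proj {p : A} (hp : IsStarProjection p) : n2 p ^ 2 = (τ p).re := by
  rw [n2_sq, hp.isSelfAdjoint.star_eq, hp.isIdempotentElem.eq]

/-- Convergence in the 2-norm. -/
def Lim (x : ℕ → A) (y : A) : Prop := Tendsto (fun n => n2 (x n - y)) atTop (𝓝 0)

lemma lim_iff {x : ℕ → A} {y : A} :
    Lim x y ↔ Tendsto (fun n => toL2 (x n)) atTop (𝓝 (toL2 y)) := by
  rw [tendsto_iff_dist_tendsto_zero]; simp only [dist_toL2, Lim]

lemma Lim.of_le {x : ℕ → A} {y : A} {f : ℕ → ℝ} (hf : Tendsto f atTop (𝓝 0))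
    (h : ∀ n, n2 (x n - y) ≤ f n) : Lim x y :=
  squeeze_zero (fun _ => n2_nonneg _) h hf

lemma Lim.of_tendsto {x : ℕ → A} {y : A} (h : Tendsto x atTop (𝓝 y)) : Lim x y :=
  Lim.of_le (tendsto_iff_norm_sub_tendsto_zero.mp h) fun _ => n2_le_norm _

lemma Lim.const (y : A) : Lim (fun _ => y) y := by simp [Lim]

lemma Lim.unique {x : ℕ → A} {y z : A} (h : Lim x y) (h' : Lim x z) : y = z :=
  toL2.injective (tendsto_nhds_unique (lim_iff.mp h) (lim_iff.mp h'))

lemma Lim.add {x x' : ℕ → A} {y y' : A} (h : Lim x y) (h' : Lim x' y') :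
    Lim (fun n => x n + x' n) (y + y') := by
  simpa only [lim_iff, map_add] using (lim_iff.mp h).add (lim_iff.mp h')

lemma Lim.sub {x x' : ℕ → A} {y y' : A} (h : Lim x y) (h' : Lim x' y') :
    Lim (fun n => x n - x' n) (y - y') := by
  simpa only [lim_iff, map_sub] using (lim_iff.mp h).sub (lim_iff.mp h')

lemma Lim.smul {x : ℕ → A} {y : A} (h : Lim x y) (c : ℂ) : Lim (fun n => c • x n) (c • y) := by
  simpa only [lim_iff, map_smul] using (lim_iff.mp h).const_smul c

lemma Lim.star {x : ℕ → A} {y : A} (h : Lim x y) : Lim (fun n => star (x n)) (star y) := by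
  simpa only [Lim, ← star_sub, n2_star] using h

lemma Lim.mul_left {x : ℕ → A} {y : A} (h : Lim x y) (a : A) : Lim (fun n => a * x n) (a * y) :=
  Lim.of_le (by simpa using h.const_mul ‖a‖) fun n => by
    rw [← mul_sub]; exact n2_mul_le_left _ _

lemma Lim.mul_right {x : ℕ → A} {y : A} (h : Lim x y) (a : A) : Lim (fun n => x n * a) (y * a) :=
  Lim.of_le (by simpa using h.mul_const ‖a‖) fun n => by
    rw [← sub_mul]; exact n2_mul_le_right _ _

lemma Lim.mul {x x' : ℕ → A} {y y' : A} {C : ℝ} (hC : ∀ n, ‖x n‖ ≤ C) (h : Lim x y)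
    (h' : Lim x' y') : Lim (fun n => x n * x' n) (y * y') :=
  Lim.of_le (by simpa using (h'.const_mul C).add (h.mul_const ‖y'‖)) fun n => by
    have : x n * x' n - y * y' = x n * (x' n - y') + (x n - y) * y' := by noncomm_ring
    rw [this]
    refine (n2_add_le _ _).trans (add_le_add ((n2_mul_le_left _ _).trans ?_) (n2_mul_le_right _ _))
    exact mul_le_mul_of_nonneg_right (hC n) (n2_nonneg _)

lemma Lim.τ {x : ℕ → A} {y : A} (h : Lim x y) : Tendsto (fun n => τ (x n)) atTop (𝓝 (τ y)) := by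
  rw [tendsto_iff_norm_sub_tendsto_zero]
  exact squeeze_zero (fun _ => norm_nonneg _) (fun n => by rw [← map_sub]; exact norm_τ_le_n2 _) h

lemma Lim.n2 {x : ℕ → A} {y : A} (h : Lim x y) : Tendsto (fun n => n2 (x n)) atTop (𝓝 (n2 y)) :=
  (lim_iff.mp h).norm

/-- Von Neumann subalgebras: closed under 2-norm limits of bounded sequences. -/
def IsVN (N : StarSubalgebra ℂ A) : Prop :=
  ∀ (x : ℕ → A) (y : A) (C : ℝ), (∀ n, x n ∈ N) → (∀ n, ‖x n‖ ≤ C) → Lim x y → y ∈ N

lemma IsVN.isClosed {N : StarSubalgebra ℂ A} (h : IsVN N) : IsClosed (N : Set A) := by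
  refine isSeqClosed_iff_isClosed.mp fun x y hx hxy => ?_
  obtain ⟨C, hC⟩ := hxy.norm.bddAbove_range
  exact h x y C hx (fun n => hC ⟨n, rfl⟩) (Lim.of_tendsto hxy)

lemma isVN_top : IsVN (⊤ : StarSubalgebra ℂ A) := fun _ _ _ _ _ _ => StarSubalgebra.mem_top

lemma IsVN.inf {N N' : StarSubalgebra ℂ A} (h : IsVN N) (h' : IsVN N') : IsVN (N ⊓ N') :=
  fun x y C hx hC hl => ⟨h x y C (fun n => (hx n).1) hC hl, h' x y C (fun n => (hx n).2) hC hl⟩

lemma isVN_sInf {S : Set (StarSubalgebra ℂ A)} (h : ∀ N ∈ S, IsVN N) : IsVN (sInf S) :=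
  fun x y C hx hC hl => StarSubalgebra.mem_sInf.mpr fun N hN =>
    h N hN x y C (fun n => StarSubalgebra.mem_sInf.mp (hx n) N hN) hC hl

lemma isVN_centralizer (S : Set A) : IsVN (StarSubalgebra.centralizer ℂ S) := by
  intro x y C hx _ hl
  simp only [StarSubalgebra.mem_centralizer_iff] at hx ⊢
  refine fun g hg => ⟨(hl.mul_left g).unique ?_, (hl.mul_left (star g)).unique ?_⟩
  · simpa only [(hx _ g hg).1] using hl.mul_right g
  · simpa only [(hx _ g hg).2] using hl.mul_right (star g)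

/-- Irreducible subalgebras: only scalars commute with them. -/
def Irr (P : StarSubalgebra ℂ A) : Prop :=
  ∀ x : A, (∀ y ∈ P, x * y = y * x) → ∃ c : ℂ, x = c • (1 : A)

end Tr

/-- A separable tracial von Neumann algebra. -/
class TW (A : Type*) [CStarAlgebra A] extends Tr A where
  complete : ∀ x : ℕ → A, (∀ n, ‖x n‖ ≤ 1) → CauchySeq (fun n => toL2 (x n)) →
    ∃ y, ‖y‖ ≤ 1 ∧ Lim x y
  sep : TopologicalSpace.SeparableSpace (L2 A)

section TW
variable {A : Type*} [CStarAlgebra A] [TW A]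

instance : TopologicalSpace.SeparableSpace (L2 A) := TW.sep

lemma exists_lim {x : ℕ → A} {C : ℝ} (hC : ∀ n, ‖x n‖ ≤ C) (h : CauchySeq fun n => toL2 (x n)) :
    ∃ y, ‖y‖ ≤ C ∧ Lim x y := by
  rcases ((norm_nonneg _).trans (hC 0)).eq_or_lt with h0 | h0
  · have : x = fun _ => 0 := funext fun n => norm_le_zero_iff.mp (h0 ▸ hC n)
    exact ⟨0, by simp [← h0], this ▸ Lim.const 0⟩
  obtain ⟨y, hy, hl⟩ := TW.complete (fun n => (C : ℂ)⁻¹ • x n) (fun n => by
    rw [norm_smul, norm_inv, Complex.norm_real, Real.norm_of_nonneg h0.le, inv_mul_le_iff₀ h0]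
    simpa using hC n) (by
      simpa only [map_smul, Function.comp_def] using
        (uniformContinuous_const_smul (C : ℂ)⁻¹).comp_cauchySeq h)
  have hC0 : (C : ℂ) ≠ 0 := by exact_mod_cast h0.ne'
  refine ⟨(C : ℂ) • y, ?_, by simpa [smul_smul, hC0] using hl.smul C⟩
  rw [norm_smul, Complex.norm_real, Real.norm_of_nonneg h0.le]
  nlinarith [norm_nonneg y]

lemma Lim.norm_le {x : ℕ → A} {y : A} {C : ℝ} (h : Lim x y) (hC : ∀ n, ‖x n‖ ≤ C) : ‖y‖ ≤ C := by
  obtain ⟨z, hz, hl⟩ := exists_lim hC (lim_iff.mp h).cauchySeq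
  rwa [h.unique hl]

/-- A bounded set closed under 2-norm limits of sequences is complete. -/
lemma isComplete_of_lim {S : Set A} {C : ℝ} (hC : ∀ x ∈ S, ‖x‖ ≤ C)
    (h : ∀ (x : ℕ → A) (y : A), (∀ n, x n ∈ S) → Lim x y → y ∈ S) : IsComplete (toL2 '' S) := by
  rw [← completeSpace_coe_iff_isComplete]
  refine Metric.complete_of_cauchySeq_tendsto fun u hu => ?_
  choose x hx hxu using fun n => (u n).2
  obtain ⟨y, -, hl⟩ := exists_lim (fun n => hC _ (hx n)) (by
    simpa only [hxu, Function.comp_def] using uniformContinuous_subtype_val.comp_cauchySeq hu)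
  refine ⟨⟨toL2 y, y, h x y hx hl, rfl⟩, tendsto_subtype_rng.mpr ?_⟩
  simpa only [hxu] using lim_iff.mp hl

lemma Lim.unitary {x : ℕ → A} {y : A} (h : Lim x y) (hx : ∀ n, x n ∈ unitary A) :
    y ∈ unitary A := by
  have := nontrivial_of_tr A
  have h1 : ∀ n, ‖x n‖ ≤ 1 := fun n => (CStarRing.norm_of_mem_unitary (hx n)).le
  refine ⟨(h.star.mul (C := 1) (fun n => by simpa using h1 n) h).unique ?_,
    (h.mul h1 h.star).unique ?_⟩
  · simpa only [(hx _).1] using Lim.const (1 : A)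
  · simpa only [(hx _).2] using Lim.const (1 : A)

/-- The trace restricted to a closed subalgebra. -/
@[reducible] noncomputable def subTr (Q : StarSubalgebra ℂ A) [IsClosed (Q : Set A)] : Tr Q where
  τ := (τ : A →L[ℂ] ℂ).comp (Q.toSubalgebra.toSubmodule.subtypeL)
  τ_one := τ_one (A := A)
  τ_comm x y := τ_comm (x : A) y
  τ_star x := τ_star (x : A)
  τ_nonneg x := τ_nonneg (x : A)
  faithful x h := Subtype.ext (faithful (x : A) h)

lemma n2_sub_eq (Q : StarSubalgebra ℂ A) [IsClosed (Q : Set A)] (x : Q) :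
    @n2 Q _ (subTr Q) x = n2 (x : A) := by
  let _ := subTr Q
  rw [← sq_eq_sq₀ (n2_nonneg _) (n2_nonneg _), n2_sq, n2_sq]
  rfl

/-- A von Neumann subalgebra is a tracial von Neumann algebra. -/
@[reducible] noncomputable def subTW (Q : StarSubalgebra ℂ A) [IsClosed (Q : Set A)]
    (hQ : IsVN Q) : TW Q :=
  letI := subTr Q
  have iso : Isometry fun x : L2 Q => toL2 ((toL2.symm x : Q) : A) :=
    Isometry.of_dist_eq fun x y => by
      rw [dist_toL2, ← toL2.apply_symm_apply x, ← toL2.apply_symm_apply y, dist_toL2, n2_sub_eq]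
      simp
  { subTr Q with
    complete := fun x hx hc => by
      obtain ⟨y, hy, hl⟩ := exists_lim (x := fun n => (x n : A)) hx
        (iso.uniformContinuous.comp_cauchySeq hc)
      refine ⟨⟨y, hQ _ y 1 (fun n => (x n).2) hx hl⟩, hy, ?_⟩
      simp only [Lim, n2_sub_eq]
      exact hl
    sep := iso.isEmbedding.separableSpace }

end TW

end Crest.Agent.R95
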