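import Crest.Agent.R95.Basic

/-! Row 95: the conditional expectation onto a von Neumann subalgebra. -/

set_option autoImplicit false

namespace Crest.Agent.R95

open Filter Topology
open scoped ComplexConjugate InnerProductSpace

/-- Every element of a star subalgebra is a combination of self-adjoint contractions. -/
lemma sa_ind {A : Type*} [CStarAlgebra A] (N : StarSubalgebra ℂ A) {p : A → Prop}
    (h1 : ∀ x ∈ N, IsSelfAdjoint x → ‖x‖ ≤ 1 → p x) (hadd : ∀ x y, p x → p y → p (x + y))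
    (hsmul : ∀ (c : ℂ) x, p x → p (c • x)) : ∀ x ∈ N, p x := by
  have h2 : ∀ x ∈ N, IsSelfAdjoint x → p x := by
    intro x hx hs
    have h0 : (0 : ℝ) < ‖x‖ + 1 := by positivity
    have hc : (((‖x‖ + 1 : ℝ) : ℂ)) ≠ 0 := by exact_mod_cast h0.ne'
    have := hsmul ((‖x‖ + 1 : ℝ) : ℂ) _ (h1 ((((‖x‖ + 1 : ℝ) : ℂ))⁻¹ • x) (N.smul_mem hx _)
      (IsSelfAdjoint.smul (by rw [IsSelfAdjoint, star_inv₀, Complex.star_def, Complex.conj_ofReal]) hs)
      (by
        rw [norm_smul, norm_inv, Complex.norm_real, Real.norm_of_nonneg h0.le, inv_mul_le_iff₀ h0]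
        linarith))
    rwa [smul_smul, mul_inv_cancel₀ hc, one_smul] at this
  intro x hx
  have ha := h2 (x + star x) (add_mem hx (star_mem hx)) (IsSelfAdjoint.add_star_self x)
  have hb := h2 (Complex.I • (x - star x)) (N.smul_mem (sub_mem hx (star_mem hx)) _) (by
    rw [IsSelfAdjoint, star_smul, star_sub, star_star, Complex.star_def, Complex.conj_I, neg_smul,
      ← smul_neg, neg_sub])
  have := hadd _ _ (hsmul (2⁻¹ : ℂ) _ ha) (hsmul (-(2⁻¹ : ℂ) * Complex.I) _ hb)
  convert this using 1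
  rw [smul_smul, mul_assoc, Complex.I_mul_I]
  module

section Tr
variable {A : Type*} [CStarAlgebra A] [Tr A]

lemma τ_mul_im_of_sa {x y : A} (hx : IsSelfAdjoint x) (hy : IsSelfAdjoint y) :
    (τ (x * y)).im = 0 := by
  have := τ_star (x * y)
  rw [star_mul, hx.star_eq, hy.star_eq, τ_comm] at this
  exact Complex.conj_eq_iff_im.mp this.symm

attribute [local instance] CStarAlgebra.spectralOrder CStarAlgebra.spectralOrderedRing

/-- The variational inequality forces the minimiser to be a contraction. -/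
lemma norm_le_one_of_var {N : StarSubalgebra ℂ A} (hN : IsVN N) {x y : A} (hx : IsSelfAdjoint x)
    (hx1 : ‖x‖ ≤ 1) (hyN : y ∈ N) (hy : IsSelfAdjoint y)
    (h : ∀ z ∈ N, IsSelfAdjoint z → ‖z‖ ≤ 1 → (τ ((x - y) * (z - y))).re ≤ 0) : ‖y‖ ≤ 1 := by
  have : IsClosed (N : Set A) := hN.isClosed
  set p := cfc (fun t : ℝ => max (t - 1) 0) y with hp
  set m := cfc (fun t : ℝ => max (-t - 1) 0) y with hm
  have hp0 : 0 ≤ p := cfc_nonneg fun _ _ => le_max_right _ _
  have hm0 : 0 ≤ m := cfc_nonneg fun _ _ => le_max_right _ _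
  have hc : y - (p - m) = cfc (fun t : ℝ => t - (max (t - 1) 0 - max (-t - 1) 0)) y := by
    rw [cfc_sub (fun t : ℝ => t) _ y, cfc_sub _ _ y, cfc_id' ℝ y]
  have hc1 : ‖y - (p - m)‖ ≤ 1 := by
    rw [hc]
    refine norm_cfc_le zero_le_one fun t _ => ?_
    rw [Real.norm_eq_abs, abs_le]
    constructor <;> simp only [max_def] <;> split_ifs <;> linarith
  have hid : y * (p - m) = (p - m) * (p - m) + p + m := by
    have e1 : p - m = cfc (fun t : ℝ => max (t - 1) 0 - max (-t - 1) 0) y := by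
      rw [cfc_sub _ _ y]
    have e2 : y * (p - m) = cfc (fun t : ℝ => t * (max (t - 1) 0 - max (-t - 1) 0)) y := by
      rw [cfc_mul (fun t : ℝ => t) _ y, cfc_id' ℝ y, ← e1]
    have e3 : (p - m) * (p - m) + p + m = cfc (fun t : ℝ => (max (t - 1) 0 - max (-t - 1) 0) *
        (max (t - 1) 0 - max (-t - 1) 0) + max (t - 1) 0 + max (-t - 1) 0) y := by
      rw [cfc_add y _ _, cfc_add y _ _, cfc_mul _ _ y, ← e1]
    rw [e2, e3]
    refine cfc_congr fun t _ => ?_
    simp only [max_def]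
    split_ifs <;> nlinarith
  have hsa : IsSelfAdjoint (p - m) := hp0.isSelfAdjoint.sub hm0.isSelfAdjoint
  have hmem : p - m ∈ N := sub_mem (cfc_mem (𝕜' := ℂ) _ hyN) (cfc_mem (𝕜' := ℂ) _ hyN)
  have hz := h _ (sub_mem hyN hmem) (hy.sub hsa) hc1
  have e : (x - y) * (y - (p - m) - y) = star (p - m) * (p - m) + (1 - x) * p + (1 + x) * m := by
    rw [hsa.star_eq]
    have : (x - y) * (y - (p - m) - y) = y * (p - m) - x * (p - m) := by noncomm_ring
    rw [this, hid]
    noncomm_ring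
  have hx' : x ≤ 1 := hx.le_algebraMap_norm_self.trans (by
    rw [Algebra.algebraMap_eq_smul_one]
    simpa using smul_le_smul_of_nonneg_right hx1 (zero_le_one (α := A)))
  have hx'' : -x ≤ 1 := hx.neg.le_algebraMap_norm_self.trans (by
    rw [Algebra.algebraMap_eq_smul_one, norm_neg]
    simpa using smul_le_smul_of_nonneg_right hx1 (zero_le_one (α := A)))
  have a1 := τ_mul_re_nonneg (sub_nonneg.mpr hx') hp0
  have a2 := τ_mul_re_nonneg (x := 1 + x) (by simpa using sub_nonneg.mpr hx'') hm0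
  rw [e, map_add, map_add, Complex.add_re, Complex.add_re] at hz
  have h0 : p - m = 0 := faithful _ (le_antisymm (by linarith) (τ_nonneg _))
  simpa [h0] using hc1

end Tr

variable {A : Type*} [CStarAlgebra A] [TW A]

lemma exists_condexp_sa {N : StarSubalgebra ℂ A} (hN : IsVN N) {x : A} (hx : IsSelfAdjoint x)
    (hx1 : ‖x‖ ≤ 1) : ∃ y ∈ N, IsSelfAdjoint y ∧ ∀ n ∈ N, τ ((x - y) * n) = 0 := by
  let _ : InnerProductSpace ℝ (L2 A) := InnerProductSpace.complexToReal
  set K : Set A := {y | y ∈ N ∧ IsSelfAdjoint y ∧ ‖y‖ ≤ 2} with hK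
  have hcomp : IsComplete (toL2 '' K) := by
    refine isComplete_of_lim (C := 2) (fun y hy => hy.2.2) fun s y hs hl =>
      ⟨hN s y 2 (fun n => (hs n).1) (fun n => (hs n).2.2) hl, ?_, hl.norm_le fun n => (hs n).2.2⟩
    refine hl.star.unique ?_
    simpa only [(hs _).2.1.star_eq] using hl
  have hconv : Convex ℝ (toL2 '' K) := by
    rintro _ ⟨a, ha, rfl⟩ _ ⟨b, hb, rfl⟩ s t hs ht hst
    refine ⟨(s : ℂ) • a + (t : ℂ) • b, ⟨add_mem (N.smul_mem ha.1 _) (N.smul_mem hb.1 _), ?_, ?_⟩, ?_⟩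
    · refine (IsSelfAdjoint.smul ?_ ha.2.1).add (IsSelfAdjoint.smul ?_ hb.2.1) <;>
        simp [IsSelfAdjoint]
    · refine (norm_add_le _ _).trans ?_
      rw [norm_smul, norm_smul, Complex.norm_real, Complex.norm_real, Real.norm_of_nonneg hs,
        Real.norm_of_nonneg ht]
      nlinarith [ha.2.2, hb.2.2]
    · rw [map_add, map_smul, map_smul]; rfl
  have h0K : (0 : A) ∈ K := ⟨zero_mem _, IsSelfAdjoint.zero _, by simp⟩
  obtain ⟨_, ⟨y, hy, rfl⟩, hmin⟩ := exists_norm_eq_iInf_of_complete_convex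
    (Set.Nonempty.image _ ⟨0, h0K⟩) hcomp hconv (toL2 x)
  rw [norm_eq_iInf_iff_real_inner_le_zero hconv ⟨y, hy, rfl⟩] at hmin
  have hvar : ∀ z ∈ K, (τ ((x - y) * (z - y))).re ≤ 0 := by
    intro z hz
    have := hmin _ ⟨z, hz, rfl⟩
    rw [← map_sub, ← map_sub] at this
    have e : ⟪toL2 (x - y), toL2 (z - y)⟫_ℝ = (τ (star (x - y) * (z - y))).re := rfl
    rwa [e, (hx.sub hy.2.1).star_eq] at this
  have hy1 : ‖y‖ ≤ 1 := norm_le_one_of_var hN hx hx1 hy.1 hy.2.1 fun z hz hs h1 =>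
    hvar z ⟨hz, hs, by linarith⟩
  refine ⟨y, hy.1, hy.2.1, sa_ind N (p := fun n => τ ((x - y) * n) = 0) ?_ ?_ ?_⟩
  · intro n hn hs h1
    have b1 := hvar (y + n) ⟨add_mem hy.1 hn, hy.2.1.add hs, (norm_add_le _ _).trans (by linarith)⟩
    have b2 := hvar (y - n) ⟨sub_mem hy.1 hn, hy.2.1.sub hs, (norm_sub_le _ _).trans (by linarith)⟩
    rw [add_sub_cancel_left] at b1
    rw [sub_sub_cancel_left, mul_neg, map_neg, Complex.neg_re] at b2
    exact Complex.ext (by rw [Complex.zero_re]; linarith) (τ_mul_im_of_sa (hx.sub hy.2.1) hs)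
  · intro a b ha hb
    rw [mul_add, map_add, ha, hb, add_zero]
  · intro c a ha
    rw [mul_smul_comm, map_smul, ha, smul_zero]

end Crest.Agent.R95
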