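import Crest.Agent.R95.DL
import Crest.Agent.R95.CondExp

/-! Row 95: conditional expectation and the Baire argument. -/

set_option autoImplicit false

namespace Crest.Agent.R95

open Filter Topology
open scoped ComplexConjugate InnerProductSpace

variable {A : Type*} [CStarAlgebra A] [TW A]

theorem exists_condexp {N : StarSubalgebra ℂ A} (hN : IsVN N) (x : A) :
    ∃ y ∈ N, ∀ n ∈ N, τ ((x - y) * n) = 0 := by
  refine sa_ind ⊤ (p := fun x => ∃ y ∈ N, ∀ n ∈ N, τ ((x - y) * n) = 0) ?_ ?_ ?_ x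
    StarSubalgebra.mem_top
  · intro x _ hs h1
    obtain ⟨y, hy, -, h⟩ := exists_condexp_sa hN hs h1
    exact ⟨y, hy, h⟩
  · rintro a b ⟨y, hy, h⟩ ⟨z, hz, h'⟩
    refine ⟨y + z, add_mem hy hz, fun n hn => ?_⟩
    rw [add_sub_add_comm, add_mul, map_add, h n hn, h' n hn, add_zero]
  · rintro c a ⟨y, hy, h⟩
    refine ⟨c • y, N.smul_mem hy c, fun n hn => ?_⟩
    rw [← smul_sub, smul_mul_assoc, map_smul, h n hn, smul_zero]

theorem eq_top_of_dense {N : StarSubalgebra ℂ A} (hN : IsVN N)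
    (h : ∀ (x : A) (ε : ℝ), 0 < ε → ∃ y ∈ N, n2 (x - y) < ε) : N = ⊤ := by
  refine eq_top_iff.mpr fun x _ => ?_
  obtain ⟨y, hy, ho⟩ := exists_condexp hN x
  have h0 : n2 (x - y) = 0 := by
    by_contra hne
    have hpos : 0 < n2 (x - y) := lt_of_le_of_ne (n2_nonneg _) (Ne.symm hne)
    obtain ⟨n, hn, hlt⟩ := h (star (x - y)) _ hpos
    have h1 := norm_τ_mul_le (x - y) (star (x - y) - n)
    rw [mul_sub, map_sub, ho n hn, sub_zero, τ_comm, τ_star_mul_self, Complex.norm_real,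
      Real.norm_of_nonneg (sq_nonneg _)] at h1
    nlinarith
  rw [sub_eq_zero.mp (n2_eq_zero.mp h0)]
  exact hy

theorem adjoin_cont (S : Set A) {u y : A} (hu : u ∈ unitary A)
    (hy : y ∈ StarAlgebra.adjoin ℂ (insert u S)) :
    ∃ K : ℝ, 0 < K ∧ ∀ v ∈ unitary A, ∃ y' ∈ StarAlgebra.adjoin ℂ (insert v S),
      ‖y'‖ ≤ K ∧ n2 (y' - y) ≤ K * n2 (v - u) := by
  have := nontrivial_of_tr A
  induction hy using StarAlgebra.adjoin_induction with
  | mem x hx =>
    rcases hx with rfl | hx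
    · exact ⟨1, one_pos, fun v hv => ⟨v, StarAlgebra.subset_adjoin ℂ _ (Set.mem_insert _ _),
        (CStarRing.norm_of_mem_unitary hv).le, by simp⟩⟩
    · refine ⟨‖x‖ + 1, by positivity, fun v _ => ⟨x, StarAlgebra.subset_adjoin ℂ _
        (Set.mem_insert_of_mem _ hx), by linarith, ?_⟩⟩
      rw [sub_self, n2_zero]
      exact mul_nonneg (by positivity) (n2_nonneg _)
  | algebraMap r =>
    refine ⟨‖algebraMap ℂ A r‖ + 1, by positivity, fun v _ => ⟨algebraMap ℂ A r,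
      algebraMap_mem _ r, by linarith, ?_⟩⟩
    rw [sub_self, n2_zero]
    exact mul_nonneg (by positivity) (n2_nonneg _)
  | add a b _ _ iha ihb =>
    obtain ⟨K, hK, ha⟩ := iha
    obtain ⟨K', hK', hb⟩ := ihb
    refine ⟨K + K', by positivity, fun v hv => ?_⟩
    obtain ⟨a', ha', h1, h2⟩ := ha v hv
    obtain ⟨b', hb', h3, h4⟩ := hb v hv
    refine ⟨a' + b', add_mem ha' hb', (norm_add_le _ _).trans (by linarith), ?_⟩
    rw [add_sub_add_comm, add_mul]
    exact (n2_add_le _ _).trans (add_le_add h2 h4)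
  | mul a b _ _ iha ihb =>
    obtain ⟨K, hK, ha⟩ := iha
    obtain ⟨K', hK', hb⟩ := ihb
    refine ⟨K * K' + K * ‖b‖, by positivity, fun v hv => ?_⟩
    obtain ⟨a', ha', h1, h2⟩ := ha v hv
    obtain ⟨b', hb', h3, h4⟩ := hb v hv
    refine ⟨a' * b', mul_mem ha' hb', (norm_mul_le _ _).trans ?_, ?_⟩
    · have := mul_le_mul h1 h3 (norm_nonneg _) hK.le
      have := mul_nonneg hK.le (norm_nonneg b)
      linarith
    · have e : a' * b' - a * b = a' * (b' - b) + (a' - a) * b := by noncomm_ring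
      rw [e]
      have f1 := (n2_mul_le_left a' (b' - b)).trans (mul_le_mul h1 h4 (n2_nonneg _) hK.le)
      have f2 := (n2_mul_le_right (a' - a) b).trans
        (mul_le_mul_of_nonneg_right h2 (norm_nonneg b))
      refine (n2_add_le _ _).trans ((add_le_add f1 f2).trans (le_of_eq ?_))
      ring
  | star a _ iha =>
    obtain ⟨K, hK, ha⟩ := iha
    refine ⟨K, hK, fun v hv => ?_⟩
    obtain ⟨a', ha', h1, h2⟩ := ha v hv
    exact ⟨star a', star_mem ha', by simpa using h1, by rwa [← star_sub, n2_star]⟩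

/-- The open dense sets of the Baire argument. -/
def baireSet (P : StarSubalgebra ℂ A) (x : A) : Set (toL2 '' (unitary A : Set A)) :=
  {u | ∃ y ∈ StarAlgebra.adjoin ℂ (insert (toL2.symm u.1 : A) (P : Set A)),
    n2 y < 2 ∧ n2 x ^ 2 / 128 < ‖τ (x * y)‖}

lemma symm_mem_unitary (u : toL2 '' (unitary A : Set A)) : (toL2.symm u.1 : A) ∈ unitary A := by
  obtain ⟨_, v, hv, rfl⟩ := u
  simpa using hv

lemma dist_unitary (u v : toL2 '' (unitary A : Set A)) :
    dist u v = n2 ((toL2.symm u.1 : A) - toL2.symm v.1) := by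
  rw [← dist_toL2, toL2.apply_symm_apply, toL2.apply_symm_apply, Subtype.dist_eq]

lemma isOpen_baireSet (P : StarSubalgebra ℂ A) (x : A) : IsOpen (baireSet P x) := by
  refine Metric.isOpen_iff.mpr ?_
  rintro u ⟨y, hy, h1, h2⟩
  obtain ⟨K, hK, hc⟩ := adjoin_cont _ (symm_mem_unitary u) hy
  have hx := n2_nonneg x
  set δ := min (2 - n2 y) ((‖τ (x * y)‖ - n2 x ^ 2 / 128) / (n2 x + 1)) with hδ
  have hδ0 : 0 < δ := lt_min (by linarith) (div_pos (by linarith) (by positivity))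
  refine ⟨δ / K, by positivity, fun v hv => ?_⟩
  obtain ⟨y', hy', -, h4⟩ := hc _ (symm_mem_unitary v)
  rw [Metric.mem_ball, dist_unitary, lt_div_iff₀ hK] at hv
  have h5 : n2 (y' - y) < δ := by linarith
  refine ⟨y', hy', ?_, ?_⟩
  · have := n2_add_le (y' - y) y
    rw [sub_add_cancel] at this
    linarith [min_le_left (2 - n2 y) ((‖τ (x * y)‖ - n2 x ^ 2 / 128) / (n2 x + 1))]
  · have h6 := (lt_div_iff₀ (by positivity : 0 < n2 x + 1)).mp (h5.trans_le (min_le_right _ _))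
    have h7 := norm_τ_mul_le x (y' - y)
    rw [mul_sub, map_sub] at h7
    have h8 := norm_sub_norm_le (τ (x * y)) (τ (x * y'))
    rw [norm_sub_rev] at h8
    nlinarith [n2_nonneg (y' - y)]

lemma dense_baireSet {P : StarSubalgebra ℂ A} (hP : IsVN P) (hirr : Irr P)
    (hinf : ¬ FiniteDimensional ℂ P) {x : A} (hx : IsSelfAdjoint x) (hx1 : ‖x‖ ≤ 1) (hx0 : x ≠ 0) :
    Dense (baireSet P x) := by
  refine Metric.dense_iff.mpr fun u r hr => ?_
  obtain ⟨v, hv, hvu, y, hy, h1, h2⟩ := dl hP hirr hinf (symm_mem_unitary u) hx hx1 hr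
  have hpos : 0 < n2 x := lt_of_le_of_ne (n2_nonneg _) fun h => hx0 (n2_eq_zero.mp h.symm)
  refine ⟨⟨toL2 v, v, hv, rfl⟩, ?_, y, by simpa using hy, by linarith, ?_⟩
  · rw [Metric.mem_ball, dist_unitary]
    simpa using hvu
  · nlinarith [pow_pos hpos 2]

theorem generic {P : StarSubalgebra ℂ A} (hP : IsVN P) (hirr : Irr P)
    (hinf : ¬ FiniteDimensional ℂ P) {u₀ : A} (hu₀ : u₀ ∈ unitary A) {ε : ℝ} (hε : 0 < ε) :
    ∃ u ∈ unitary A, n2 (u - u₀) < ε ∧
      ∀ N : StarSubalgebra ℂ A, IsVN N → P ≤ N → u ∈ N → N = ⊤ := by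
  have := nontrivial_of_tr A
  have hc : IsComplete (toL2 '' (unitary A : Set A)) :=
    isComplete_of_lim (C := 1) (fun x hx => (CStarRing.norm_of_mem_unitary hx).le)
      fun x y hx hl => hl.unitary hx
  have := completeSpace_coe_iff_isComplete.mpr hc
  obtain ⟨D, hDs, hDc, hDd⟩ := (TopologicalSpace.IsSeparable.of_separableSpace
    (toL2 '' {x : A | IsSelfAdjoint x ∧ ‖x‖ ≤ 1})).exists_countable_dense_subset
  have hd := dense_biInter_of_isOpen (S := D \ {0}) (f := fun x => baireSet P (toL2.symm x))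
    (fun x _ => isOpen_baireSet P _) (hDc.mono Set.diff_subset) (by
      rintro _ ⟨hx, hx0⟩
      obtain ⟨x, hx', rfl⟩ := hDs hx
      refine dense_baireSet hP hirr hinf (by simpa using hx'.1) (by simpa using hx'.2) ?_
      simpa using hx0)
  obtain ⟨u, hu1, hu2⟩ := Metric.dense_iff.mp hd ⟨toL2 u₀, u₀, hu₀, rfl⟩ ε hε
  refine ⟨toL2.symm u.1, symm_mem_unitary u, by simpa [dist_unitary] using hu1,
    fun N hN hPN huN => ?_⟩
  have hle : StarAlgebra.adjoin ℂ (insert (toL2.symm u.1 : A) (P : Set A)) ≤ N :=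
    StarAlgebra.adjoin_le (Set.insert_subset huN hPN)
  -- a self-adjoint contraction orthogonal to `N` vanishes
  have key : ∀ w : A, IsSelfAdjoint w → ‖w‖ ≤ 1 → (∀ n ∈ N, τ (w * n) = 0) → w = 0 := by
    intro w hw hw1 ho
    by_contra hne
    have ha : 0 < n2 w := lt_of_le_of_ne (n2_nonneg _) fun h => hne (n2_eq_zero.mp h.symm)
    obtain ⟨x, hxD, hxw⟩ := Metric.mem_closure_iff.mp (hDd ⟨w, ⟨hw, hw1⟩, rfl⟩)
      (min (n2 w / 2) (n2 w ^ 2 / 1024)) (by positivity)
    obtain ⟨x, -, rfl⟩ := hDs hxD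
    rw [dist_toL2, lt_min_iff] at hxw
    have hx : n2 w / 2 < n2 x := by
      have := n2_add_le (w - x) x
      rw [sub_add_cancel] at this
      linarith [hxw.1]
    have hx0 : toL2 x ≠ 0 := fun h => by
      rw [toL2.map_eq_zero_iff.mp h, n2_zero] at hx
      linarith
    obtain ⟨y, hy, h1, h2⟩ := Set.mem_iInter₂.mp hu2 (toL2 x) ⟨hxD, hx0⟩
    rw [toL2.symm_apply_apply] at h2
    have h3 := norm_τ_mul_le (w - x) y
    rw [sub_mul, map_sub, ho y (hle hy), zero_sub, norm_neg] at h3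
    nlinarith [n2_nonneg (w - x), n2_nonneg y, hxw.2]
  refine eq_top_iff.mpr fun z _ => sa_ind ⊤ (p := fun z => z ∈ N) ?_ (fun _ _ => add_mem)
    (fun c _ h => N.smul_mem h c) z StarSubalgebra.mem_top
  intro z _ hz hz1
  obtain ⟨y, hy, hys, ho⟩ := exists_condexp_sa hN hz hz1
  have h0 : (0 : ℝ) < ‖z - y‖ + 1 := by positivity
  have hc0 : (((‖z - y‖ + 1 : ℝ) : ℂ)) ≠ 0 := by exact_mod_cast h0.ne'
  have := key ((((‖z - y‖ + 1 : ℝ) : ℂ))⁻¹ • (z - y))
    (IsSelfAdjoint.smul (by rw [IsSelfAdjoint, star_inv₀, Complex.star_def, Complex.conj_ofReal])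
      (hz.sub hys))
    (by
      rw [norm_smul, norm_inv, Complex.norm_real, Real.norm_of_nonneg h0.le, inv_mul_le_iff₀ h0]
      linarith)
    (fun n hn => by rw [smul_mul_assoc, map_smul, ho n hn, smul_zero])
  rw [smul_eq_zero_iff_right (inv_ne_zero hc0), sub_eq_zero] at this
  rwa [this]

end Crest.Agent.R95
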