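import Mathlib

/-! Row 95: amplification of operators, strong limits, bicommutant density. -/

set_option autoImplicit false

namespace Crest.Agent.R95.Conc

open Filter Topology
open scoped InnerProductSpace

/-- The countable amplification of a Hilbert space. -/
abbrev K (H : Type*) [NormedAddCommGroup H] := lp (fun _ : ℕ => H) 2

variable {H : Type*} [NormedAddCommGroup H] [InnerProductSpace ℂ H]

/-- The diagonal operator. -/
noncomputable def dg (x : H →L[ℂ] H) : K H →L[ℂ] K H :=
  lp.mapCLM 2 (fun _ => x) (norm_nonneg x) fun _ => le_rfl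

@[simp] lemma dg_apply (x : H →L[ℂ] H) (v : K H) (n : ℕ) : dg x v n = x (v n) := rfl

lemma norm_dg_le (x : H →L[ℂ] H) : ‖dg x‖ ≤ ‖x‖ := lp.norm_mapCLM_le _ _ _ _

lemma dg_mul_apply (x y : H →L[ℂ] H) (v : K H) : dg (x * y) v = dg x (dg y v) :=
  lp.ext (funext fun _ => rfl)

lemma dg_one_apply (v : K H) : dg 1 v = v := lp.ext (funext fun _ => rfl)

/-- `x ↦ (x (Ξ n))ₙ`. -/
noncomputable def J (Ξ : K H) : (H →L[ℂ] H) →L[ℂ] K H :=
  LinearMap.mkContinuous
    { toFun := fun x => dg x Ξ
      map_add' := fun _ _ => lp.ext (funext fun _ => rfl)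
      map_smul' := fun _ _ => lp.ext (funext fun _ => rfl) } ‖Ξ‖ fun x => by
    rw [mul_comm]
    exact (dg x).le_of_opNorm_le (norm_dg_le x) Ξ

lemma J_apply (Ξ : K H) (x : H →L[ℂ] H) : J Ξ x = dg x Ξ := rfl

lemma norm_sq_eq (v : K H) : ‖v‖ ^ 2 = ∑' n, ‖v n‖ ^ 2 := by
  simpa using lp.norm_rpow_eq_tsum (p := 2) (by norm_num) v

lemma separable_K [TopologicalSpace.SeparableSpace H] : TopologicalSpace.SeparableSpace (K H) := by
  classical
  rw [← TopologicalSpace.isSeparable_univ_iff]
  have h1 : TopologicalSpace.IsSeparable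
      (⋃ i, Set.range (lp.singleContinuousLinearMap ℂ (fun _ : ℕ => H) 2 i)) :=
    TopologicalSpace.IsSeparable.iUnion fun i =>
      TopologicalSpace.isSeparable_range (lp.singleContinuousLinearMap ℂ _ 2 i).continuous
  refine (h1.span (R := ℂ)).closure.mono fun ξ _ => ?_
  refine mem_closure_of_tendsto (lp.hasSum_single (p := 2) (by norm_num) ξ)
    (Eventually.of_forall fun s => ?_)
  exact Submodule.sum_mem _ fun i _ => Submodule.subset_span (Set.mem_iUnion.mpr ⟨i, ξ i, rfl⟩)

lemma tendsto_coord {w : ℕ → K H} {v : K H} (h : Tendsto w atTop (𝓝 v)) (k : ℕ) :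
    Tendsto (fun n => w n k) atTop (𝓝 (v k)) :=
  ((lp.evalCLM ℂ (fun _ : ℕ => H) 2 k).continuous.tendsto v).comp h

variable [CompleteSpace H]

lemma inner_dg_star (x : H →L[ℂ] H) (v w : K H) : ⟪v, dg (star x) w⟫_ℂ = ⟪dg x v, w⟫_ℂ := by
  simp only [lp.inner_eq_tsum, dg_apply, ContinuousLinearMap.star_eq_adjoint,
    ContinuousLinearMap.adjoint_inner_right]

lemma star_dg (x : H →L[ℂ] H) : star (dg x) = dg (star x) := by
  symm
  rw [ContinuousLinearMap.star_eq_adjoint (dg x), ContinuousLinearMap.eq_adjoint_iff]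
  intro v w
  rw [← inner_dg_star, star_star]

/-- A bounded sequence in `M` that is Cauchy on a separating family converges strongly. -/
lemma exists_strong (M : VonNeumannAlgebra H) {ξ : ℕ → H}
    (hsep : ∀ x ∈ M, (∀ n, x (ξ n) = 0) → x = 0) {x : ℕ → H →L[ℂ] H} (hx : ∀ n, x n ∈ M) {C : ℝ}
    (hC : ∀ n, ‖x n‖ ≤ C) (hc : ∀ k, CauchySeq fun n => x n (ξ k)) :
    ∃ y : H →L[ℂ] H, ‖y‖ ≤ C ∧ ∀ v, Tendsto (fun n => x n v) atTop (𝓝 (y v)) := by
  have hC0 : 0 ≤ C := (norm_nonneg _).trans (hC 0)
  let V : Submodule ℂ H :=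
    { carrier := {v | CauchySeq fun n => x n v}
      add_mem' := fun ha hb => by
        simpa only [Set.mem_setOf_eq, map_add, Pi.add_def] using CauchySeq.add ha hb
      zero_mem' := by simpa only [Set.mem_setOf_eq, map_zero] using cauchySeq_const (0 : H)
      smul_mem' := fun c v hv => by
        simpa only [Set.mem_setOf_eq, map_smul, Function.comp_def] using
          (uniformContinuous_const_smul c).comp_cauchySeq hv }
  have hcl : IsClosed (V : Set H) := by
    refine isClosed_of_closure_subset fun v hv => ?_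
    change CauchySeq fun n => x n v
    rw [Metric.cauchySeq_iff]
    intro ε hε
    obtain ⟨w, hw, hvw⟩ := Metric.mem_closure_iff.mp hv (ε / 3 / (C + 1)) (by positivity)
    obtain ⟨N, hN⟩ := Metric.cauchySeq_iff.mp hw (ε / 3) (by positivity)
    have h1 : ∀ n, dist (x n v) (x n w) ≤ ε / 3 := fun n => by
      rw [dist_eq_norm, ← map_sub]
      refine ((x n).le_of_opNorm_le (hC n) _).trans ?_
      rw [dist_eq_norm, lt_div_iff₀ (by positivity)] at hvw
      nlinarith [norm_nonneg (v - w)]
    refine ⟨N, fun m hm n hn => ?_⟩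
    have := dist_triangle4 (x m v) (x m w) (x n w) (x n v)
    have h2 := h1 n
    rw [dist_comm] at h2
    linarith [h1 m, hN m hm n hn]
  haveI : CompleteSpace V := hcl.completeSpace_coe
  have hp : V.starProjection ∈ M := by
    rw [VonNeumannAlgebra.IsStarProjection.mem_iff isStarProjection_starProjection]
    intro g hg v hv
    rw [Submodule.range_starProjection] at hv ⊢
    change CauchySeq fun n => x n (g v)
    have : ∀ n, x n (g v) = g (x n v) := fun n =>
      congr($(VonNeumannAlgebra.mem_commutant_iff.mp hg _ (hx n)) v)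
    simpa only [this, Function.comp_def] using g.uniformContinuous.comp_cauchySeq hv
  have h1 := hsep _ (sub_mem (one_mem M) hp) fun n => by
    rw [ContinuousLinearMap.sub_apply, Submodule.starProjection_eq_self_iff.mpr (hc n)]
    simp
  have hall : ∀ v, CauchySeq fun n => x n v := fun v => by
    have h2 : v = V.starProjection v := by simpa [sub_eq_zero] using congr($h1 v)
    have := V.starProjection_apply_mem v
    rwa [← h2] at this
  choose f hf using fun v => cauchySeq_tendsto_of_complete (hall v)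
  have hb : ∀ v, ‖f v‖ ≤ C * ‖v‖ := fun v =>
    le_of_tendsto' (hf v).norm fun n => (x n).le_of_opNorm_le (hC n) v
  exact ⟨(linearMapOfTendsto f (fun n => (x n : H →ₗ[ℂ] H)) (tendsto_pi_nhds.mpr hf)).mkContinuous
    C hb, LinearMap.mkContinuous_norm_le _ hC0 _, hf⟩

/-- Von Neumann algebras are closed under strong limits of sequences. -/
lemma mem_of_strong (N : VonNeumannAlgebra H) {x : ℕ → H →L[ℂ] H} (hx : ∀ n, x n ∈ N)
    {y : H →L[ℂ] H} (h : ∀ v, Tendsto (fun n => x n v) atTop (𝓝 (y v))) : y ∈ N := by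
  rw [← N.commutant_commutant, VonNeumannAlgebra.mem_commutant_iff]
  intro g hg
  ext v
  have : ∀ n, x n (g v) = g (x n v) := fun n =>
    congr($(VonNeumannAlgebra.mem_commutant_iff.mp hg _ (hx n)) v)
  refine tendsto_nhds_unique ((g.continuous.tendsto _).comp (h v)) ?_
  simpa only [this, Function.comp_def, ContinuousLinearMap.mul_apply] using h (g v)

/-- The commutant of a set, as a von Neumann algebra. -/
noncomputable def cent (S : Set (H →L[ℂ] H)) : VonNeumannAlgebra H where
  toStarSubalgebra := StarSubalgebra.centralizer ℂ S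
  centralizer_centralizer' := by simp

/-- Von Neumann's density theorem. -/
lemma density (T : StarSubalgebra ℂ (H →L[ℂ] H)) {x : H →L[ℂ] H}
    (hx : x ∈ (cent (T : Set (H →L[ℂ] H))).commutant) (Ξ : K H) {ε : ℝ} (hε : 0 < ε) :
    ∃ y ∈ T, ‖J Ξ (x - y)‖ < ε := by
  classical
  let W : Submodule ℂ (K H) :=
    (T.toSubalgebra.toSubmodule.map (J Ξ : (H →L[ℂ] H) →ₗ[ℂ] K H)).topologicalClosure
  haveI : CompleteSpace W := (Submodule.isClosed_topologicalClosure _).completeSpace_coe
  set p := W.starProjection with hp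
  have hinv : ∀ s ∈ T, ∀ w ∈ W, dg s w ∈ W := fun s hs w hw => by
    refine map_mem_closure (dg s).continuous hw ?_
    rintro _ ⟨y, hy, rfl⟩
    exact ⟨s * y, T.mul_mem hs hy, dg_mul_apply s y Ξ⟩
  have h1 : ∀ s ∈ T, p * dg s * p = dg s * p := fun s hs => by
    ext1 w
    exact Submodule.starProjection_eq_self_iff.mpr (hinv s hs _ (W.starProjection_apply_mem w))
  have hps : star p = p := isStarProjection_starProjection.isSelfAdjoint.star_eq
  have h2 : ∀ s ∈ T, p * dg s = dg s * p := fun s hs => by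
    have := congr(star $(h1 _ (star_mem hs)))
    simp only [star_mul, hps, star_dg, star_star, ← mul_assoc] at this
    rw [← this, h1 s hs]
  let e : ℕ → ℕ → H →L[ℂ] H := fun n m => (lp.evalCLM ℂ (fun _ : ℕ => H) 2 n).comp
    (p.comp (lp.singleContinuousLinearMap ℂ (fun _ : ℕ => H) 2 m))
  have hsg : ∀ (s : H →L[ℂ] H) (m : ℕ) (v : H), dg s (lp.single 2 m v) = lp.single 2 m (s v) :=
    fun s m v => lp.ext (funext fun n => by
      rcases eq_or_ne n m with rfl | h
      · simp
      · simp [Pi.single_eq_of_ne h])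
  have h3 : ∀ n m, ∀ s ∈ T, s * e n m = e n m * s := fun n m s hs => by
    ext v
    change dg s (p (lp.single 2 m v)) n = p (lp.single 2 m (s v)) n
    rw [← hsg]
    exact congr($((h2 s hs).symm) (lp.single 2 m v) n)
  have h4 : ∀ n m, e n m * x = x * e n m := fun n m =>
    VonNeumannAlgebra.mem_commutant_iff.mp hx _ ((StarSubalgebra.mem_centralizer_iff ℂ).mpr
      fun s hs => ⟨h3 n m s hs, h3 n m _ (star_mem hs)⟩)
  have h5 : p * dg x = dg x * p := lp.ext_continuousLinearMap (by norm_num) fun m => by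
    ext1 v
    refine lp.ext (funext fun n => ?_)
    change p (dg x (lp.single 2 m v)) n = x (p (lp.single 2 m v) n)
    rw [hsg]
    exact congr($(h4 n m) v)
  have h6 : p Ξ = Ξ := Submodule.starProjection_eq_self_iff.mpr
    (Submodule.le_topologicalClosure _ ⟨1, one_mem T, dg_one_apply Ξ⟩)
  have h7 : dg x Ξ ∈ W := by
    have : p (dg x Ξ) = dg x (p Ξ) := congr($h5 Ξ)
    rw [h6] at this
    exact this ▸ W.starProjection_apply_mem _
  obtain ⟨_, ⟨y, hy, rfl⟩, h⟩ := Metric.mem_closure_iff.mp h7 ε hε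
  exact ⟨y, hy, by rwa [map_sub, ← dist_eq_norm]⟩

end Crest.Agent.R95.Conc
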