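import Crest.Agent.R95.Odo
import Crest.Agent.R95.ConcAux
import Crest.Prelude.Def_VNFactor

/-! Row 95: concrete von Neumann algebras. -/

set_option autoImplicit false

namespace Crest.Agent.R95

open Filter Topology
open scoped ComplexConjugate InnerProductSpace

open Crest.OpAlg

variable {H : Type*} [NormedAddCommGroup H] [InnerProductSpace ℂ H] [CompleteSpace H]

instance (M : VonNeumannAlgebra H) : IsClosed (M.toStarSubalgebra : Set (H →L[ℂ] H)) := by
  rw [VonNeumannAlgebra.coe_toStarSubalgebra, ← M.centralizer_centralizer]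
  exact Set.isClosed_centralizer _

namespace Conc

/-- The trace given by a vector of the amplification. -/
@[reducible] noncomputable def trOf (M : VonNeumannAlgebra H) (Ξ : K H)
    (h : IsFaithfulTracialVectorState M Ξ) : Tr M.toStarSubalgebra where
  τ := (innerSL ℂ Ξ).comp ((J Ξ).comp M.toStarSubalgebra.toSubalgebra.toSubmodule.subtypeL)
  τ_one := by
    change ⟪Ξ, dg 1 Ξ⟫_ℂ = 1
    rw [dg_one_apply, inner_self_eq_norm_sq_to_K, ← RCLike.ofReal_pow,
      (norm_sq_eq Ξ).trans h.1.tsum_eq, RCLike.ofReal_one]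
  τ_comm x y := h.2.1 x x.2 y y.2
  τ_star x := by
    change ⟪Ξ, dg (star (x : H →L[ℂ] H)) Ξ⟫_ℂ = conj ⟪Ξ, dg x Ξ⟫_ℂ
    rw [inner_dg_star, inner_conj_symm]
  τ_nonneg x := by
    change 0 ≤ (⟪Ξ, dg (star x.1 * x.1) Ξ⟫_ℂ).re
    rw [dg_mul_apply, inner_dg_star]
    exact inner_self_nonneg (𝕜 := ℂ)
  faithful x hx := by
    change (⟪Ξ, dg (star x.1 * x.1) Ξ⟫_ℂ).re = 0 at hx
    rw [dg_mul_apply, inner_dg_star] at hx
    have h0 : dg (x : H →L[ℂ] H) Ξ = 0 := (re_inner_self_nonpos (𝕜 := ℂ)).mp hx.le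
    exact Subtype.ext (h.2.2 x x.2 fun n => congr($h0 n))

lemma n2_eq (M : VonNeumannAlgebra H) (Ξ : K H) (h : IsFaithfulTracialVectorState M Ξ)
    (x : M.toStarSubalgebra) : @n2 _ _ (trOf M Ξ h) x = ‖J Ξ x‖ := by
  let _ := trOf M Ξ h
  rw [← sq_eq_sq₀ (n2_nonneg _) (norm_nonneg _), n2_sq]
  change (⟪Ξ, dg (star x.1 * x.1) Ξ⟫_ℂ).re = _
  rw [dg_mul_apply, inner_dg_star]
  exact inner_self_eq_norm_sq (𝕜 := ℂ) _

end Conc

open Conc in
/-- The tracial structure of a concrete von Neumann algebra with a faithful normal trace. -/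
theorem exists_tw [TopologicalSpace.SeparableSpace H] (M : VonNeumannAlgebra H) (ξ : ℕ → H)
    (hξ : IsFaithfulTracialVectorState M ξ) :
    ∃ _ : TW M.toStarSubalgebra, (∀ x : M.toStarSubalgebra, n2 x ^ 2 = traceNormSq ξ x) ∧
      (∀ N : VonNeumannAlgebra H,
        IsVN (N.toStarSubalgebra.comap M.toStarSubalgebra.subtype)) ∧
      ∀ S : Set M.toStarSubalgebra,
        (∀ N : VonNeumannAlgebra H, (∀ s ∈ S, (s : H →L[ℂ] H) ∈ N) → M ≤ N) →
        ∀ (x : M.toStarSubalgebra) (ε : ℝ), 0 < ε →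
          ∃ y ∈ StarAlgebra.adjoin ℂ S, n2 (x - y) < ε := by
  obtain ⟨Ξ, rfl⟩ : ∃ Ξ : K H, ⇑Ξ = ξ := ⟨⟨ξ, memℓp_gen (by simpa using hξ.1.summable)⟩, rfl⟩
  let _ := trOf M Ξ hξ
  have hn := n2_eq M Ξ hξ
  have iso : Isometry fun x : L2 M.toStarSubalgebra =>
      J Ξ ((toL2.symm x : M.toStarSubalgebra) : H →L[ℂ] H) :=
    Isometry.of_dist_eq fun x y => by
      rw [← toL2.apply_symm_apply x, ← toL2.apply_symm_apply y, dist_toL2, hn, dist_eq_norm,
        ← map_sub]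
      simp
  have key : ∀ (x : ℕ → M.toStarSubalgebra) (C : ℝ), (∀ n, ‖x n‖ ≤ C) →
      CauchySeq (fun n => toL2 (x n)) → ∃ y : M.toStarSubalgebra, ‖y‖ ≤ C ∧ Lim x y ∧
        ∀ v, Tendsto (fun n => (x n : H →L[ℂ] H) v) atTop (𝓝 ((y : H →L[ℂ] H) v)) := by
    intro x C hC hc
    obtain ⟨w, hw⟩ := cauchySeq_tendsto_of_complete (iso.uniformContinuous.comp_cauchySeq hc)
    obtain ⟨y, hy, hl⟩ := exists_strong M hξ.2.2 (x := fun n => x n) (fun n => (x n).2) hC
      fun k => (tendsto_coord hw k).cauchySeq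
    refine ⟨⟨y, mem_of_strong M (fun n => (x n).2) hl⟩, hy, ?_, hl⟩
    have : w = J Ξ y := lp.ext (funext fun k => tendsto_nhds_unique (tendsto_coord hw k) (hl _))
    rw [this, tendsto_iff_norm_sub_tendsto_zero] at hw
    simpa [Lim, hn] using hw
  have := separable_K (H := H)
  refine ⟨{ trOf M Ξ hξ with
      complete := fun x hx hc => (key x 1 hx hc).imp fun y hy => ⟨hy.1, hy.2.1⟩
      sep := iso.isEmbedding.separableSpace }, fun x => (congr($(hn x) ^ 2)).trans (norm_sq_eq _),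
    fun N x y C hx hC hl => ?_, fun S hS x ε hε => ?_⟩
  · obtain ⟨z, -, hz, hs⟩ := key x C hC (lim_iff.mp hl).cauchySeq
    rw [hl.unique hz]
    exact mem_of_strong N hx hs
  · let T := (StarAlgebra.adjoin ℂ S).map M.toStarSubalgebra.subtype
    obtain ⟨_, ⟨y, hy, rfl⟩, h⟩ := density T
      (hS _ (fun s hs => VonNeumannAlgebra.mem_commutant_iff.mpr fun g hg =>
        (((StarSubalgebra.mem_centralizer_iff ℂ (s := (T : Set (H →L[ℂ] H)))).mp hg) s
          ⟨s, StarAlgebra.subset_adjoin ℂ S hs, rfl⟩).1.symm) x.2) Ξ hε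
    exact ⟨y, hy, (hn _).trans_lt h⟩

end Crest.Agent.R95
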