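import Crest.Agent.R95.Tay

/-! Row 95: closed spans of group elements, independence of conjugates at different positions. -/

set_option autoImplicit false

namespace Crest.Agent.R95

open Filter Topology Finset
open scoped Nat

section Span
variable {B : Type*} [CStarAlgebra B] {G : Type*} [Group G] (π : G →* B)

/-- The closed span of the image of a set of group elements. -/
noncomputable def cspan (S : Set G) : Submodule ℂ B := (Submodule.span ℂ (π '' S)).topologicalClosure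

variable {π}

lemma mem_cspan {S : Set G} {g : G} (h : g ∈ S) : π g ∈ cspan π S :=
  Submodule.le_topologicalClosure _ (Submodule.subset_span ⟨g, h, rfl⟩)

lemma isClosed_cspan (S : Set G) : IsClosed (cspan π S : Set B) :=
  Submodule.isClosed_topologicalClosure _

lemma cspan_ind {E : Type*} [NormedAddCommGroup E] [NormedSpace ℂ E] (f : B →L[ℂ] E)
    {M : Submodule ℂ E} (hM : IsClosed (M : Set E)) {S : Set G} (h : ∀ g ∈ S, f (π g) ∈ M)
    {x : B} (hx : x ∈ cspan π S) : f x ∈ M := by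
  have : cspan π S ≤ M.comap (f : B →ₗ[ℂ] E) :=
    Submodule.topologicalClosure_minimal _
      (Submodule.span_le.mpr (by rintro _ ⟨g, hg, rfl⟩; exact h g hg)) (hM.preimage f.continuous)
  exact this hx

lemma cspan_mono {S S' : Set G} (h : S ⊆ S') {x : B} (hx : x ∈ cspan π S) : x ∈ cspan π S' :=
  cspan_ind (ContinuousLinearMap.id ℂ B) (isClosed_cspan S') (fun _ hg => mem_cspan (h hg)) hx

lemma cspan_mul {S S' S'' : Set G} (h : ∀ a ∈ S, ∀ b ∈ S', a * b ∈ S'') {x y : B}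
    (hx : x ∈ cspan π S) (hy : y ∈ cspan π S') : x * y ∈ cspan π S'' :=
  cspan_ind ((ContinuousLinearMap.mul ℂ B).flip y) (isClosed_cspan S'') (fun a ha =>
    cspan_ind (ContinuousLinearMap.mul ℂ B (π a)) (isClosed_cspan S'') (fun b hb => by
      simpa using mem_cspan (π := π) (h a ha b hb)) hy) hx

lemma one_mem_cspan (H : Subgroup G) : (1 : B) ∈ cspan π H := by
  simpa using mem_cspan (π := π) (S := H) H.one_mem

lemma mul_mem_cspan {H : Subgroup G} {x y : B} (hx : x ∈ cspan π H) (hy : y ∈ cspan π H) :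
    x * y ∈ cspan π H :=
  cspan_mul (fun _ ha _ hb => H.mul_mem ha hb) hx hy

lemma pow_mem_cspan {H : Subgroup G} {x : B} (hx : x ∈ cspan π H) (n : ℕ) :
    x ^ n ∈ cspan π H := by
  induction n with
  | zero => simpa using one_mem_cspan H
  | succ n ih => rw [pow_succ]; exact mul_mem_cspan ih hx

lemma prod_mem_cspan {H : Subgroup G} {l : List B} (hl : ∀ x ∈ l, x ∈ cspan π H) :
    l.prod ∈ cspan π H := by
  induction l with
  | nil => simpa using one_mem_cspan H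
  | cons a l ih =>
    rw [List.prod_cons]
    exact mul_mem_cspan (hl a (by simp)) (ih fun x hx => hl x (by simp [hx]))

lemma exp_mem_cspan {H : Subgroup G} {x : B} (hx : x ∈ cspan π H) :
    NormedSpace.exp x ∈ cspan π H := by
  rw [← (NormedSpace.exp_series_hasSum_exp' (𝕂 := ℂ) x).tsum_eq]
  exact tsum_mem (isClosed_cspan _) fun n => Submodule.smul_mem _ _ (pow_mem_cspan hx n)

lemma eq_zero_of_cspan (f : B →L[ℂ] ℂ) (hf : ∀ g, g ≠ 1 → f (π g) = 0) {x : B}
    (hx : x ∈ cspan π {g | g ≠ 1}) : f x = 0 :=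
  cspan_ind (M := ⊥) f (by simp) (fun g hg => hf g hg) hx

lemma sub_mem_cspan {Λ : B →L[ℂ] ℂ} (hΛ1 : Λ 1 = 1) (h0 : ∀ g, g ≠ 1 → Λ (π g) = 0) {S : Set G}
    {x : B} (hx : x ∈ cspan π S) : x - Λ x • (1 : B) ∈ cspan π {g | g ∈ S ∧ g ≠ 1} :=
  cspan_ind (ContinuousLinearMap.id ℂ B - Λ.smulRight 1) (isClosed_cspan _) (fun g hg => by
    by_cases h : g = 1
    · simp [h, hΛ1]
    · simpa [h0 g h] using mem_cspan (π := π) (S := {g | g ∈ S ∧ g ≠ 1}) ⟨hg, h⟩) hx

lemma qOf_mem_cspan (hπ : ∀ g, star (π g) = π g⁻¹) (L : ℕ) {H : Subgroup G} {c : G} (hc : c ∈ H) :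
    qOf L (π c) ∈ cspan π H := by
  refine exp_mem_cspan (Submodule.smul_mem _ _ (Submodule.sub_mem _ ?_ (mem_cspan hc)))
  rw [hπ]
  exact mem_cspan (H.inv_mem hc)

lemma qOf_conj (hπ : ∀ g, star (π g) = π g⁻¹) (L : ℕ) (g c : G) :
    π g * qOf L (π c) * π g⁻¹ = qOf L (π (g * c * g⁻¹)) := by
  let _ : NormedAlgebra ℚ B := .restrictScalars ℚ ℂ B
  have h := NormedSpace.exp_units_conj (π.toHomUnits g)
    ((((8 * L : ℝ)⁻¹ : ℝ) : ℂ) • (star (π c) - π c))
  rw [← map_inv, MonoidHom.coe_toHomUnits, MonoidHom.coe_toHomUnits] at h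
  rw [qOf, qOf, ← h, hπ, hπ]
  simp [mul_sub, sub_mul, mul_assoc]

lemma conj_prod_qOf (hπ : ∀ g, star (π g) = π g⁻¹) (L : ℕ) (g : G) (l : List G) :
    π g * (l.map fun c => qOf L (π c)).prod * π g⁻¹ =
      (l.map fun c => qOf L (π (g * c * g⁻¹))).prod := by
  induction l with
  | nil => simp [← map_mul]
  | cons c l ih =>
    simp only [List.map_cons, List.prod_cons]
    rw [← ih, ← qOf_conj hπ]
    simp only [mul_assoc]
    rw [← mul_assoc (π g⁻¹), ← map_mul, inv_mul_cancel, map_one, one_mul]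

lemma pi_unitary (hπ : ∀ g, star (π g) = π g⁻¹) (g : G) : π g ∈ unitary B := by
  rw [Unitary.mem_iff, hπ, ← map_mul, ← map_mul]
  simp

end Span

section Bounds
variable {B : Type*} [CStarAlgebra B]

lemma norm_unit_le {u : B} (hu : u ∈ unitary B) : ‖u‖ ≤ 1 := by
  rcases subsingleton_or_nontrivial B with h | h
  · simp [Subsingleton.elim u 0]
  · exact (CStarRing.norm_of_mem_unitary hu).le

lemma qOf_unitary (L : ℕ) (ζ : B) : qOf L ζ ∈ unitary B := by
  let _ : NormedAlgebra ℚ B := .restrictScalars ℚ ℂ B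
  refine NormedSpace.exp_mem_unitary_of_mem_skewAdjoint (skewAdjoint.mem_iff.mpr ?_)
  rw [star_smul, star_sub, star_star, Complex.star_def, Complex.conj_ofReal, ← smul_neg, neg_sub]

lemma norm_exp_sub_le [Nontrivial B] {ζ : B} (hζ : ζ ∈ unitary B) {s : ℝ} (h0 : 0 ≤ s)
    (h8 : s ≤ 1 / 8) :
    ‖NormedSpace.exp ((s : ℂ) • (star ζ - ζ)) - (1 + (s : ℂ) • (star ζ - ζ))‖ ≤ 16 / 3 * s ^ 2 := by
  have h := norm_exp_sub_sum_le ((s : ℂ) • (star ζ - ζ)) 2
  have e : ∑ i ∈ range 2, ((i ! : ℂ)⁻¹) • ((s : ℂ) • (star ζ - ζ)) ^ i =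
      1 + (s : ℂ) • (star ζ - ζ) := by
    simp [sum_range_succ]
  rw [e] at h
  have h1 : ‖(s : ℂ) • (star ζ - ζ)‖ ≤ s * 2 := by
    rw [norm_smul, Complex.norm_real, Real.norm_of_nonneg h0]
    gcongr
    have := norm_sub_le (star ζ) ζ
    rw [norm_star] at this
    linarith [norm_unit_le hζ]
  have h2 : Real.exp (1 / 4) ≤ 4 / 3 :=
    (Real.exp_bound_div_one_sub_of_interval (by norm_num) (by norm_num)).trans (by norm_num)
  refine h.trans ?_
  calc _ ≤ (s * 2) ^ 2 * Real.exp (1 / 4) := by gcongr; linarith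
    _ ≤ (s * 2) ^ 2 * (4 / 3) := by gcongr
    _ = _ := by ring

end Bounds

section Pos
variable {X : Type*} [DecidableEq X]

/-- The shift over one position. -/
def shP (y : X) : Equiv.Perm (X × ℤ) where
  toFun p := (p.1, p.2 + if p.1 = y then 1 else 0)
  invFun p := (p.1, p.2 - if p.1 = y then 1 else 0)
  left_inv p := by simp
  right_inv p := by simp

lemma shP_zpow (y : X) (i n : ℤ) : (shP y ^ i) (y, n) = (y, n + i) := by
  induction i using Int.induction_on generalizing n with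
  | zero => simp
  | succ i ih =>
    rw [zpow_add_one, Equiv.Perm.mul_apply]
    have : shP y (y, n) = (y, n + 1) := by simp [shP]
    rw [this, ih]
    congr 1
    ring
  | pred i ih =>
    rw [zpow_sub_one, Equiv.Perm.mul_apply]
    have : (shP y)⁻¹ (y, n) = (y, n - 1) := by
      rw [Equiv.Perm.inv_eq_iff_eq]
      simp [shP]
    rw [this, ih]
    congr 1
    ring

variable {G : Type*} [Group G] (ρ : G →* Equiv.Perm (X × ℤ))

/-- The elements fixing the fibre over a position. -/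
def fixP (y : X) : Subgroup G where
  carrier := {g | ∀ n, ρ g (y, n) = (y, n)}
  one_mem' n := by simp
  mul_mem' ha hb n := by rw [map_mul, Equiv.Perm.mul_apply, hb, ha]
  inv_mem' ha n := by rw [map_inv, Equiv.Perm.inv_eq_iff_eq, ha]

variable {ρ}

lemma mem_fixP {c : G} {y y' : X} (hc : ρ c = shP y') (h : y ≠ y') : c ∈ fixP ρ y := fun n => by
  rw [hc]
  simp [shP, h]

lemma ne_one_of_shP {c : G} {y : X} (hc : ρ c = shP y) {i : ℤ} (hi : i ≠ 0) {a b : G}
    (ha : a ∈ fixP ρ y) (hb : b ∈ fixP ρ y) : a * c ^ i * b ≠ 1 := fun h => by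
  have h1 : ρ (a * c ^ i * b) (y, 0) = (y, 0) := by rw [h]; simp
  rw [map_mul, map_mul, Equiv.Perm.mul_apply, Equiv.Perm.mul_apply, hb, map_zpow, hc, shP_zpow,
    ha] at h1
  exact hi (by simpa using h1)

variable {B : Type*} [CStarAlgebra B] {π : G →* B} {Λ : B →L[ℂ] ℂ}

lemma indep_one (hπ : ∀ g, star (π g) = π g⁻¹) (hΛ1 : Λ 1 = 1) (h0 : ∀ g, g ≠ 1 → Λ (π g) = 0)
    (L : ℕ) {c : G} {y : X} (hc : ρ c = shP y) {U V : B} (hU : U ∈ cspan π (fixP ρ y))
    (hV : V ∈ cspan π (fixP ρ y)) :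
    Λ (U * qOf L (π c) * V) = Λ (qOf L (π c)) * Λ (U * V) := by
  have h1 := sub_mem_cspan hΛ1 h0 (qOf_mem_cspan hπ L (Subgroup.mem_zpowers c))
  have h2 := cspan_mul (S'' := {g | ∃ a ∈ fixP ρ y, ∃ i : ℤ, i ≠ 0 ∧ g = a * c ^ i}) (by
    rintro a ha _ ⟨⟨i, rfl⟩, hi⟩
    exact ⟨a, ha, i, fun h => hi (by simp [h]), rfl⟩) hU h1
  have h3 := eq_zero_of_cspan Λ h0 (cspan_mul (by
    rintro _ ⟨a, ha, i, hi, rfl⟩ b hb
    exact ne_one_of_shP hc hi ha hb) h2 hV)
  rw [mul_sub, sub_mul, map_sub, sub_eq_zero] at h3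
  rw [h3]
  simp

lemma kappa_bound (hπ : ∀ g, star (π g) = π g⁻¹) (hΛ : ∀ x, ‖Λ x‖ ≤ ‖x‖) (hΛ1 : Λ 1 = 1)
    (h0 : ∀ g, g ≠ 1 → Λ (π g) = 0) {L : ℕ} (hL : 0 < L) {c : G} (hc : c ≠ 1) :
    ‖1 - Λ (qOf L (π c))‖ ≤ 1 / (12 * L ^ 2) := by
  have : Nontrivial B := ⟨1, 0, fun h => by simp [h] at hΛ1⟩
  have hL1 : (1 : ℝ) ≤ L := by exact_mod_cast hL
  have h := (hΛ _).trans (norm_exp_sub_le (pi_unitary hπ c) (s := (8 * L : ℝ)⁻¹) (by positivity)
    (by rw [one_div]; gcongr; linarith))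
  rw [map_sub, map_add, map_smul, map_sub, hπ, h0 c hc, h0 _ (inv_ne_one.mpr hc), hΛ1, sub_zero,
    smul_zero, add_zero, norm_sub_rev, ← hπ] at h
  refine h.trans (le_of_eq ?_)
  field_simp
  ring

lemma indep_list [Zero X] (hπ : ∀ g, star (π g) = π g⁻¹) (hΛ : ∀ x, ‖Λ x‖ ≤ ‖x‖) (hΛ1 : Λ 1 = 1)
    (h0 : ∀ g, g ≠ 1 → Λ (π g) = 0) {L : ℕ} (hL : 0 < L) {ζ : G} (hζ : ρ ζ = shP 0)
    (l : List (G × X)) (h1 : ∀ p ∈ l, ρ p.1 = shP p.2) (h2 : ∀ p ∈ l, p.2 = 0 → p.1 = ζ)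
    (h3 : l.Pairwise fun p p' => p.2 ≠ 0 → p.2 ≠ p'.2) :
    ∃ κ : ℂ, ‖κ‖ ≤ 1 ∧ ‖1 - κ‖ ≤ l.length * (1 / (12 * L ^ 2)) ∧
      ∀ U V : B, (∀ y ≠ 0, U ∈ cspan π (fixP ρ y)) → (∀ y ≠ 0, V ∈ cspan π (fixP ρ y)) →
        Λ (U * (l.map fun p => qOf L (π p.1)).prod * V) =
          κ * Λ (U * qOf L (π ζ) ^ (l.countP fun p => p.2 = 0) * V) := by
  induction l with
  | nil => exact ⟨1, by simp, by simp, fun U V _ _ => by simp⟩
  | cons p l ih =>
    rw [List.pairwise_cons] at h3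
    obtain ⟨κ, k1, k2, k3⟩ := ih (fun q hq => h1 q (by simp [hq])) (fun q hq => h2 q (by simp [hq]))
      h3.2
    have hδ : (0 : ℝ) ≤ 1 / (12 * L ^ 2) := by positivity
    by_cases hp : p.2 = 0
    · refine ⟨κ, k1, k2.trans ?_, fun U V hU hV => ?_⟩
      · rw [List.length_cons]; push_cast; nlinarith
      · rw [List.map_cons, List.prod_cons, h2 p (by simp) hp, ← mul_assoc,
          k3 _ V (fun y hy => mul_mem_cspan (hU y hy) (qOf_mem_cspan hπ L (mem_fixP hζ hy))) hV,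
          List.countP_cons_of_pos (by simpa using hp), pow_succ', mul_assoc U, mul_assoc U]
    · have hp1 := h1 p (by simp)
      have hne : p.1 ≠ 1 := by
        simpa using ne_one_of_shP hp1 one_ne_zero (one_mem _) (one_mem _)
      have b1 := kappa_bound hπ hΛ hΛ1 h0 hL hne
      have b2 : ‖Λ (qOf L (π p.1))‖ ≤ 1 := (hΛ _).trans (norm_unit_le (qOf_unitary _ _))
      refine ⟨Λ (qOf L (π p.1)) * κ, ?_, ?_, fun U V hU hV => ?_⟩
      · rw [norm_mul]; exact mul_le_one₀ b2 (norm_nonneg _) k1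
      · have e : 1 - Λ (qOf L (π p.1)) * κ = (1 - κ) + (1 - Λ (qOf L (π p.1))) * κ := by ring
        rw [e, List.length_cons]
        refine (norm_add_le _ _).trans ?_
        rw [norm_mul]
        push_cast
        nlinarith [mul_le_mul b1 k1 (norm_nonneg _) hδ]
      · have hr : (l.map fun p => qOf L (π p.1)).prod * V ∈ cspan π (fixP ρ p.2) := by
          refine mul_mem_cspan (prod_mem_cspan fun x hx => ?_) (hV _ hp)
          obtain ⟨q, hq, rfl⟩ := List.mem_map.mp hx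
          exact qOf_mem_cspan hπ L (mem_fixP (h1 q (by simp [hq])) (h3.1 q hq hp))
        rw [List.map_cons, List.prod_cons, ← mul_assoc, mul_assoc _ _ V,
          indep_one hπ hΛ1 h0 L hp1 (hU _ hp) hr, ← mul_assoc U, k3 U V hU hV,
          List.countP_cons_of_neg (by simpa using hp), mul_assoc _ κ]

end Pos

end Crest.Agent.R95
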