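import Crest.Agent.R95.Defs
import Crest.Agent.R95.FCAux

/-! Row 95: the computation in the free group. -/

set_option autoImplicit false

namespace Crest.Agent.R95

open Filter Topology
open scoped ComplexConjugate InnerProductSpace

lemma prod_map_product {α β M : Type*} [Monoid M] (l₁ : List α) (l₂ : List β) (f : α × β → M) :
    ((l₁ ×ˢ l₂).map f).prod = (l₁.map fun a => (l₂.map fun b => f (a, b)).prod).prod := by
  induction l₁ with
  | nil => simp
  | cons a l ih => simp [List.product_cons, List.prod_append, ih, Function.comp_def]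

lemma countP_product {α β : Type*} (l₁ : List α) (l₂ : List β) (p : α × β → Bool) :
    (l₁ ×ˢ l₂).countP p = (l₁.map fun a => l₂.countP fun b => p (a, b)).sum := by
  induction l₁ with
  | nil => simp
  | cons a l ih => simp [List.product_cons, ih, Function.comp_def]

/-- Translation of the position. -/
def trP {X : Type*} [AddCommGroup X] (e : X) : Equiv.Perm (X × ℤ) where
  toFun p := (p.1 + e, p.2)
  invFun p := (p.1 - e, p.2)
  left_inv p := by simp
  right_inv p := by simp

lemma trP_conj {X : Type*} [AddCommGroup X] [DecidableEq X] (e y : X) :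
    trP e * shP y * (trP e)⁻¹ = shP (y + e) := by
  rw [mul_inv_eq_iff_eq_mul]
  ext p <;> simp [trP, shP]

lemma trP_conj' {X : Type*} [AddCommGroup X] [DecidableEq X] (e y : X) :
    (trP e)⁻¹ * shP y * trP e = shP (y - e) := by
  have := trP_conj e (y - e)
  rw [sub_add_cancel] at this
  rw [← this]
  group

lemma single_sub_inj {L : ℕ} {j k j' k' : Fin L} (h : j ≠ k)
    (e : (Pi.single j 1 - Pi.single k 1 : Fin L → ℤ) = Pi.single j' 1 - Pi.single k' 1) :
    (j, k) = (j', k') := by
  have h1 := congrFun e j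
  have h2 := congrFun e k
  simp only [Pi.sub_apply, Pi.single_apply, h, h.symm, if_true, if_false] at h1 h2
  split_ifs at h1 h2 <;> simp_all

lemma single_sub_eq_zero {L : ℕ} {j k : Fin L} :
    (Pi.single j 1 - Pi.single k 1 : Fin L → ℤ) = 0 ↔ k = j := by
  refine ⟨fun e => ?_, by rintro rfl; simp⟩
  by_contra h
  have h1 := congrFun e k
  simp [h] at h1

theorem fc {B : Type*} [CStarAlgebra B] (Λ : B →L[ℂ] ℂ) (hΛ : ∀ x, ‖Λ x‖ ≤ ‖x‖) (hΛ1 : Λ 1 = 1)
    {L : ℕ} (hL : 0 < L) (t : Fin (L + 1) → B) (ht : ∀ i, t i ∈ unitary B) (m : B)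
    (h : ∀ l : List (Fin (L + 1) × Bool), l ≠ [] → FreeGroup.IsReduced l →
      Λ (evW t l) = 0 ∧ Λ (m * evW t l) = 0) :
    ‖1 - Λ (vOf t)‖ ≤ 1 / L ∧ ‖Λ m‖ / 32 ≤ ‖Λ (m * wOf t * t (Fin.last L))‖ := by
  have : Nontrivial B := ⟨1, 0, fun h => by simp [h] at hΛ1⟩
  have hL1 : (1 : ℝ) ≤ L := by exact_mod_cast hL
  set π₀ : FreeGroup (Fin (L + 1)) →* unitary B := FreeGroup.lift fun i => ⟨t i, ht i⟩ with hπ₀
  set π : FreeGroup (Fin (L + 1)) →* B := (unitary B).subtype.comp π₀ with hπdef
  have hπ : ∀ g, star (π g) = π g⁻¹ := fun g => by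
    simp only [hπdef, MonoidHom.comp_apply, map_inv, Submonoid.subtype_apply]
    rfl
  have hof : ∀ i, π (FreeGroup.of i) = t i := fun i => by simp [hπdef, hπ₀]
  have hof' : ∀ i, π (FreeGroup.of i)⁻¹ = star (t i) := fun i => by rw [← hπ, hof]
  have hev : ∀ l, evW t l = π (FreeGroup.mk l) := fun l => by
    induction l with
    | nil => simp [evW, ← FreeGroup.one_eq_mk]
    | cons p l ih =>
      have e : FreeGroup.mk (p :: l) = FreeGroup.mk [p] * FreeGroup.mk l := by
        rw [FreeGroup.mul_mk]; rfl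
      rw [e, map_mul, ← ih]
      simp only [evW, List.map_cons, List.prod_cons]
      congr 1
      obtain ⟨i, _ | _⟩ := p
      · exact (hof' i).symm
      · exact (hof i).symm
  have hw : ∀ g, g ≠ 1 → Λ (π g) = 0 ∧ Λ (m * π g) = 0 := fun g hg => by
    have := h g.toWord (by simpa using hg) FreeGroup.isReduced_toWord
    rwa [hev, FreeGroup.mk_toWord] at this
  have h0 : ∀ g, g ≠ 1 → Λ (π g) = 0 := fun g hg => (hw g hg).1
  set ρ : FreeGroup (Fin (L + 1)) →* Equiv.Perm ((Fin L → ℤ) × ℤ) := FreeGroup.lift fun i =>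
    Fin.lastCases (motive := fun _ => Equiv.Perm ((Fin L → ℤ) × ℤ)) (shP 0)
      (fun j => trP (Pi.single j 1)) i with hρ
  set ζ : FreeGroup (Fin (L + 1)) := FreeGroup.of (Fin.last L) with hζdef
  set a : Fin L → FreeGroup (Fin (L + 1)) := fun j => FreeGroup.of j.castSucc with ha
  have hζ : ρ ζ = shP 0 := by simp [hρ, hζdef]
  have hρa : ∀ j, ρ (a j) = trP (Pi.single j 1) := fun j => by simp [hρ, ha]
  have hv : vOf t = (((List.finRange L).map fun k => (a k)⁻¹ * ζ * a k).map
      fun c => qOf L (π c)).prod := by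
    rw [vOf, List.ofFn_eq_map, List.map_map]
    congr 1
    refine List.map_congr_left fun k _ => ?_
    have := qOf_conj hπ L (a k)⁻¹ ζ
    rw [inv_inv] at this
    rw [Function.comp_apply, ← this, hof, hof, hof']
  have hone : ∀ y : Fin L → ℤ, y ≠ 0 → (1 : B) ∈ cspan π (fixP ρ y) := fun y _ => one_mem_cspan _
  constructor
  · obtain ⟨κ, -, k2, k3⟩ := indep_list hπ hΛ hΛ1 h0 hL hζ
      ((List.finRange L).map fun k => ((a k)⁻¹ * ζ * a k, (0 - Pi.single k 1 : Fin L → ℤ)))
      (fun p hp => by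
        obtain ⟨k, -, rfl⟩ := List.mem_map.mp hp
        simp only [map_mul, map_inv, hρa, hζ, trP_conj'])
      (fun p hp h0 => by
        obtain ⟨k, -, rfl⟩ := List.mem_map.mp hp
        simpa using congrFun h0 k)
      (List.pairwise_map.mpr ((List.nodup_finRange L).imp fun {k k'} hk _ e => by
        simpa [hk] using congrFun e k))
    have k4 := k3 1 1 hone hone
    rw [List.countP_eq_zero.mpr (fun p hp => by
        obtain ⟨k, -, rfl⟩ := List.mem_map.mp hp
        intro h0
        simpa using congrFun (of_decide_eq_true h0) k), List.map_map] at k4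
    rw [hv, List.map_map]
    simp only [one_mul, mul_one, pow_zero, hΛ1, Function.comp_def] at k4 ⊢
    rw [k4]
    refine k2.trans ?_
    simp only [List.length_map, List.length_finRange]
    rw [mul_one_div, div_le_div_iff₀ (by positivity) (by positivity)]
    nlinarith
  obtain ⟨κ, -, k2, k3⟩ := indep_list hπ hΛ hΛ1 h0 hL hζ
    ((List.finRange L ×ˢ List.finRange L).map fun p : Fin L × Fin L =>
      (a p.1 * ((a p.2)⁻¹ * ζ * a p.2) * (a p.1)⁻¹,
        (Pi.single p.1 1 - Pi.single p.2 1 : Fin L → ℤ)))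
    (fun p hp => by
      obtain ⟨k, -, rfl⟩ := List.mem_map.mp hp
      simp only [map_mul, map_inv, hρa, hζ, trP_conj', trP_conj]
      congr 1
      abel)
    (fun p hp h0 => by
      obtain ⟨k, -, rfl⟩ := List.mem_map.mp hp
      simp only [single_sub_eq_zero.mp h0]
      group)
    (List.pairwise_map.mpr (((List.nodup_finRange L).product (List.nodup_finRange L)).imp
      fun {k k'} hk h0 e => hk (single_sub_inj (fun h => h0 (single_sub_eq_zero.mpr h.symm)) e)))
  have k4 := k3 1 (π ζ) hone fun y hy => mem_cspan (mem_fixP hζ hy)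
  have hcount : ((List.finRange L ×ˢ List.finRange L).map fun p : Fin L × Fin L =>
      (a p.1 * ((a p.2)⁻¹ * ζ * a p.2) * (a p.1)⁻¹,
        (Pi.single p.1 1 - Pi.single p.2 1 : Fin L → ℤ))).countP (fun p => p.2 = 0) = L := by
    rw [List.countP_map, countP_product]
    have : ∀ j : Fin L, (List.finRange L).countP (fun k => decide (k = j)) = 1 := fun j =>
      List.count_finRange j
    simp [single_sub_eq_zero, this]
  have hwo : wOf t = (((List.finRange L ×ˢ List.finRange L).map fun p : Fin L × Fin L =>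
      (a p.1 * ((a p.2)⁻¹ * ζ * a p.2) * (a p.1)⁻¹,
        (Pi.single p.1 1 - Pi.single p.2 1 : Fin L → ℤ))).map fun p => qOf L (π p.1)).prod := by
    rw [List.map_map, prod_map_product, wOf, List.ofFn_eq_map]
    congr 1
    refine List.map_congr_left fun j _ => ?_
    rw [hv, ← hof, hπ, conj_prod_qOf hπ, List.map_map]
    rfl
  rw [hcount, ← hwo, one_mul, one_mul] at k4
  have hmem : wOf t * π ζ ∈ cspan π (⊤ : Subgroup (FreeGroup (Fin (L + 1)))) := by
    refine mul_mem_cspan ?_ (mem_cspan (Subgroup.mem_top _))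
    rw [hwo]
    refine prod_mem_cspan fun x hx => ?_
    obtain ⟨q, -, rfl⟩ := List.mem_map.mp hx
    exact qOf_mem_cspan hπ L (Subgroup.mem_top _)
  have hm := eq_zero_of_cspan (Λ.comp (ContinuousLinearMap.mul ℂ B m)) (fun g hg => (hw g hg).2)
    (cspan_mono (fun g hg => hg.2) (sub_mem_cspan hΛ1 h0 hmem))
  rw [ContinuousLinearMap.comp_apply, ContinuousLinearMap.mul_apply', mul_sub, map_sub,
    sub_eq_zero, mul_smul_comm, mul_one, map_smul, k4, smul_eq_mul] at hm
  rw [← hof, mul_assoc, hm, norm_mul, norm_mul]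
  -- the two numerical estimates
  have b1 : 11 / 12 ≤ ‖κ‖ := by
    simp only [List.length_map, List.length_product, List.length_finRange] at k2
    have e : ((L * L : ℕ) : ℝ) * (1 / (12 * L ^ 2)) = 1 / 12 := by
      push_cast
      field_simp
    have := norm_sub_norm_le (1 : ℂ) κ
    rw [norm_one] at this
    linarith
  have b2 : 1 / 24 ≤ ‖Λ (qOf L (π ζ) ^ L * π ζ)‖ := by
    let _ : NormedAlgebra ℚ B := .restrictScalars ℚ ℂ B
    have e : qOf L (π ζ) ^ L = NormedSpace.exp (((1 / 8 : ℝ) : ℂ) • (star (π ζ) - π ζ)) := by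
      rw [qOf, ← NormedSpace.exp_nsmul, ← Nat.cast_smul_eq_nsmul ℂ, smul_smul]
      congr 2
      have : (L : ℂ) ≠ 0 := by exact_mod_cast hL.ne'
      push_cast
      field_simp
    have hu := pi_unitary hπ ζ
    have h1 := norm_exp_sub_le hu (s := 1 / 8) (by norm_num) le_rfl
    have h2 := (hΛ _).trans ((norm_mul_le _ (π ζ)).trans
      (mul_le_mul h1 (norm_unit_le hu) (norm_nonneg _) (by norm_num)))
    have n1 : ζ ≠ 1 := by simpa using ne_one_of_shP hζ one_ne_zero (one_mem _) (one_mem _)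
    have n2 : ζ * ζ ≠ 1 := by
      have := ne_one_of_shP hζ two_ne_zero (one_mem _) (one_mem _)
      rwa [one_mul, mul_one, zpow_two] at this
    rw [← e, sub_mul, add_mul, smul_mul_assoc, sub_mul, hu.1, one_mul, ← map_mul, map_sub, map_add,
      map_smul, map_sub, hΛ1, h0 _ n1, h0 _ n2] at h2
    have h3 := norm_sub_norm_le (0 + ((1 / 8 : ℝ) : ℂ) • ((1 : ℂ) - 0))
      (Λ (qOf L (π ζ) ^ L * π ζ))
    rw [norm_sub_rev] at h3
    have h4 : ‖0 + ((1 / 8 : ℝ) : ℂ) • ((1 : ℂ) - 0)‖ = 1 / 8 := by simp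
    linarith
  have b3 : 1 / 32 ≤ ‖κ‖ * ‖Λ (qOf L (π ζ) ^ L * π ζ)‖ := by nlinarith
  nlinarith [norm_nonneg (Λ m)]

end Crest.Agent.R95
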