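import Crest.Agent.R95.Free
import Crest.Agent.R95.FC

/-! Row 95: the density lemma. -/

set_option autoImplicit false

namespace Crest.Agent.R95

open Filter Topology BoundedContinuousFunction
open scoped ComplexConjugate InnerProductSpace

section Map
variable {A B : Type*} [CStarAlgebra A] [CStarAlgebra B] (φ : B →⋆ₐ[ℂ] A)

lemma map_evW {ι : Type} (t : ι → B) (l : List (ι × Bool)) :
    φ (evW t l) = evW (fun i => φ (t i)) l := by
  rw [evW, evW, map_list_prod, List.map_map]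
  congr 1
  refine List.map_congr_left fun p _ => ?_
  simp only [Function.comp, letter]
  split_ifs <;> simp [map_star]

lemma map_qOf (L : ℕ) (ζ : B) : φ (qOf L ζ) = qOf L (φ ζ) := by
  let _ : NormedAlgebra ℚ A := .restrictScalars ℚ ℂ A
  let _ : NormedAlgebra ℚ B := .restrictScalars ℚ ℂ B
  have hc : Continuous φ := AddMonoidHomClass.continuous_of_bound φ 1 fun x => by
    rw [one_mul]; exact NonUnitalStarAlgHom.norm_apply_le φ x
  rw [qOf, qOf, NormedSpace.map_exp φ hc, map_smul, map_sub, map_star]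

lemma map_vOf {L : ℕ} (t : Fin (L + 1) → B) : φ (vOf t) = vOf fun i => φ (t i) := by
  rw [vOf, vOf, map_list_prod, List.map_ofFn]
  simp [Function.comp_def, map_qOf, map_star]

lemma map_wOf {L : ℕ} (t : Fin (L + 1) → B) : φ (wOf t) = wOf fun i => φ (t i) := by
  rw [wOf, wOf, map_list_prod, List.map_ofFn]
  simp [Function.comp_def, map_vOf, map_star]

lemma qOf_unitary_dl (L : ℕ) (ζ : A) : qOf L ζ ∈ unitary A := by
  let _ : NormedAlgebra ℚ A := .restrictScalars ℚ ℂ A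
  refine NormedSpace.exp_mem_unitary_of_mem_skewAdjoint ?_
  simp [skewAdjoint.mem_iff, ← smul_neg]

lemma vOf_unitary {L : ℕ} {t : Fin (L + 1) → A} (ht : ∀ i, t i ∈ unitary A) : vOf t ∈ unitary A :=
  list_prod_mem fun x hx => by
    obtain ⟨k, rfl⟩ := List.mem_ofFn.mp hx
    exact mul_mem (mul_mem (Unitary.star_mem (ht _)) (qOf_unitary_dl _ _)) (ht _)

lemma wOf_unitary {L : ℕ} {t : Fin (L + 1) → A} (ht : ∀ i, t i ∈ unitary A) : wOf t ∈ unitary A :=
  list_prod_mem fun x hx => by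
    obtain ⟨k, rfl⟩ := List.mem_ofFn.mp hx
    exact mul_mem (mul_mem (ht _) (vOf_unitary ht)) (Unitary.star_mem (ht _))

lemma wOf_mem {P : StarSubalgebra ℂ A} {u₀ xp : A} (hxp : xp ∈ unitary A) {L : ℕ}
    {t : Fin (L + 1) → A} (ht : ∀ i, t i ∈ unitary A) (h : Adm P u₀ xp t) :
    wOf t * t (Fin.last L) * xp ∈ StarAlgebra.adjoin ℂ (insert (vOf t * u₀) (P : Set A)) := by
  set N := StarAlgebra.adjoin ℂ (insert (vOf t * u₀) (P : Set A))
  have hP : ∀ h ∈ P, h ∈ N := fun h hh => StarAlgebra.subset_adjoin _ _ (Set.mem_insert_of_mem _ hh)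
  have hu : vOf t * u₀ ∈ N := StarAlgebra.subset_adjoin _ _ (Set.mem_insert _ _)
  set l := List.ofFn fun j : Fin L => t j.castSucc * vOf t * star (t j.castSucc) with hl
  have key : ∀ j : Fin (L + 1),
      (l.take j).prod * (t j * if j = Fin.last L then xp else 1) ∈ N := by
    have e : ∀ j : Fin (L + 1), ∃ h ∈ P, (t j * if j = Fin.last L then xp else 1) =
        (Fin.cases 1 (fun j : Fin L => t j.castSucc * u₀) j : A) * h := fun j => by
      obtain ⟨g, hg, -, e⟩ := h j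
      refine ⟨g, hg, ?_⟩
      rw [e]
      split_ifs
      · rw [mul_assoc, hxp.1, mul_one]
      · rw [mul_one, mul_one]
    intro j
    induction j using Fin.induction with
    | zero =>
      obtain ⟨g, hg, e⟩ := e 0
      rw [e]; simpa using hP g hg
    | succ j ih =>
      obtain ⟨g, hg, e⟩ := e j.succ
      rw [if_neg (Fin.castSucc_ne_last j), mul_one, Fin.val_castSucc] at ih
      rw [e, Fin.val_succ, List.prod_take_succ _ _ (by simp [hl]), Fin.cases_succ]
      convert mul_mem (mul_mem ih hu) (hP g hg) using 1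
      simp only [hl, List.getElem_ofFn, Fin.eta, mul_assoc]
      rw [← mul_assoc (star _), (ht _).1, one_mul]
  have := key (Fin.last L)
  rwa [if_pos rfl, Fin.val_last, List.take_of_length_le (by simp [hl]), ← mul_assoc] at this

/-- Evaluation of bounded sequences. -/
def evalAt (A : Type*) [CStarAlgebra A] (n : ℕ) : (ℕ →ᵇ A) →⋆ₐ[ℂ] A where
  toFun X := X n
  map_one' := rfl
  map_mul' _ _ := rfl
  map_zero' := rfl
  map_add' _ _ := rfl
  commutes' c := by simp [Algebra.algebraMap_eq_smul_one]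
  map_star' _ := rfl

end Map

lemma exists_ulim {A : Type*} [CStarAlgebra A] [Tr A] :
    ∃ Λ : (ℕ →ᵇ A) →L[ℂ] ℂ, (∀ X, ‖Λ X‖ ≤ ‖X‖) ∧
      ∀ X : ℕ →ᵇ A, Tendsto (fun n => τ (X n)) (hyperfilter ℕ) (𝓝 (Λ X)) := by
  have h : ∀ X : ℕ →ᵇ A, ∃ z : ℂ, ‖z‖ ≤ ‖X‖ ∧
      Tendsto (fun n => τ (X n)) (hyperfilter ℕ) (𝓝 z) := fun X => by
    obtain ⟨z, hz, h⟩ := (isCompact_closedBall (0 : ℂ) ‖X‖).ultrafilter_le_nhds
      ((hyperfilter ℕ).map fun n => τ (X n)) (by
        rw [Ultrafilter.coe_map, le_principal_iff, mem_map]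
        exact univ_mem' fun n => by
          simpa using (norm_τ_le _).trans (X.norm_coe_le_norm n))
    exact ⟨z, by simpa using hz, h⟩
  choose f hf hf' using h
  let g : (ℕ →ᵇ A) →ₗ[ℂ] ℂ :=
    { toFun := f
      map_add' := fun X Y => tendsto_nhds_unique (hf' _) (by simpa using (hf' X).add (hf' Y))
      map_smul' := fun c X => tendsto_nhds_unique (hf' _) (by simpa using (hf' X).const_mul c) }
  exact ⟨g.mkContinuous 1 fun X => by rw [one_mul]; exact hf X, hf, hf'⟩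

variable {A : Type*} [CStarAlgebra A] [TW A]

theorem dl {P : StarSubalgebra ℂ A} (hP : IsVN P) (hirr : Irr P) (hinf : ¬ FiniteDimensional ℂ P)
    {u₀ x : A} (hu₀ : u₀ ∈ unitary A) (hx : IsSelfAdjoint x) (hx1 : ‖x‖ ≤ 1) {η : ℝ} (hη : 0 < η) :
    ∃ u ∈ unitary A, n2 (u - u₀) < η ∧
      ∃ y ∈ StarAlgebra.adjoin ℂ (insert u (P : Set A)), n2 y ≤ 1 ∧ n2 x ^ 2 / 64 ≤ ‖τ (x * y)‖ := by
  obtain ⟨xp, hxp, hre⟩ : ∃ xp ∈ unitary A, n2 x ^ 2 ≤ ‖τ (xp * x)‖ := by
    let _ := CStarAlgebra.spectralOrder A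
    have := CStarAlgebra.spectralOrderedRing A
    refine ⟨_, hx.self_add_I_smul_cfcSqrt_sub_sq_mem_unitary x hx1,
      le_trans (le_of_eq ?_) (Complex.re_le_norm _)⟩
    have hy := (CFC.sqrt_nonneg (1 - x ^ 2)).isSelfAdjoint
    generalize CFC.sqrt (1 - x ^ 2) = y at hy
    have h1 : (τ (y * x)).im = 0 := by
      have := τ_star (y * x)
      rw [star_mul, hx.star_eq, hy.star_eq, τ_comm] at this
      exact Complex.conj_eq_iff_im.mp this.symm
    simp [n2_sq, add_mul, hx.star_eq, h1]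
  have hm : ‖xp * x‖ ≤ 1 := norm_mul_le_one (norm_unitary_le hxp) hx1
  obtain ⟨L, hL⟩ := exists_nat_gt (4 / η ^ 2)
  have hL0 : (0 : ℝ) < L := lt_trans (by positivity) hL
  choose θ hθ hadm hsm using fun n : ℕ =>
    free_seq hP hirr hinf L hu₀ hxp hm n (ε := 1 / ((n : ℝ) + 1)) (by positivity)
  obtain ⟨Λ, hΛ, hΛ'⟩ := exists_ulim (A := A)
  set T : Fin (L + 1) → ℕ →ᵇ A := fun i =>
    ofNormedAddCommGroupDiscrete (fun n => θ n i) 1 fun n => norm_unitary_le (hθ n i) with hT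
  set m : ℕ →ᵇ A := const ℕ (xp * x) with hmd
  have hz : ∀ X : ℕ →ᵇ A, (∀ᶠ n in atTop, ‖τ (X n)‖ ≤ 1 / ((n : ℝ) + 1)) → Λ X = 0 := fun X h =>
    tendsto_nhds_unique (hΛ' X) ((squeeze_zero_norm' h
      tendsto_one_div_add_atTop_nhds_zero_nat).mono_left
        (hyperfilter_le_cofinite.trans Nat.cofinite_eq_atTop.le))
  obtain ⟨h1, h2⟩ := fc Λ hΛ (tendsto_nhds_unique (hΛ' 1) (by simp [τ_one]))
    (by exact_mod_cast hL0) T (fun i => ⟨by ext n; exact (hθ n i).1, by ext n; exact (hθ n i).2⟩) m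
    fun l l1 l2 => ⟨hz _ ((eventually_ge_atTop l.length).mono fun n hn => by
        rw [show evW T l n = evW (θ n) l from map_evW (evalAt A n) T l]
        exact (hsm n l l1 hn l2).1),
      hz _ ((eventually_ge_atTop l.length).mono fun n hn => by
        rw [mul_apply, show evW T l n = evW (θ n) l from map_evW (evalAt A n) T l]
        exact (hsm n l l1 hn l2).2)⟩
  have hΛm : Λ m = τ (xp * x) := tendsto_nhds_unique (hΛ' m) (by simp [hmd])
  have e1 : ∀ᶠ n in (hyperfilter ℕ : Filter ℕ), ‖1 - τ (vOf T n)‖ < 2 / L :=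
    ((hΛ' (vOf T)).const_sub 1).norm.eventually (gt_mem_nhds (h1.trans_lt (by gcongr; norm_num)))
  have e2 : ∀ᶠ n in (hyperfilter ℕ : Filter ℕ),
      n2 x ^ 2 / 64 ≤ ‖τ ((m * wOf T * T (Fin.last L)) n)‖ := by
    rcases (sq_nonneg (n2 x)).eq_or_lt with h0 | h0
    · exact Eventually.of_forall fun n => by rw [← h0, zero_div]; exact norm_nonneg _
    · refine ((hΛ' _).norm.eventually (lt_mem_nhds (lt_of_lt_of_le ?_ h2))).mono fun n h => h.le
      rw [hΛm]; linarith
  obtain ⟨n, n1, n2'⟩ := (e1.and e2).exists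
  rw [show vOf T n = vOf (θ n) from map_vOf (evalAt A n) T] at n1
  rw [mul_apply, mul_apply, show wOf T n = wOf (θ n) from map_wOf (evalAt A n) T] at n2'
  have hv := vOf_unitary (hθ n)
  refine ⟨vOf (θ n) * u₀, mul_mem hv hu₀, ?_, _, wOf_mem hxp (hθ n) (hadm n),
    (n2_unitary (mul_mem (mul_mem (wOf_unitary (hθ n)) (hθ n _)) hxp)).le, ?_⟩
  · rw [← sub_one_mul, n2_mul_unitary hu₀]
    refine lt_of_pow_lt_pow_left₀ 2 hη.le ?_
    have a1 : n2 (vOf (θ n) - 1) ^ 2 = 2 * (1 - τ (vOf (θ n))).re := by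
      simp only [n2_sq, star_sub, star_one, sub_mul, mul_sub, hv.1, mul_one, one_mul, map_sub,
        τ_one, τ_star, Complex.sub_re, Complex.conj_re]
      ring
    have a2 := Complex.re_le_norm (1 - τ (vOf (θ n)))
    rw [div_lt_iff₀ (by positivity)] at hL
    rw [lt_div_iff₀ hL0] at n1
    refine lt_of_mul_lt_mul_right ?_ hL0.le
    nlinarith
  · rw [← mul_assoc, τ_comm, ← mul_assoc, ← mul_assoc]
    exact n2'

end Crest.Agent.R95
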