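import Crest.Agent.R95.Basic

/-! Row 95: definitions for the freeness part. -/

set_option autoImplicit false

namespace Crest.Agent.R95

open Filter Topology
open scoped ComplexConjugate InnerProductSpace

section
variable {A : Type*} [CStarAlgebra A]

/-- `t` or its adjoint. -/
def letter (t : A) (b : Bool) : A := if b then t else star t

/-- A word in one unitary with coefficients. -/
def evP {κ : Type} (c : κ → A) (t : A) (l : List (Bool × κ)) : A :=
  (l.map fun p => letter t p.1 * c p.2).prod

/-- A group word in several unitaries. -/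
def evW {ι : Type} (t : ι → A) (l : List (ι × Bool)) : A :=
  (l.map fun p => letter (t p.1) p.2).prod

/-- Random self-adjoint directions obeying the free Ito rule approximately: `E` is an average over
finitely many elements of `Dir`. -/
def RS [Tr A] (Dir : Set A) : Prop :=
  ∀ (F : Finset A) (ε : ℝ), 0 < ε → ∃ E : (A → ℝ) →ₗ[ℝ] ℝ, (∀ f, ∃ s ∈ Dir, f s ≤ E f) ∧
    (∀ X ∈ F, ∀ X' ∈ F, |E (fun s => (τ (s * X * s * X')).re) - 2 * (τ X * τ X').re| ≤ ε) ∧
    ∀ Y ∈ F, |E (fun s => ‖τ (s * Y)‖ ^ 2)| ≤ ε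

/-- Admissible tuples: `t 0 ∈ U(P)`, `t (j+1) ∈ t j * u₀ * U(P)`, the last one multiplied by
`star xp` on the right. -/
def Adm (P : StarSubalgebra ℂ A) (u₀ xp : A) {L : ℕ} (t : Fin (L + 1) → A) : Prop :=
  ∀ i : Fin (L + 1), ∃ h ∈ P, h ∈ unitary A ∧
    t i = (Fin.cases 1 (fun j : Fin L => t j.castSucc * u₀) i : A) * h *
      (if i = Fin.last L then star xp else 1)

/-- The small unitary. -/
noncomputable def qOf (L : ℕ) (ζ : A) : A :=
  NormedSpace.exp ((((8 * L : ℝ)⁻¹ : ℝ) : ℂ) • (star ζ - ζ))

/-- The perturbation. -/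
noncomputable def vOf {L : ℕ} (t : Fin (L + 1) → A) : A :=
  (List.ofFn fun k : Fin L => star (t k.castSucc) * qOf L (t (Fin.last L)) * t k.castSucc).prod

/-- The amplified perturbation. -/
noncomputable def wOf {L : ℕ} (t : Fin (L + 1) → A) : A :=
  (List.ofFn fun j : Fin L => t j.castSucc * vOf t * star (t j.castSucc)).prod

end

end Crest.Agent.R95
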