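import Crest.Agent.R95.Tay

/-! Row 95: one asymptotically free Haar unitary. -/

set_option autoImplicit false

namespace Crest.Agent.R95

open Filter Topology Complex
open scoped ComplexConjugate InnerProductSpace

variable {A : Type*} [CStarAlgebra A]

/-- First order term of a letter. -/
noncomputable def let1 (t s : A) (b : Bool) : A := if b then t * (I • s) else -((I • s) * star t)

/-- Second order term of a letter. -/
noncomputable def let2 (t s : A) (b : Bool) : A :=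
  if b then t * ((-1 / 2 : ℂ) • (s * s)) else (-1 / 2 : ℂ) • (s * s) * star t

variable {κ : Type} (c : κ → A) (t : A)

/-- First order term of a word. -/
noncomputable def ev1 (s : A) : List (Bool × κ) → A
  | [] => 0
  | p :: l => let1 t s p.1 * c p.2 * evP c t l + letter t p.1 * c p.2 * ev1 s l

/-- Second order term of a word. -/
noncomputable def ev2 (s : A) : List (Bool × κ) → A
  | [] => 0
  | p :: l => let2 t s p.1 * c p.2 * evP c t l + let1 t s p.1 * c p.2 * ev1 c t s l +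
      letter t p.1 * c p.2 * ev2 s l

@[simp] lemma evP_nil : evP c t [] = 1 := rfl

lemma evP_cons (p : Bool × κ) (l : List (Bool × κ)) :
    evP c t (p :: l) = letter t p.1 * c p.2 * evP c t l := by simp [evP]

variable {c t}

lemma letter_unitary (ht : t ∈ unitary A) (b : Bool) : letter t b ∈ unitary A := by
  cases b
  · exact Unitary.star_mem ht
  · exact ht

lemma norm_unitary_le {u : A} (hu : u ∈ unitary A) : ‖u‖ ≤ 1 := by
  rcases subsingleton_or_nontrivial A with h | h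
  · simp [Subsingleton.elim u 0]
  · exact (CStarRing.norm_of_mem_unitary hu).le

lemma norm_mul_le_one {x y : A} (hx : ‖x‖ ≤ 1) (hy : ‖y‖ ≤ 1) : ‖x * y‖ ≤ 1 :=
  (norm_mul_le _ _).trans (mul_le_one₀ hx (norm_nonneg _) hy)

lemma norm_mul_le_left {x y : A} (hy : ‖y‖ ≤ 1) : ‖x * y‖ ≤ ‖x‖ :=
  (norm_mul_le _ _).trans (mul_le_of_le_one_right (norm_nonneg _) hy)

lemma norm_mul_le_right {x y : A} (hx : ‖x‖ ≤ 1) : ‖x * y‖ ≤ ‖y‖ :=
  (norm_mul_le _ _).trans (mul_le_of_le_one_left (norm_nonneg _) hx)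

lemma norm_evP_le (ht : t ∈ unitary A) (hc : ∀ k, ‖c k‖ ≤ 1) (l : List (Bool × κ)) :
    ‖evP c t l‖ ≤ 1 := by
  induction l with
  | nil => exact norm_unitary_le (one_mem _)
  | cons p l ih =>
    rw [evP_cons]
    exact norm_mul_le_one (norm_mul_le_one (norm_unitary_le (letter_unitary ht _)) (hc _)) ih

lemma tay_const [Nontrivial A] {x : A} (hx : ‖x‖ ≤ 1) : Tay 1 (fun _ => x) x 0 0 :=
  ⟨hx, by simp, by simp, fun δ _ => by simp⟩

lemma tay_letter [Nontrivial A] (ht : t ∈ unitary A) {s : A} (hs : IsSelfAdjoint s) (hs2 : ‖s‖ ≤ 2)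
    (b : Bool) : Tay (80 * Real.exp 2)
      (fun δ : ℝ => letter (t * NormedSpace.exp (((δ : ℂ) * I) • s)) b) (letter t b) (let1 t s b)
      (let2 t s b) := by
  cases b
  · have h := (tay_exp (σ := -(I • s)) (by simpa [norm_smul] using hs2)).mul
      (tay_const (x := star t) (norm_unitary_le (Unitary.star_mem ht)))
    convert h using 1
    · ring
    · funext δ
      simp [letter, NormedSpace.star_exp, hs.star_eq, smul_smul]
    · simp [letter]
    · simp [let1]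
    · simp [let2, smul_smul, neg_div]
  · have h := (tay_const (norm_unitary_le ht)).mul
      (tay_exp (σ := I • s) (by simpa [norm_smul] using hs2))
    convert h using 1
    · ring
    · funext δ
      simp [letter, smul_smul]
    · simp [letter]
    · simp [let1]
    · simp [let2, smul_smul, neg_div]

lemma tay_evP [Nontrivial A] (ht : t ∈ unitary A) (hc : ∀ k, ‖c k‖ ≤ 1) {s : A}
    (hs : IsSelfAdjoint s) (hs2 : ‖s‖ ≤ 2) (l : List (Bool × κ)) :
    Tay ((8000 * Real.exp 2) ^ l.length)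
      (fun δ : ℝ => evP c (t * NormedSpace.exp (((δ : ℂ) * I) • s)) l) (evP c t l) (ev1 c t s l)
      (ev2 c t s l) := by
  induction l with
  | nil => simpa [ev1, ev2] using tay_const (A := A) (x := 1) (by simp)
  | cons p l ih =>
    have h := ((tay_letter ht hs hs2 p.1).mul (tay_const (hc p.2))).mul ih
    convert h using 1
    · rw [List.length_cons]; ring
    · funext δ; rw [evP_cons]
    · rw [evP_cons]
    · simp [ev1]
    · simp [ev2]

variable [Tr A]

lemma Tay.tr {K : ℝ} {F : ℝ → A} {a₀ a₁ a₂ x : A} (h : Tay K F a₀ a₁ a₂) (hx : ‖x‖ ≤ 1) :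
    Tay K (fun δ => τ (x * F δ)) (τ (x * a₀)) (τ (x * a₁)) (τ (x * a₂)) := by
  have m : ∀ y : A, ‖τ (x * y)‖ ≤ ‖y‖ := fun y => (norm_τ_le _).trans (norm_mul_le_right hx)
  refine ⟨(m _).trans h.1, (m _).trans h.2.1, (m _).trans h.2.2.1, fun δ hδ => ?_⟩
  refine le_trans (le_of_eq ?_) ((m _).trans (h.2.2.2 δ hδ))
  simp only [mul_sub, mul_add, mul_smul_comm, map_sub, map_add, τ_rsmul, real_smul]

lemma ev1_linear (l : List (Bool × κ)) (x : A) : ∃ Y, ∀ s, τ (x * ev1 c t s l) = τ (s * Y) := by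
  induction l generalizing x with
  | nil => exact ⟨0, fun s => by simp [ev1]⟩
  | cons p l ih =>
    obtain ⟨Y, hY⟩ := ih (x * (letter t p.1 * c p.2))
    obtain ⟨Y', hY'⟩ : ∃ Y', ∀ s, τ (x * (let1 t s p.1 * c p.2 * evP c t l)) = τ (s * Y') := by
      cases p.1
      · refine ⟨-(I • (star t * c p.2 * evP c t l * x)), fun s => ?_⟩
        rw [τ_comm]; simp [let1, mul_assoc]
      · refine ⟨I • (c p.2 * evP c t l * (x * t)), fun s => ?_⟩
        have := τ_comm (x * t) (s * (c p.2 * evP c t l))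
        simp only [mul_assoc] at this
        simp [let1, mul_assoc, this]
    refine ⟨Y' + Y, fun s => ?_⟩
    rw [ev1, mul_add, mul_add, map_add, map_add, hY', ← hY, mul_assoc x]

/-- The averages that satisfy the Ito rule on `F` up to `ε`. -/
def Good (F : Finset A) (ε : ℝ) (E : (A → ℝ) →ₗ[ℝ] ℝ) : Prop :=
  (∀ X ∈ F, ∀ X' ∈ F, |E (fun s => (τ (s * X * s * X')).re) - 2 * (τ X * τ X').re| ≤ ε) ∧
    ∀ Y ∈ F, |E (fun s => ‖τ (s * Y)‖ ^ 2)| ≤ ε

open Classical in
/-- The filter of better and better averages. -/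
def ito (A : Type*) [CStarAlgebra A] [Tr A] : Filter ((A → ℝ) →ₗ[ℝ] ℝ) where
  sets := {S | ∃ (F : Finset A) (ε : ℝ), 0 < ε ∧ ∀ E, Good F ε E → E ∈ S}
  univ_sets := ⟨∅, 1, one_pos, fun _ _ => trivial⟩
  sets_of_superset := fun ⟨F, ε, h0, h⟩ hST => ⟨F, ε, h0, fun E hE => hST (h E hE)⟩
  inter_sets := fun ⟨F, ε, h0, h⟩ ⟨F', ε', h0', h'⟩ => ⟨F ∪ F', min ε ε', lt_min h0 h0', fun E hE =>
    ⟨h E ⟨fun X hX X' hX' => (hE.1 X (by simp [hX]) X' (by simp [hX'])).trans (min_le_left _ _),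
        fun Y hY => (hE.2 Y (by simp [hY])).trans (min_le_left _ _)⟩,
      h' E ⟨fun X hX X' hX' => (hE.1 X (by simp [hX]) X' (by simp [hX'])).trans (min_le_right _ _),
        fun Y hY => (hE.2 Y (by simp [hY])).trans (min_le_right _ _)⟩⟩⟩

/-- `z` is the Ito value of `f`. -/
def Ito (f : A → ℝ) (z : ℝ) : Prop := Tendsto (fun E : (A → ℝ) →ₗ[ℝ] ℝ => E f) (ito A) (𝓝 z)

lemma ito_quad (X X' : A) : Ito (fun s => (τ (s * X * s * X')).re) (2 * (τ X * τ X').re) := by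
  classical
  refine Metric.tendsto_nhds.mpr fun ε hε => ⟨{X, X'}, ε / 2, by positivity, fun E hE => ?_⟩
  exact lt_of_le_of_lt (hE.1 X (by simp) X' (by simp)) (by linarith)

lemma ito_sq (Y : A) : Ito (fun s => ‖τ (s * Y)‖ ^ 2) 0 := by
  refine Metric.tendsto_nhds.mpr fun ε hε => ⟨{Y}, ε / 2, by positivity, fun E hE => ?_⟩
  have := hE.2 Y (by simp)
  simp only [Set.mem_ofPred_eq, dist_zero_right, Real.norm_eq_abs]
  linarith

omit [Tr A] in
lemma Ito.congr [Tr A] {f g : A → ℝ} {z : ℝ} (h : Ito f z) (e : ∀ s, g s = f s) : Ito g z := by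
  rwa [show g = f from funext e]

lemma Ito.add {f g : A → ℝ} {z w : ℝ} (h : Ito f z) (h' : Ito g w) :
    Ito (fun s => f s + g s) (z + w) := by
  have := Tendsto.add h h'
  simp only [← map_add] at this
  exact this

lemma Ito.const_mul {f : A → ℝ} {z : ℝ} (h : Ito f z) (a : ℝ) : Ito (fun s => a * f s) (a * z) := by
  have := Tendsto.const_mul a h
  simp only [← smul_eq_mul, ← map_smul] at this
  exact this

lemma ito_zero : Ito (fun _ : A => 0) 0 := by
  have : ∀ E : (A → ℝ) →ₗ[ℝ] ℝ, E (fun _ => 0) = 0 := fun E => map_zero E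
  simpa only [Ito, this] using tendsto_const_nhds

lemma ito_sum {ι : Type*} (S : Finset ι) {f : ι → A → ℝ} {z : ι → ℝ} (h : ∀ i ∈ S, Ito (f i) (z i)) :
    Ito (fun s => ∑ i ∈ S, f i s) (∑ i ∈ S, z i) := by
  classical
  induction S using Finset.induction_on with
  | empty => simpa using ito_zero
  | insert i S hi ih =>
    simp only [Finset.sum_insert hi]
    exact (h i (by simp)).add (ih fun j hj => h j (by simp [hj]))

lemma RS.exists_le {Dir : Set A} (h : RS Dir) {f : A → ℝ} {z ε : ℝ} (hf : Ito f z) (hε : 0 < ε) :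
    ∃ s ∈ Dir, f s ≤ z + ε := by
  obtain ⟨F, η, hη, hF⟩ := hf.eventually (gt_mem_nhds (lt_add_of_pos_right z hε))
  obtain ⟨E, h1, h2, h3⟩ := h F η hη
  obtain ⟨s, hs, h4⟩ := h1 f
  exact ⟨s, hs, h4.trans (hF E ⟨h2, h3⟩).le⟩

lemma abs_two_re_le {a b : ℂ} {μ ν : ℝ} (ha : ‖a‖ ≤ μ) (hb : ‖b‖ ≤ ν) :
    |2 * (a * b).re| ≤ 2 * ν * μ := by
  have h1 : |(a * b).re| ≤ μ * ν := (abs_re_le_norm _).trans (by
    rw [norm_mul]; exact mul_le_mul ha hb (norm_nonneg _) ((norm_nonneg _).trans ha))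
  rw [abs_mul, abs_two]; linarith

lemma ito_cross (ht : t ∈ unitary A) (hc : ∀ k, ‖c k‖ ≤ 1) {μ : ℝ} (D : A) (l : List (Bool × κ))
    (X : A) (h : ∀ l₁ b k l₂, l = l₁ ++ (b, k) :: l₂ →
      ‖τ (X * evP c t l₁ * (if b then t else 1))‖ ≤ μ) :
    ∃ z, Ito (fun s => (τ (D * s * X * ev1 c t s l)).re) z ∧ |z| ≤ 2 * l.length * ‖D‖ * μ := by
  induction l generalizing X with
  | nil => exact ⟨0, ito_zero.congr fun s => by simp [ev1], by simp⟩
  | cons p l ih =>
    obtain ⟨z, hz, hz'⟩ := ih (X * (letter t p.1 * c p.2)) fun l₁ b k l₂ e => by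
      have := h (p :: l₁) b k l₂ (by rw [e]; rfl)
      rwa [evP_cons, ← mul_assoc] at this
    have h0 := h [] p.1 p.2 l rfl
    have n1 : ‖c p.2 * evP c t l * D‖ ≤ ‖D‖ :=
      norm_mul_le_right (norm_mul_le_one (hc _) (norm_evP_le ht hc l))
    obtain ⟨z', hw, hw'⟩ : ∃ z', Ito (fun s =>
        (τ (D * s * X * (let1 t s p.1 * c p.2 * evP c t l))).re) z' ∧ |z'| ≤ 2 * ‖D‖ * μ := by
      revert h0
      cases p.1 <;> intro h0
      · refine ⟨_, (ito_quad X (-(I • (star t * (c p.2 * evP c t l * D))))).congr fun s => ?_,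
          abs_two_re_le (by simpa using h0) ((norm_τ_le _).trans ?_)⟩
        · have := τ_comm D (s * X * s * (star t * (c p.2 * evP c t l)))
          simp only [mul_assoc] at this
          simp [let1, mul_assoc, this]
        · rw [norm_neg, norm_smul, norm_I, one_mul]
          exact (norm_mul_le_right (norm_unitary_le (Unitary.star_mem ht))).trans n1
      · refine ⟨_, (ito_quad (X * t) (I • (c p.2 * evP c t l * D))).congr fun s => ?_,
          abs_two_re_le (by simpa using h0) ((norm_τ_le _).trans ?_)⟩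
        · have := τ_comm D (s * (X * t) * s * (c p.2 * evP c t l))
          simp only [mul_assoc] at this
          simp [let1, mul_assoc, this]
        · rw [norm_smul, norm_I, one_mul]
          exact n1
    refine ⟨z' + z, (hw.add hz).congr fun s => ?_, (abs_add_le _ _).trans ?_⟩
    · simp only [ev1, mul_add, map_add, add_re, mul_assoc]
    · simp only [List.length_cons]
      push_cast
      linarith

lemma ito_ev2 (ht : t ∈ unitary A) (hc : ∀ k, ‖c k‖ ≤ 1) {o : κ} (ho : c o = 1) {μ₀ μ : ℝ}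
    (h0 : 0 ≤ μ₀) (hμ : μ₀ ≤ μ) (l : List (Bool × κ))
    (hl : l.IsChain fun p q => p.1 ≠ q.1 → ‖τ (c p.2)‖ ≤ μ₀)
    (h : ∀ k (l' : List (Bool × κ)), l' ≠ [] → l'.length < l.length →
      (l'.IsChain fun p q => p.1 ≠ q.1 → ‖τ (c p.2)‖ ≤ μ₀) → ‖τ (c k * evP c t l')‖ ≤ μ) (x : A) :
    ∃ z, Ito (fun s => (τ (x * ev2 c t s l)).re) z ∧
      |z + l.length * (τ (x * evP c t l)).re| ≤ 2 * l.length ^ 2 * ‖x‖ * μ := by
  induction l generalizing x with
  | nil => exact ⟨0, ito_zero.congr fun s => by simp [ev2], by simp⟩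
  | cons p l ih =>
    obtain ⟨z₃, hz₃, hz₃'⟩ := ih hl.tail (fun k l' h1 h2 h3 => h k l' h1 (by simp; omega) h3)
      (x * (letter t p.1 * c p.2))
    have n3 : ‖x * (letter t p.1 * c p.2)‖ ≤ ‖x‖ :=
      norm_mul_le_left (norm_mul_le_one (norm_unitary_le (letter_unitary ht _)) (hc _))
    have hz₁ : Ito (fun s => (τ (x * (let2 t s p.1 * c p.2 * evP c t l))).re)
        (-(τ (x * evP c t (p :: l))).re) := by
      rw [evP_cons]
      cases p.1
      · convert (ito_quad 1 ((-1 / 2 : ℂ) • (star t * c p.2 * evP c t l * x))).congr fun s => ?_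
          using 1
        · rw [τ_one, map_smul, τ_comm _ x]; simp [letter]; ring
        · rw [τ_comm x]; simp [let2, mul_assoc]
      · convert (ito_quad 1 ((-1 / 2 : ℂ) • (c p.2 * evP c t l * (x * t)))).congr fun s => ?_
          using 1
        · rw [τ_one, map_smul, τ_comm _ (x * t)]; simp [letter, mul_assoc]; ring
        · have := τ_comm (x * t) (s * s * (c p.2 * evP c t l))
          simp only [mul_assoc] at this
          simp [let2, mul_assoc, this]
    have same : ∀ l₁ b k l₂, l = l₁ ++ (b, k) :: l₂ → ‖τ (evP c t (p :: l₁))‖ ≤ μ := by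
      intro l₁ b k l₂ e
      have := h o (p :: l₁) (by simp) (by simp [e]) (hl.prefix ⟨(b, k) :: l₂, by simp [e]⟩)
      rwa [ho, one_mul] at this
    have opp : ∀ l₁ b k l₂, l = l₁ ++ (b, k) :: l₂ → p.1 ≠ b → ‖τ (c p.2 * evP c t l₁)‖ ≤ μ := by
      intro l₁ b k l₂ e hb
      rcases eq_or_ne l₁ [] with rfl | h1
      · rw [e, List.nil_append, List.isChain_cons_cons] at hl
        simpa using (hl.1 hb).trans hμ
      · exact h p.2 l₁ h1 (by simp [e]) (hl.tail.prefix ⟨(b, k) :: l₂, by simp [e]⟩)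
    obtain ⟨z₂, hz₂, hz₂'⟩ : ∃ z, Ito (fun s =>
        (τ (x * (let1 t s p.1 * c p.2 * ev1 c t s l))).re) z ∧ |z| ≤ 2 * l.length * ‖x‖ * μ := by
      simp only [evP_cons] at same
      revert same opp
      cases p.1 <;> intro opp same
      · obtain ⟨z, hz, hz'⟩ := ito_cross ht hc (μ := μ) (-(I • x)) l (star t * c p.2)
          fun l₁ b k l₂ e => by
            cases b
            · simpa [letter] using same l₁ _ k l₂ e
            · have := opp l₁ _ k l₂ e (by simp)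
              rwa [if_pos rfl, τ_comm, ← mul_assoc, ← mul_assoc, ht.2, one_mul]
        exact ⟨z, hz.congr fun s => by simp [let1, mul_assoc], by simpa [norm_smul] using hz'⟩
      · obtain ⟨z, hz, hz'⟩ := ito_cross ht hc (μ := μ) (I • (x * t)) l (c p.2)
          fun l₁ b k l₂ e => by
            cases b
            · simpa using opp l₁ _ k l₂ e (by simp)
            · have := same l₁ _ k l₂ e
              rw [if_pos rfl, τ_comm, ← mul_assoc]
              simpa [letter] using this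
        refine ⟨z, hz.congr fun s => by simp [let1, mul_assoc], hz'.trans ?_⟩
        rw [norm_smul, norm_I, one_mul]
        have := norm_mul_le_left (x := x) (norm_unitary_le ht)
        have := h0.trans hμ
        gcongr
    refine ⟨_, ((hz₁.add hz₂).add hz₃).congr fun s => ?_, ?_⟩
    · simp only [ev2, mul_add, map_add, add_re, mul_assoc]
    · rw [mul_assoc x, ← evP_cons] at hz₃'
      simp only [List.length_cons]
      push_cast
      have e : -(τ (x * evP c t (p :: l))).re + z₂ + z₃ +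
          (l.length + 1) * (τ (x * evP c t (p :: l))).re =
          z₂ + (z₃ + l.length * (τ (x * evP c t (p :: l))).re) := by ring
      rw [e]
      refine (abs_add_le _ _).trans ?_
      have hμ0 := h0.trans hμ
      have a1 : 2 * (l.length : ℝ) ^ 2 * ‖x * (letter t p.1 * c p.2)‖ * μ ≤
          2 * (l.length : ℝ) ^ 2 * ‖x‖ * μ := by gcongr
      have a2 : 0 ≤ ‖x‖ * μ := by positivity
      have a3 : 0 ≤ l.length * (‖x‖ * μ) := by positivity
      nlinarith

lemma no_descent {α : Type*} {S : Set α} (hS : S.Nonempty) {Φ : α → ℝ} (h0 : ∀ t, 0 ≤ Φ t) {η : ℝ}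
    (hη : 0 < η) (h : ∀ t ∈ S, ∃ t' ∈ S, Φ t' ≤ Φ t - η) : False := by
  obtain ⟨t₀, ht₀⟩ := hS
  have : ∀ n : ℕ, ∃ t ∈ S, Φ t ≤ Φ t₀ - n * η := fun n => by
    induction n with
    | zero => exact ⟨t₀, ht₀, by simp⟩
    | succ n ih =>
      obtain ⟨t, ht, h1⟩ := ih
      obtain ⟨t', ht', h2⟩ := h t ht
      exact ⟨t', ht', by push_cast; linarith⟩
  obtain ⟨n, hn⟩ := exists_nat_gt (Φ t₀ / η)
  obtain ⟨t, -, h1⟩ := this n
  rw [div_lt_iff₀ hη] at hn
  linarith [h0 t]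

theorem fh (κ : Type) [Fintype κ] (R : ℕ) {ε : ℝ} (hε : 0 < ε) :
    ∃ μ : ℝ, 0 < μ ∧ ∀ Un Dir : Set A, Un.Nonempty → (∀ t ∈ Un, t ∈ unitary A) →
      (∀ s ∈ Dir, IsSelfAdjoint s ∧ ‖s‖ ≤ 2) →
      (∀ t ∈ Un, ∀ s ∈ Dir, ∀ δ : ℝ, t * NormedSpace.exp (((δ : ℂ) * Complex.I) • s) ∈ Un) →
      RS Dir → ∀ (c : κ → A) (o : κ), c o = 1 → (∀ k, ‖c k‖ ≤ 1) →
      ∃ t ∈ Un, ∀ (k₀ : κ) (l : List (Bool × κ)), l ≠ [] → l.length ≤ R →
        l.IsChain (fun p q => p.1 ≠ q.1 → ‖τ (c p.2)‖ ≤ μ) → ‖τ (c k₀ * evP c t l)‖ ≤ ε := by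
  classical
  have := nontrivial_of_tr A
  set S : Finset (κ × List (Bool × κ)) :=
    Finset.univ ×ˢ (List.finite_length_le (Bool × κ) R).toFinset with hS
  set lam : ℝ := (8 * R ^ 4 * S.card + 1 : ℝ)⁻¹ with hlam
  have l0 : 0 < lam := by positivity
  have l1 : lam ≤ 1 := inv_le_one_of_one_le₀ (le_add_of_nonneg_left (by positivity))
  have l2 : 4 * R ^ 4 * S.card * lam ≤ 1 / 2 := by
    rw [hlam, ← div_eq_mul_inv, div_le_iff₀ (by positivity)]; linarith
  set μ₀ := ε * lam ^ R / 2 with hμ₀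
  have m0 : 0 < μ₀ := by positivity
  refine ⟨μ₀, m0, fun Un Dir hne hU hD hcl hrs c o ho hc => ?_⟩
  set Fam := S.filter fun w => w.2 ≠ [] ∧
    w.2.IsChain fun p q => p.1 ≠ q.1 → ‖τ (c p.2)‖ ≤ μ₀ with hFam
  have mem : ∀ w, w ∈ Fam ↔ w.2.length ≤ R ∧ w.2 ≠ [] ∧
      w.2.IsChain fun p q => p.1 ≠ q.1 → ‖τ (c p.2)‖ ≤ μ₀ := fun w => by simp [hFam, hS]
  set Φ : A → ℝ := fun t => ∑ w ∈ Fam, lam ^ w.2.length * ‖τ (c w.1 * evP c t w.2)‖ ^ 2 with hΦ
  have Φ0 : ∀ t, 0 ≤ Φ t := fun t => Finset.sum_nonneg fun w _ => by positivity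
  have Φle : ∀ t, ∀ w ∈ Fam, lam ^ w.2.length * ‖τ (c w.1 * evP c t w.2)‖ ^ 2 ≤ Φ t :=
    fun t w hw => Finset.single_le_sum
      (f := fun w => lam ^ w.2.length * ‖τ (c w.1 * evP c t w.2)‖ ^ 2) (fun w _ => by positivity) hw
  suffices hs : ∃ t ∈ Un, Φ t < 2 * μ₀ ^ 2 by
    obtain ⟨t, ht, h⟩ := hs
    refine ⟨t, ht, fun k l h1 h2 h3 => ?_⟩
    have h4 := Φle t (k, l) ((mem _).mpr ⟨h2, h1, h3⟩)
    have h5 : lam ^ R ≤ lam ^ l.length := pow_le_pow_of_le_one l0.le l1 h2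
    have h6 : lam ^ R ≤ 1 := pow_le_one₀ l0.le l1
    have h7 : 0 < lam ^ R := by positivity
    refine (sq_le_sq₀ (norm_nonneg _) hε.le).mp (le_of_mul_le_mul_left ?_ h7)
    have h8 : lam ^ R * ‖τ (c k * evP c t l)‖ ^ 2 ≤ lam ^ l.length * ‖τ (c k * evP c t l)‖ ^ 2 := by
      gcongr
    have h9 : lam ^ R * ε ^ 2 * lam ^ R ≤ lam ^ R * ε ^ 2 * 1 := by gcongr
    have h10 : 0 ≤ lam ^ R * ε ^ 2 := by positivity
    simp only at h4
    nlinarith
  by_contra hcon
  push Not at hcon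
  set K : ℝ := (8000 * Real.exp 2) ^ R with hK
  have K1 : (1 : ℝ) ≤ 8000 * Real.exp 2 := by linarith [Real.one_le_exp (x := 2) (by norm_num)]
  set C : ℝ := 8 * K ^ 2 * S.card + 1 with hC
  have C0 : 0 < C := by positivity
  set δ : ℝ := min 1 (μ₀ ^ 2 / (8 * C)) with hδ
  have d0 : 0 < δ := lt_min one_pos (by positivity)
  have d1 : δ ≤ 1 := min_le_left _ _
  have d2 : C * δ ≤ μ₀ ^ 2 / 8 := by
    have := min_le_right 1 (μ₀ ^ 2 / (8 * C))
    rw [← hδ, le_div_iff₀ (by positivity)] at this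
    linarith
  refine no_descent hne Φ0 (η := δ ^ 2 * (μ₀ ^ 2 / 4)) (by positivity) fun t ht => ?_
  have htu := hU t ht
  set Ψ := μ₀ ^ 2 + Φ t with hΨ
  have Ψ0 : 0 ≤ Ψ := by have := Φ0 t; positivity
  have key : ∀ w ∈ Fam, ∃ z, Ito (fun s => lam ^ w.2.length * (‖τ (c w.1 * ev1 c t s w.2)‖ ^ 2 +
      2 * (conj (τ (c w.1 * evP c t w.2)) * τ (c w.1 * ev2 c t s w.2)).re)) z ∧
      z ≤ -(lam ^ w.2.length * ‖τ (c w.1 * evP c t w.2)‖ ^ 2) + 4 * R ^ 4 * lam * Ψ := by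
    rintro ⟨k, l⟩ hw
    obtain ⟨w1, w2, w3⟩ := (mem _).mp hw
    simp only at w1 w2 w3 ⊢
    obtain ⟨r, hr⟩ : ∃ r, l.length = r + 1 := ⟨l.length - 1, by
      have := List.length_pos_iff.mpr w2; omega⟩
    have lr : 0 < lam ^ r := by positivity
    have lr1 : lam ^ r ≤ 1 := pow_le_one₀ l0.le l1
    set μ := √(Ψ / lam ^ r) with hμ
    have μ2 : lam ^ r * μ ^ 2 = Ψ := by
      rw [hμ, Real.sq_sqrt (by positivity)]; field_simp
    set f := τ (c k * evP c t l) with hf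
    obtain ⟨Y, hY⟩ := ev1_linear (c := c) (t := t) l (c k)
    obtain ⟨z, hz, hz'⟩ := ito_ev2 htu hc ho (μ := μ) m0.le (Real.le_sqrt_of_sq_le (by
        rw [le_div_iff₀ lr]
        nlinarith [Φ0 t, mul_le_mul_of_nonneg_left lr1 (sq_nonneg μ₀)])) l w3
      (fun k' l' h1 h2 h3 => Real.le_sqrt_of_sq_le (by
        rw [le_div_iff₀ lr]
        have h4 := Φle t (k', l') ((mem _).mpr ⟨by simp only; omega, h1, h3⟩)
        have h5 : lam ^ r ≤ lam ^ l'.length := pow_le_pow_of_le_one l0.le l1 (by omega)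
        have h6 := mul_le_mul_of_nonneg_left h5 (sq_nonneg ‖τ (c k' * evP c t l')‖)
        simp only at h4
        nlinarith [sq_nonneg μ₀])) (conj f • c k)
    refine ⟨_, (((ito_sq Y).add (hz.const_mul 2)).const_mul (lam ^ l.length)).congr fun s => ?_, ?_⟩
    · rw [hY, smul_mul_assoc, map_smul, smul_eq_mul]
    · rw [smul_mul_assoc, map_smul, smul_eq_mul, ← hf, conj_mul', ← ofReal_pow, ofReal_re] at hz'
      have n1 : ‖conj f • c k‖ ≤ ‖f‖ := by
        rw [norm_smul, RCLike.norm_conj]; exact mul_le_of_le_one_right (norm_nonneg _) (hc k)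
      have hlR : (l.length : ℝ) ≤ R := by exact_mod_cast w1
      have hl1 : (1 : ℝ) ≤ l.length := by rw [hr]; push_cast; linarith [Nat.cast_nonneg (α := ℝ) r]
      have μ0 : 0 ≤ μ := Real.sqrt_nonneg _
      have a1 : 2 * (l.length : ℝ) ^ 2 * ‖conj f • c k‖ * μ ≤ 2 * (R : ℝ) ^ 2 * ‖f‖ * μ := by gcongr
      have a2 : 2 * z ≤ -‖f‖ ^ 2 + 4 * R ^ 4 * μ ^ 2 := by
        have a3 := (le_abs_self _).trans (hz'.trans a1)
        nlinarith [sq_nonneg (‖f‖ - 2 * R ^ 2 * μ), mul_le_mul_of_nonneg_right hl1 (sq_nonneg ‖f‖)]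
      have a4 := mul_le_mul_of_nonneg_left a2 (pow_pos l0 l.length).le
      have a5 : lam ^ l.length * (4 * R ^ 4 * μ ^ 2) = 4 * R ^ 4 * lam * Ψ := by
        rw [hr, pow_succ, ← μ2]; ring
      nlinarith
  choose! z hz hz' using key
  obtain ⟨s, hs, hG⟩ := hrs.exists_le (ito_sum Fam hz) (ε := μ₀ ^ 2 / 8) (by positivity)
  have hcard : (Fam.card : ℝ) ≤ S.card := by exact_mod_cast Finset.card_filter_le _ _
  have hsum : ∑ w ∈ Fam, z w ≤ -Φ t + Ψ / 2 := by
    refine (Finset.sum_le_sum hz').trans ?_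
    rw [Finset.sum_add_distrib, Finset.sum_neg_distrib, Finset.sum_const, nsmul_eq_mul]
    have a1 : Fam.card * (4 * R ^ 4 * lam * Ψ) ≤ S.card * (4 * R ^ 4 * lam * Ψ) := by gcongr
    nlinarith [mul_le_mul_of_nonneg_right l2 Ψ0]
  have hstep : Φ (t * NormedSpace.exp (((δ : ℂ) * I) • s)) +
      Φ (t * NormedSpace.exp ((((-δ : ℝ) : ℂ) * I) • s)) ≤
      2 * Φ t + 2 * δ ^ 2 * (∑ w ∈ Fam, lam ^ w.2.length * (‖τ (c w.1 * ev1 c t s w.2)‖ ^ 2 +
        2 * (conj (τ (c w.1 * evP c t w.2)) * τ (c w.1 * ev2 c t s w.2)).re)) +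
        S.card * (16 * K ^ 2 * δ ^ 3) := by
    have a1 : Fam.card * (16 * K ^ 2 * δ ^ 3) ≤ S.card * (16 * K ^ 2 * δ ^ 3) := by gcongr
    refine le_trans ?_ (add_le_add_right a1 _)
    simp only [hΦ]
    rw [← nsmul_eq_mul, ← Finset.sum_const, Finset.mul_sum, Finset.mul_sum,
      ← Finset.sum_add_distrib, ← Finset.sum_add_distrib, ← Finset.sum_add_distrib]
    refine Finset.sum_le_sum fun w hw => ?_
    have h1 := (((tay_evP htu hc (hD s hs).1 (hD s hs).2 w.2).mono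
      (pow_le_pow_right₀ K1 ((mem w).mp hw).1)).tr (hc w.1)).sq_add d0.le d1
    have h2 := mul_le_mul_of_nonneg_left h1 (pow_pos l0 w.2.length).le
    have h3 : lam ^ w.2.length * (16 * K ^ 2 * δ ^ 3) ≤ 1 * (16 * K ^ 2 * δ ^ 3) := by
      gcongr; exact pow_le_one₀ l0.le l1
    nlinarith
  have hfin : Φ (t * NormedSpace.exp (((δ : ℂ) * I) • s)) +
      Φ (t * NormedSpace.exp ((((-δ : ℝ) : ℂ) * I) • s)) ≤ 2 * (Φ t - δ ^ 2 * (μ₀ ^ 2 / 4)) := by
    have a1 := hcon t ht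
    have a2 := mul_le_mul_of_nonneg_left (hG.trans (add_le_add_left hsum _)) (sq_nonneg δ)
    have a3 : S.card * (16 * K ^ 2 * δ ^ 3) ≤ 2 * δ ^ 2 * (C * δ) := by
      rw [hC]; nlinarith [pow_pos d0 3]
    have a4 := mul_le_mul_of_nonneg_left d2 (sq_nonneg δ)
    have a5 := mul_le_mul_of_nonneg_left a1 (sq_nonneg δ)
    nlinarith
  by_cases hh : Φ (t * NormedSpace.exp (((δ : ℂ) * I) • s)) ≤ Φ t - δ ^ 2 * (μ₀ ^ 2 / 4)
  · exact ⟨_, hcl t ht s hs δ, hh⟩
  · exact ⟨_, hcl t ht s hs (-δ), by linarith⟩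

end Crest.Agent.R95
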