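import Crest.Agent.R95.RS
import Crest.Agent.R95.FH

/-! Row 95: asymptotically free admissible tuples. -/

set_option autoImplicit false

namespace Crest.Agent.R95

open Filter Topology
open scoped ComplexConjugate InnerProductSpace

section Parse
variable {ι : Type} [DecidableEq ι] (i₀ : ι)

/-- Cut a word at the occurrences of the letter `i₀`. -/
def parse : List (ι × Bool) → List (ι × Bool) × List (Bool × List (ι × Bool))
  | [] => ([], [])
  | p :: l => if p.1 = i₀ then ([], (p.2, (parse l).1) :: (parse l).2)
      else (p :: (parse l).1, (parse l).2)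

lemma parse_ev {A : Type*} [CStarAlgebra A] (t : ι → A) (a : A) (l : List (ι × Bool)) :
    evW (Function.update t i₀ a) l =
      evW t (parse i₀ l).1 * ((parse i₀ l).2.map fun q => letter a q.1 * evW t q.2).prod := by
  induction l with
  | nil => simp [parse, evW]
  | cons p l ih =>
    simp only [evW, List.map_cons, List.prod_cons, parse] at ih ⊢
    split_ifs with h
    · simp [ih, h, mul_assoc]
    · simp [ih, h, mul_assoc]

lemma parse_fst (l : List (ι × Bool)) :
    (parse i₀ l).1 <+: l ∧ ∀ p ∈ (parse i₀ l).1, p.1 ≠ i₀ := by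
  induction l with
  | nil => simp [parse]
  | cons p l ih =>
    simp only [parse]
    split_ifs with h
    · simp
    · exact ⟨List.cons_prefix_cons.mpr ⟨rfl, ih.1⟩, by simpa [h] using ih.2⟩

lemma parse_snd (l : List (ι × Bool)) :
    ∀ q ∈ (parse i₀ l).2, q.2 <:+: l ∧ ∀ p ∈ q.2, p.1 ≠ i₀ := by
  induction l with
  | nil => simp [parse]
  | cons p l ih =>
    have h1 : ∀ q ∈ (parse i₀ l).2, q.2 <:+: p :: l ∧ ∀ p ∈ q.2, p.1 ≠ i₀ :=
      fun q hq => ⟨List.infix_cons (ih q hq).1, (ih q hq).2⟩
    simp only [parse]
    split_ifs with h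
    · intro q hq
      rcases List.mem_cons.mp hq with rfl | hq
      · exact ⟨List.infix_cons (parse_fst i₀ l).1.isInfix, (parse_fst i₀ l).2⟩
      · exact h1 q hq
    · exact h1

lemma parse_length (l : List (ι × Bool)) : (parse i₀ l).2.length ≤ l.length := by
  induction l with
  | nil => simp [parse]
  | cons p l ih =>
    simp only [parse]
    split_ifs with h <;> simp <;> omega

lemma parse_nil (l : List (ι × Bool)) (h : (parse i₀ l).2 = []) : (parse i₀ l).1 = l := by
  induction l with
  | nil => rfl
  | cons p l ih =>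
    simp only [parse] at h ⊢
    split_ifs at h ⊢ with h1
    rw [ih h]

lemma parse_chain (l : List (ι × Bool)) (h : FreeGroup.IsReduced l) :
    (parse i₀ l).2.IsChain fun p q => p.1 ≠ q.1 → p.2 ≠ [] := by
  induction l with
  | nil => simp [parse]
  | cons p l ih =>
    have ih' := ih (List.IsChain.tail h)
    simp only [parse]
    split_ifs with h1
    · rw [List.isChain_cons]
      refine ⟨fun q hq hne h2 => ?_, ih'⟩
      cases l with
      | nil => simp [parse] at hq
      | cons p' l =>
        simp only [parse] at hq h2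
        split_ifs at hq h2 with h3
        simp only [List.head?_cons, Option.mem_def, Option.some.injEq] at hq
        subst hq
        exact hne ((List.isChain_cons_cons.mp h).1 (h1.trans h3.symm))
    · exact ih'

end Parse

lemma evW_unitary {A : Type*} [CStarAlgebra A] {ι : Type} {t : ι → A} (ht : ∀ i, t i ∈ unitary A)
    (l : List (ι × Bool)) : evW t l ∈ unitary A :=
  list_prod_mem fun x hx => by
    obtain ⟨p, -, rfl⟩ := List.mem_map.mp hx
    exact letter_unitary (ht _) _

lemma exp_conj_unitary {A : Type*} [CStarAlgebra A] {B : A} (hB : B ∈ unitary A) (X : A) :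
    B * NormedSpace.exp (star B * X * B) = NormedSpace.exp X * B := by
  let _ : NormedAlgebra ℚ A := .restrictScalars ℚ ℂ A
  have := NormedSpace.exp_units_conj' (Unitary.toUnits ⟨B, hB⟩) X
  simp only [Unitary.val_inv_toUnits_apply, Unitary.val_toUnits_apply] at this
  erw [this]
  rw [← mul_assoc, ← mul_assoc]
  erw [hB.2]
  rw [one_mul]

variable {A : Type*} [CStarAlgebra A] [TW A]

theorem free_seq {P : StarSubalgebra ℂ A} (hP : IsVN P) (hirr : Irr P)
    (hinf : ¬ FiniteDimensional ℂ P) (L : ℕ) {u₀ xp m : A} (hu₀ : u₀ ∈ unitary A)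
    (hxp : xp ∈ unitary A) (hm : ‖m‖ ≤ 1) (R : ℕ) {ε : ℝ} (hε : 0 < ε) :
    ∃ t : Fin (L + 1) → A, (∀ i, t i ∈ unitary A) ∧ Adm P u₀ xp t ∧
      ∀ l : List (Fin (L + 1) × Bool), l ≠ [] → l.length ≤ R → FreeGroup.IsReduced l →
        ‖τ (evW t l)‖ ≤ ε ∧ ‖τ (m * evW t l)‖ ≤ ε := by
  have key : ∀ j, j ≤ L + 1 → ∀ ε : ℝ, 0 < ε → ∃ t : Fin (L + 1) → A, (∀ i, t i ∈ unitary A) ∧
      (∀ i : Fin (L + 1), i.val < j → ∃ h ∈ P, h ∈ unitary A ∧
        t i = (Fin.cases 1 (fun j : Fin L => t j.castSucc * u₀) i : A) * h *
          (if i = Fin.last L then star xp else 1)) ∧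
      ∀ l : List (Fin (L + 1) × Bool), l ≠ [] → l.length ≤ R → FreeGroup.IsReduced l →
        (∀ p ∈ l, p.1.val < j) → ‖τ (evW t l)‖ ≤ ε ∧ ‖τ (m * evW t l)‖ ≤ ε := by
    intro j
    induction j with
    | zero =>
      refine fun _ ε _ => ⟨fun _ => 1, fun _ => one_mem _, fun i hi => by omega,
        fun l h1 _ _ h2 => ?_⟩
      obtain ⟨p, hp⟩ := List.exists_mem_of_ne_nil l h1
      exact absurd (h2 p hp) (by omega)
    | succ j ih =>
      intro hj ε hε
      set i₀ : Fin (L + 1) := ⟨j, hj⟩ with hi₀
      have : Finite {l : List (Fin (L + 1) × Bool) // l.length ≤ R} :=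
        (List.finite_length_le _ R).to_subtype
      let _ := Fintype.ofFinite (Bool × {l : List (Fin (L + 1) × Bool) // l.length ≤ R})
      obtain ⟨μ, hμ, hfh⟩ := fh (A := A) (Bool × {l : List (Fin (L + 1) × Bool) // l.length ≤ R})
        R hε
      obtain ⟨t, ht, hadm, hsm⟩ := ih (by omega) (min μ ε) (lt_min hμ hε)
      set B : A := Fin.cases 1 (fun j : Fin L => t j.castSucc * u₀) i₀ with hB
      set B' : A := if i₀ = Fin.last L then star xp else 1 with hB'
      have uB : B ∈ unitary A := by
        rw [hB]
        generalize i₀ = i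
        refine Fin.cases ?_ (fun j => ?_) i
        · exact one_mem _
        · exact mul_mem (ht _) hu₀
      have uB' : B' ∈ unitary A := by
        rw [hB']; split_ifs
        · exact Unitary.star_mem hxp
        · exact one_mem _
      obtain ⟨a, ⟨h, hP', hu, rfl⟩, ha⟩ := hfh {a | ∃ h ∈ P, h ∈ unitary A ∧ a = B * h * B'} _
        ⟨_, 1, one_mem _, one_mem _, rfl⟩
        (by rintro _ ⟨h, -, hu, rfl⟩; exact mul_mem (mul_mem uB hu) uB')
        (by
          rintro _ ⟨s, -, hs, hs2, rfl⟩
          exact ⟨hs.conjugate' B', ((norm_mul_le_left (norm_unitary_le uB')).trans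
            (norm_mul_le_right (norm_unitary_le (Unitary.star_mem uB')))).trans hs2⟩)
        (by
          rintro _ ⟨h, hP', hu, rfl⟩ _ ⟨s, hsP, hs, -, rfl⟩ δ
          have := hP.isClosed
          let _ : NormedAlgebra ℚ A := .restrictScalars ℚ ℂ A
          refine ⟨h * NormedSpace.exp (((δ : ℂ) * Complex.I) • s),
            mul_mem hP' (NormedSpace.exp_mem this (P.smul_mem hsP _)),
            mul_mem hu (NormedSpace.exp_mem_unitary_of_mem_skewAdjoint
              (hs.smul_mem_skewAdjoint (by simp [skewAdjoint.mem_iff]))), ?_⟩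
          rw [← smul_mul_assoc, ← mul_smul_comm, mul_assoc (B * h), exp_conj_unitary uB']
          simp only [mul_assoc])
        (rs hP hirr hinf uB') (fun k => (if k.1 then m else 1) * evW t k.2.1)
        (false, ⟨[], by simp⟩) (by simp [evW]) fun k => norm_mul_le_one (by
          split_ifs
          · exact hm
          · exact norm_unitary_le (one_mem _)) (norm_unitary_le (evW_unitary ht _))
      have prev : ∀ i : Fin (L + 1), i.val ≤ j →
          (Fin.cases 1 (fun j : Fin L => Function.update t i₀ (B * h * B') j.castSucc * u₀) i : A) =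
            Fin.cases 1 (fun j : Fin L => t j.castSucc * u₀) i := by
        intro i
        refine Fin.cases (fun _ => rfl) (fun k hk => ?_) i
        simp only [Fin.cases_succ]
        rw [Function.update_of_ne]
        simp only [hi₀, Ne, Fin.ext_iff, Fin.val_castSucc, Fin.val_succ] at hk ⊢
        omega
      refine ⟨Function.update t i₀ (B * h * B'), fun i => ?_, fun i hi => ?_,
        fun l h1 h2 h3 h4 => ?_⟩
      · rcases eq_or_ne i i₀ with rfl | hne
        · rw [Function.update_self]; exact mul_mem (mul_mem uB hu) uB'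
        · rw [Function.update_of_ne hne]; exact ht i
      · rw [prev i (by omega)]
        rcases eq_or_ne i i₀ with rfl | hne
        · exact ⟨h, hP', hu, Function.update_self ..⟩
        · rw [Function.update_of_ne hne]
          exact hadm i (by simp only [hi₀, Ne, Fin.ext_iff] at hne; omega)
      have old : ∀ l' : List (Fin (L + 1) × Bool), l' <:+: l → (∀ p ∈ l', p.1 ≠ i₀) → l' ≠ [] →
          ‖τ (evW t l')‖ ≤ min μ ε ∧ ‖τ (m * evW t l')‖ ≤ min μ ε := fun l' h5 h6 h7 =>
        hsm l' h7 (h5.length_le.trans h2) (h3.infix h5) fun p hp => by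
          have := h4 p (h5.subset hp)
          have := h6 p hp
          simp only [hi₀, Ne, Fin.ext_iff] at this
          omega
      rw [parse_ev]
      by_cases h5 : (parse i₀ l).2 = []
      · have := old _ (parse_fst i₀ l).1.isInfix (parse_fst i₀ l).2 (by rwa [parse_nil _ _ h5])
        rw [h5]
        simpa using ⟨this.1.trans (min_le_right _ _), this.2.trans (min_le_right _ _)⟩
      have hlen : ∀ q ∈ (parse i₀ l).2, q.2.length ≤ R := fun q hq =>
        (parse_snd i₀ l q hq).1.length_le.trans h2
      let κ : List (Fin (L + 1) × Bool) → {l : List (Fin (L + 1) × Bool) // l.length ≤ R} :=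
        fun l => if h : l.length ≤ R then ⟨l, h⟩ else ⟨[], by simp⟩
      have hκ : ∀ q ∈ (parse i₀ l).2, (κ q.2).1 = q.2 := fun q hq => by simp [κ, hlen q hq]
      have main := fun b => ha (b, ⟨_, (parse_fst i₀ l).1.length_le.trans h2⟩)
        ((parse i₀ l).2.map fun q => (q.1, (false, κ q.2))) (by simpa using h5)
        (by simpa using (parse_length i₀ l).trans h2) (by
          rw [List.isChain_map]
          refine (parse_chain i₀ l h3).imp_of_mem_imp fun p q hp _ h6 h7 => ?_
          simp only [hκ p hp, Bool.false_eq_true, if_false, one_mul]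
          exact (old _ (parse_snd i₀ l p hp).1 (parse_snd i₀ l p hp).2 (h6 h7)).1.trans
            (min_le_left _ _))
      have e : evP (fun k : Bool × {l : List (Fin (L + 1) × Bool) // l.length ≤ R} =>
          (if k.1 then m else 1) * evW t k.2.1) (B * h * B')
          ((parse i₀ l).2.map fun q => (q.1, (false, κ q.2))) =
          ((parse i₀ l).2.map fun q => letter (B * h * B') q.1 * evW t q.2).prod := by
        rw [evP, List.map_map]
        congr 1
        exact List.map_congr_left fun q hq => by simp [hκ q hq]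
      simp only [e] at main
      exact ⟨by simpa using main false, by simpa [mul_assoc] using main true⟩
  obtain ⟨t, h1, h2, h3⟩ := key (L + 1) le_rfl ε hε
  exact ⟨t, h1, fun i => h2 i i.2, fun l a b c => h3 l a b c fun p _ => p.1.2⟩

end Crest.Agent.R95
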