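import Crest.Agent.R95.Basic

/-! Row 95: averaging over the unitary group. -/

set_option autoImplicit false

namespace Crest.Agent.R95

open Filter Topology
open scoped ComplexConjugate InnerProductSpace

variable {A : Type*} [CStarAlgebra A] [TW A]

theorem commute_of_unitary {P : StarSubalgebra ℂ A} (hP : IsVN P) {z : A}
    (h : ∀ g ∈ P, g ∈ unitary A → g * z = z * g) : ∀ y ∈ P, y * z = z * y := by
  have := hP.isClosed
  intro y hy
  have h1 : (⟨y, hy⟩ : P) ∈ Submodule.span ℂ (unitary P : Set P) := by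
    rw [CStarAlgebra.span_unitary]; trivial
  refine Submodule.span_induction (p := fun (y : P) _ => (y : A) * z = z * y) ?_ ?_ ?_ ?_ h1
  · exact fun g hg => h g g.2 ⟨congrArg Subtype.val hg.1, congrArg Subtype.val hg.2⟩
  · simp
  · intro a b _ _ ha hb
    simp [add_mul, mul_add, ha, hb]
  · intro c a _ ha
    simp [ha]

/-- Averages of unitary conjugations. -/
def IsAvg (P : StarSubalgebra ℂ A) (T : A → A) : Prop :=
  ∃ (ι : Type) (_ : Fintype ι) (w : ι → ℝ) (g : ι → A), (∀ i, 0 ≤ w i) ∧ ∑ i, w i = 1 ∧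
    (∀ i, g i ∈ P ∧ g i ∈ unitary A) ∧ ∀ x, T x = ∑ i, w i • (g i * x * star (g i))

namespace IsAvg
variable {P : StarSubalgebra ℂ A} {S T : A → A}

omit [TW A] in
theorem ad {g : A} (hg : g ∈ P) (hu : g ∈ unitary A) : IsAvg P fun x => g * x * star g :=
  ⟨Unit, inferInstance, fun _ => 1, fun _ => g, fun _ => zero_le_one, by simp, fun _ => ⟨hg, hu⟩,
    fun x => by simp⟩

omit [TW A] in
theorem comp (hS : IsAvg P S) (hT : IsAvg P T) : IsAvg P fun x => S (T x) := by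
  obtain ⟨ι, _, w, g, h1, h2, h3, h4⟩ := hS
  obtain ⟨κ, _, w', g', h1', h2', h3', h4'⟩ := hT
  refine ⟨ι × κ, inferInstance, fun p => w p.1 * w' p.2, fun p => g p.1 * g' p.2,
    fun p => mul_nonneg (h1 _) (h1' _), ?_,
    fun p => ⟨mul_mem (h3 _).1 (h3' _).1, mul_mem (h3 _).2 (h3' _).2⟩, fun x => ?_⟩
  · rw [Fintype.sum_prod_type, ← Finset.sum_mul_sum, h2, h2', one_mul]
  · simp only [h4, h4', Fintype.sum_prod_type, Finset.mul_sum, Finset.sum_mul, Finset.smul_sum,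
      mul_smul_comm, smul_mul_assoc, smul_smul, star_mul, mul_assoc]

omit [TW A] in
theorem mid (hS : IsAvg P S) (hT : IsAvg P T) : IsAvg P fun x => (1 / 2 : ℝ) • (S x + T x) := by
  obtain ⟨ι, _, w, g, h1, h2, h3, h4⟩ := hS
  obtain ⟨κ, _, w', g', h1', h2', h3', h4'⟩ := hT
  refine ⟨ι ⊕ κ, inferInstance, fun p => 1 / 2 * Sum.elim w w' p, Sum.elim g g', ?_, ?_, ?_,
    fun x => ?_⟩
  · rintro (i | i)
    · exact mul_nonneg (by norm_num) (h1 i)
    · exact mul_nonneg (by norm_num) (h1' i)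
  · rw [← Finset.mul_sum, Fintype.sum_sum_type]
    simp only [Sum.elim_inl, Sum.elim_inr, h2, h2']
    norm_num
  · rintro (i | i)
    exacts [h3 i, h3' i]
  · simp only [h4, h4', Fintype.sum_sum_type, Sum.elim_inl, Sum.elim_inr, smul_add, Finset.smul_sum,
      smul_smul]

omit [TW A] in
theorem norm_le (hT : IsAvg P T) (x : A) : ‖T x‖ ≤ ‖x‖ := by
  obtain ⟨ι, _, w, g, h1, h2, h3, h4⟩ := hT
  rw [h4, ← one_mul ‖x‖, ← h2, Finset.sum_mul]
  refine (norm_sum_le _ _).trans (Finset.sum_le_sum fun i _ => ?_)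
  rw [norm_smul, Real.norm_of_nonneg (h1 i), CStarRing.norm_mul_mem_unitary _
    (Unitary.star_mem (h3 i).2), CStarRing.norm_mem_unitary_mul _ (h3 i).2]

theorem n2_le (hT : IsAvg P T) (x : A) : n2 (T x) ≤ n2 x := by
  obtain ⟨ι, _, w, g, h1, h2, h3, h4⟩ := hT
  rw [h4, ← one_mul (n2 x), ← h2, Finset.sum_mul]
  refine (n2_sum_le _ _).trans (Finset.sum_le_sum fun i _ => ?_)
  rw [n2_rsmul, abs_of_nonneg (h1 i), n2_mul_unitary (Unitary.star_mem (h3 i).2),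
    n2_unitary_mul (h3 i).2]

theorem τ_eq (hT : IsAvg P T) (x : A) : τ (T x) = τ x := by
  obtain ⟨ι, _, w, g, -, h2, h3, h4⟩ := hT
  have : ∀ i, τ (g i * x * star (g i)) = τ x := fun i => by
    rw [τ_comm, ← mul_assoc, (h3 i).2.1, one_mul]
  simp only [h4, map_sum, τ_rsmul, this, ← Finset.sum_mul, ← Complex.ofReal_sum, h2]
  simp

omit [TW A] in
theorem sub_smul_one (hT : IsAvg P T) (x : A) (c : ℂ) : T (x - c • 1) = T x - c • 1 := by
  obtain ⟨ι, _, w, g, -, h2, h3, h4⟩ := hT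
  have : ∀ i, g i * (x - c • 1) * star (g i) = g i * x * star (g i) - c • 1 := fun i => by
    rw [mul_sub, sub_mul, mul_smul_comm, smul_mul_assoc, mul_one, (h3 i).2.2]
  simp only [h4, this, smul_sub, Finset.sum_sub_distrib, ← Finset.sum_smul, h2, one_smul]

end IsAvg

theorem mix0' {P : StarSubalgebra ℂ A} (hP : IsVN P) (x : A) :
    ∃ z : A, (∀ y ∈ P, z * y = y * z) ∧ ∀ ε : ℝ, 0 < ε → ∃ T, IsAvg P T ∧ n2 (T x - z) < ε := by
  let C : Set ℝ := {s | ∃ T, IsAvg P T ∧ n2 (T x) ^ 2 = s}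
  have hb : BddBelow C := ⟨0, by rintro _ ⟨T, -, rfl⟩; positivity⟩
  have hne : C.Nonempty := ⟨_, _, IsAvg.ad (one_mem P) (one_mem _), rfl⟩
  have key : ∀ S T, IsAvg P S → IsAvg P T →
      n2 (S x - T x) ^ 2 ≤ 2 * n2 (S x) ^ 2 + 2 * n2 (T x) ^ 2 - 4 * sInf C := by
    intro S T hS hT
    have h1 := csInf_le hb ⟨_, hS.mid hT, rfl⟩
    have h2 := parallelogram_law_with_norm ℂ (toL2 (S x)) (toL2 (T x))
    rw [← map_add, ← map_sub, ← n2_def, ← n2_def, ← n2_def, ← n2_def] at h2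
    rw [n2_rsmul, abs_of_pos (by norm_num)] at h1
    nlinarith
  have h1 : ∀ n : ℕ, ∃ T, IsAvg P T ∧ n2 (T x) ^ 2 < sInf C + 1 / ((n : ℝ) + 1) := fun n => by
    obtain ⟨_, ⟨T, hT, rfl⟩, h⟩ := Real.lt_sInf_add_pos hne (Nat.one_div_pos_of_nat (n := n))
    exact ⟨T, hT, h⟩
  choose T hT hT' using h1
  have h0 : Tendsto (fun n : ℕ => √(4 * (1 / ((n : ℝ) + 1)))) atTop (𝓝 0) := by
    simpa using ((tendsto_one_div_add_atTop_nhds_zero_nat (𝕜 := ℝ)).const_mul 4).sqrt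
  obtain ⟨z, -, hz⟩ := exists_lim (x := fun n => T n x) (fun n => (hT n).norm_le x)
    (cauchySeq_of_le_tendsto_0 _ (fun n m N hn hm => by
      rw [dist_toL2]
      refine Real.le_sqrt_of_sq_le ((key _ _ (hT n) (hT m)).trans ?_)
      have h2 := Nat.one_div_le_one_div (α := ℝ) hn
      have h3 := Nat.one_div_le_one_div (α := ℝ) hm
      linarith [hT' n, hT' m]) h0)
  refine ⟨z, fun y hy => (commute_of_unitary hP (fun g hg hu => ?_) y hy).symm, fun ε hε => ?_⟩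
  · have h2 : Lim (fun n => g * T n x * star g - T n x) 0 := Lim.of_le h0 fun n => by
      rw [sub_zero]
      refine Real.le_sqrt_of_sq_le ((key _ _ ((IsAvg.ad hg hu).comp (hT n)) (hT n)).trans ?_)
      rw [n2_mul_unitary (Unitary.star_mem hu), n2_unitary_mul hu]
      linarith [hT' n]
    have h3 := sub_eq_zero.1 ((((hz.mul_left g).mul_right (star g)).sub hz).unique h2)
    conv_rhs => rw [← h3, mul_assoc, hu.1, mul_one]
  · obtain ⟨n, hn⟩ := (hz.eventually (gt_mem_nhds hε)).exists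
    exact ⟨T n, hT n, hn⟩

theorem mix0 {P : StarSubalgebra ℂ A} (hP : IsVN P) (x : A) :
    ∃ z : A, (∀ y ∈ P, z * y = y * z) ∧ ∀ ε : ℝ, 0 < ε →
      ∃ (ι : Type) (_ : Fintype ι) (w : ι → ℝ) (g : ι → A), (∀ i, 0 ≤ w i) ∧ ∑ i, w i = 1 ∧
        (∀ i, g i ∈ P ∧ g i ∈ unitary A) ∧
        n2 (∑ i, w i • (g i * x * star (g i)) - z) < ε := by
  obtain ⟨z, h1, h2⟩ := mix0' hP x
  refine ⟨z, h1, fun ε hε => ?_⟩
  obtain ⟨T, ⟨ι, _, w, g, a, b, c, d⟩, h⟩ := h2 ε hε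
  exact ⟨ι, inferInstance, w, g, a, b, c, d x ▸ h⟩

theorem mix' {P : StarSubalgebra ℂ A} (hP : IsVN P) (hirr : Irr P) (F : Finset A) {ε : ℝ}
    (hε : 0 < ε) : ∃ T, IsAvg P T ∧ ∀ x ∈ F, n2 (T x - τ x • (1 : A)) < ε := by
  classical
  induction F using Finset.induction_on with
  | empty => exact ⟨_, IsAvg.ad (one_mem P) (one_mem _), by simp⟩
  | insert a F _ ih =>
    obtain ⟨T, hT, h⟩ := ih
    obtain ⟨z, h1, h2⟩ := mix0' hP (T a)
    obtain ⟨c, rfl⟩ := hirr z h1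
    obtain rfl : τ a = c := by
      refine eq_of_forall_dist_le fun δ hδ => ?_
      obtain ⟨S, hS, h3⟩ := h2 δ hδ
      have := (norm_τ_le_n2 _).trans h3.le
      rwa [map_sub, hS.τ_eq, hT.τ_eq, map_smul, τ_one, smul_eq_mul, mul_one, ← dist_eq_norm] at this
    obtain ⟨S, hS, h3⟩ := h2 ε hε
    refine ⟨_, hS.comp hT, fun x hx => ?_⟩
    rcases Finset.mem_insert.1 hx with rfl | hx
    · exact h3
    · rw [← hS.sub_smul_one]
      exact (hS.n2_le _).trans_lt (h x hx)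

theorem mix {P : StarSubalgebra ℂ A} (hP : IsVN P) (hirr : Irr P) (F : Finset A) {ε : ℝ}
    (hε : 0 < ε) :
    ∃ (ι : Type) (_ : Fintype ι) (w : ι → ℝ) (g : ι → A), (∀ i, 0 ≤ w i) ∧ ∑ i, w i = 1 ∧
      (∀ i, g i ∈ P ∧ g i ∈ unitary A) ∧
      ∀ x ∈ F, n2 (∑ i, w i • (g i * x * star (g i)) - τ x • (1 : A)) < ε := by
  obtain ⟨T, ⟨ι, _, w, g, a, b, c, d⟩, h⟩ := mix' hP hirr F hε
  exact ⟨ι, inferInstance, w, g, a, b, c, fun x hx => d x ▸ h x hx⟩

end Crest.Agent.R95
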