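import Crest.Agent.R95.Proj

/-! Row 95: the odometer (a tower of `2 × 2` matrix units) and its relative commutants. -/

set_option autoImplicit false

namespace Crest.Agent.R95

open Filter Topology
open scoped ComplexConjugate InnerProductSpace

variable {A : Type*} [CStarAlgebra A]

/-- A decreasing sequence of projections, each half of the previous one. -/
structure Odo (A : Type*) [CStarAlgebra A] where
  p : ℕ → A
  s : ℕ → A
  p_zero : p 0 = 1
  proj : ∀ k, IsStarProjection (p k)
  p_mul : ∀ k, p k * p (k + 1) = p (k + 1)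
  star_mul : ∀ k, star (s k) * s k = p (k + 1)
  mul_star : ∀ k, s k * star (s k) = p k - p (k + 1)
  ne : ∀ k, p k ≠ p (k + 1)

namespace Odo
variable (O : Odo A)

/-- The slots. -/
def f (k : ℕ) : A := O.p k - O.p (k + 1)

lemma pp (k : ℕ) : O.p k * O.p k = O.p k := (O.proj k).isIdempotentElem.eq

lemma star_p (k : ℕ) : star (O.p k) = O.p k := (O.proj k).isSelfAdjoint.star_eq

lemma p_mul' (k : ℕ) : O.p (k + 1) * O.p k = O.p (k + 1) := by
  have := congrArg star (O.p_mul k)
  rwa [StarMul.star_mul, O.star_p, O.star_p] at this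

lemma p_mul_le {j k : ℕ} (h : j ≤ k) : O.p j * O.p k = O.p k := by
  induction k, h using Nat.le_induction with
  | base => exact O.pp j
  | succ k _ ih => rw [← O.p_mul k, ← mul_assoc, ih]

lemma p_mul_ge {j k : ℕ} (h : j ≤ k) : O.p k * O.p j = O.p k := by
  have := congrArg star (O.p_mul_le h)
  rwa [StarMul.star_mul, O.star_p, O.star_p] at this

lemma f_proj (k : ℕ) : IsStarProjection (O.f k) :=
  (O.proj (k + 1)).sub_of_mul_eq_right (O.proj k) (O.p_mul k)

lemma f_ne (k : ℕ) : O.f k ≠ 0 := sub_ne_zero.mpr (O.ne k)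

lemma star_f (k : ℕ) : star (O.f k) = O.f k := (O.f_proj k).isSelfAdjoint.star_eq

lemma f_mul_p {j k : ℕ} (h : j < k) : O.f j * O.p k = 0 := by
  rw [f, sub_mul, O.p_mul_le h.le, O.p_mul_le h, sub_self]

lemma p_mul_f {j k : ℕ} (h : j < k) : O.p k * O.f j = 0 := by
  rw [f, mul_sub, O.p_mul_ge h.le, O.p_mul_ge h, sub_self]

lemma p_mul_f' {j k : ℕ} (h : j ≤ k) : O.p j * O.f k = O.f k := by
  rw [f, mul_sub, O.p_mul_le h, O.p_mul_le (h.trans (Nat.le_succ k))]

lemma f_mul_p' {j k : ℕ} (h : j ≤ k) : O.f k * O.p j = O.f k := by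
  rw [f, sub_mul, O.p_mul_ge h, O.p_mul_ge (h.trans (Nat.le_succ k))]

lemma f_mul_f {j k : ℕ} (h : j ≠ k) : O.f j * O.f k = 0 := by
  rcases lt_or_gt_of_ne h with h | h
  · rw [← O.p_mul_f' (le_refl k), ← mul_assoc, O.f_mul_p h, zero_mul]
  · rw [← O.f_mul_p' (le_refl j), mul_assoc, O.p_mul_f h, mul_zero]

lemma s_mul_p (k : ℕ) : O.s k * O.p (k + 1) = O.s k := by
  have h : star (O.s k * O.p (k + 1) - O.s k) * (O.s k * O.p (k + 1) - O.s k) = 0 := by
    have e : star (O.s k * O.p (k + 1) - O.s k) * (O.s k * O.p (k + 1) - O.s k) =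
        O.p (k + 1) * (star (O.s k) * O.s k) * O.p (k + 1) - O.p (k + 1) * (star (O.s k) * O.s k)
          - (star (O.s k) * O.s k) * O.p (k + 1) + star (O.s k) * O.s k := by
      rw [star_sub, StarMul.star_mul, O.star_p]; noncomm_ring
    rw [e, O.star_mul]; simp [O.pp]
  exact sub_eq_zero.mp ((CStarRing.star_mul_self_eq_zero_iff _).mp h)

lemma f_mul_s (k : ℕ) : O.f k * O.s k = O.s k := by
  rw [f, ← O.mul_star, mul_assoc, O.star_mul, O.s_mul_p]

lemma p_mul_star (k : ℕ) : O.p (k + 1) * star (O.s k) = star (O.s k) := by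
  have := congrArg star (O.s_mul_p k)
  rwa [StarMul.star_mul, O.star_p] at this

lemma star_mul_f (k : ℕ) : star (O.s k) * O.f k = star (O.s k) := by
  have := congrArg star (O.f_mul_s k)
  rwa [StarMul.star_mul, O.star_f] at this

lemma p_mul_s (k : ℕ) : O.p k * O.s k = O.s k := by
  rw [← O.f_mul_s, ← mul_assoc, O.p_mul_f' le_rfl]

lemma p_mul_s0 (k : ℕ) : O.p (k + 1) * O.s k = 0 := by
  rw [← O.f_mul_s, ← mul_assoc, O.p_mul_f (Nat.lt_succ_self k), zero_mul]

lemma s_mul_p' (k : ℕ) : O.s k * O.p k = O.s k := by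
  rw [← O.s_mul_p, mul_assoc, O.p_mul']

lemma star_mul_p (k : ℕ) : star (O.s k) * O.p k = star (O.s k) := by
  have := congrArg star (O.p_mul_s k)
  rwa [StarMul.star_mul, O.star_p] at this

lemma star_mul_p0 (k : ℕ) : star (O.s k) * O.p (k + 1) = 0 := by
  have := congrArg star (O.p_mul_s0 k)
  rwa [StarMul.star_mul, O.star_p, star_zero] at this

lemma p_mul_star' (k : ℕ) : O.p k * star (O.s k) = star (O.s k) := by
  have := congrArg star (O.s_mul_p' k)
  rwa [StarMul.star_mul, O.star_p] at this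

lemma s_mul_s (k : ℕ) : O.s k * O.s k = 0 := by
  nth_rw 1 [← O.s_mul_p]
  rw [mul_assoc, O.p_mul_s0, mul_zero]

lemma star_mul_star (k : ℕ) : star (O.s k) * star (O.s k) = 0 := by
  rw [← StarMul.star_mul, O.s_mul_s, star_zero]

lemma norm_s (k : ℕ) : ‖O.s k‖ ≤ 1 := by
  have h := CStarRing.norm_star_mul_self (x := O.s k)
  rw [O.star_mul] at h
  have h1 := (O.proj (k + 1)).norm_le
  nlinarith [norm_nonneg (O.s k)]

/-- The relative commutant of the first `k` matrix units. -/
noncomputable def Q (k : ℕ) : StarSubalgebra ℂ A := StarSubalgebra.centralizer ℂ (O.s '' {j | j < k})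

lemma mem_Q {k : ℕ} {g : A} : g ∈ O.Q k ↔
    ∀ j < k, O.s j * g = g * O.s j ∧ star (O.s j) * g = g * star (O.s j) := by
  simp [Q, StarSubalgebra.mem_centralizer_iff]

lemma Q_anti {j k : ℕ} (h : j ≤ k) : O.Q k ≤ O.Q j := fun _ hg =>
  O.mem_Q.mpr fun i hi => O.mem_Q.mp hg i (hi.trans_le h)

lemma comm_p {k : ℕ} {g : A} (hg : g ∈ O.Q k) : O.p k * g = g * O.p k := by
  cases k with
  | zero => simp [O.p_zero]
  | succ k =>
    obtain ⟨h1, h2⟩ := O.mem_Q.mp hg k (Nat.lt_succ_self k)
    rw [← O.star_mul, mul_assoc, h1, ← mul_assoc, h2, mul_assoc]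

lemma comm_f {k : ℕ} {g : A} (hg : g ∈ O.Q (k + 1)) : g * O.f k = O.f k * g := by
  rw [f, mul_sub, sub_mul, O.comm_p hg, O.comm_p (O.Q_anti (Nat.le_succ k) hg)]

lemma p_mem {N : StarSubalgebra ℂ A} {k : ℕ} (hN : ∀ j < k, O.s j ∈ N) : O.p k ∈ N := by
  cases k with
  | zero => rw [O.p_zero]; exact one_mem N
  | succ k =>
    rw [← O.star_mul]
    exact mul_mem (star_mem (hN k (Nat.lt_succ_self k))) (hN k (Nat.lt_succ_self k))

/-- Amplification of a corner element. -/
lemma exists_amp {N : StarSubalgebra ℂ A} (k : ℕ) (hN : ∀ j < k, O.s j ∈ N) {b : A} (hb : b ∈ N)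
    (h1 : O.p k * b = b) (h2 : b * O.p k = b) : ∃ g ∈ N, g ∈ O.Q k ∧ g * O.p k = b := by
  induction k generalizing b with
  | zero => exact ⟨b, hb, O.mem_Q.mpr fun j hj => absurd hj (Nat.not_lt_zero j), h2⟩
  | succ k ih =>
    have hs := hN k (Nat.lt_succ_self k)
    have hb1 : O.p k * b = b := by rw [← h1, ← mul_assoc, O.p_mul]
    have hb2 : b * O.p k = b := by rw [← h2, mul_assoc, O.p_mul']
    have hbs : b * O.s k = 0 := by rw [← h2, mul_assoc, O.p_mul_s0, mul_zero]
    have hsb : star (O.s k) * b = 0 := by rw [← h1, ← mul_assoc, O.star_mul_p0, zero_mul]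
    obtain ⟨g, hgN, hgQ, hg⟩ := ih (fun j hj => hN j (hj.trans (Nat.lt_succ_self k)))
      (b := b + O.s k * b * star (O.s k)) (add_mem hb (mul_mem (mul_mem hs hb) (star_mem hs)))
      (by rw [mul_add, hb1, ← mul_assoc, ← mul_assoc, O.p_mul_s])
      (by rw [add_mul, hb2, mul_assoc _ _ (O.p k), O.star_mul_p])
    have hg' : O.p k * g = b + O.s k * b * star (O.s k) := by rw [O.comm_p hgQ, hg]
    refine ⟨g, hgN, O.mem_Q.mpr fun j hj => ?_, ?_⟩
    · rcases (Nat.lt_succ_iff.mp hj).eq_or_lt with rfl | hj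
      · constructor
        · calc O.s j * g = O.s j * (O.p j * g) := by rw [← mul_assoc, O.s_mul_p']
            _ = O.s j * b := by
              rw [hg', mul_add, ← mul_assoc, ← mul_assoc, O.s_mul_s, zero_mul, zero_mul, add_zero]
            _ = g * O.p j * O.s j := by
              rw [hg, add_mul, hbs, zero_add, mul_assoc (O.s j * b), O.star_mul, mul_assoc, h2]
            _ = g * O.s j := by rw [mul_assoc, O.p_mul_s]
        · calc star (O.s j) * g = star (O.s j) * (O.p j * g) := by rw [← mul_assoc, O.star_mul_p]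
            _ = b * star (O.s j) := by
              rw [hg', mul_add, hsb, zero_add, ← mul_assoc, ← mul_assoc, O.star_mul, h1]
            _ = g * O.p j * star (O.s j) := by
              rw [hg, add_mul, mul_assoc (O.s j * b), O.star_mul_star, mul_zero, add_zero]
            _ = g * star (O.s j) := by rw [mul_assoc, O.p_mul_star']
      · exact O.mem_Q.mp hgQ j hj
    · rw [← O.p_mul, ← mul_assoc, hg, add_mul, h2, mul_assoc (O.s k * b), O.star_mul_p0, mul_zero,
        add_zero]

lemma mem_of_corner {N : StarSubalgebra ℂ A} (k : ℕ) (hN : ∀ j < k, O.s j ∈ N) {g : A}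
    (hg : g ∈ O.Q k) (h : g * O.p k ∈ N) : g ∈ N := by
  induction k with
  | zero => simpa [O.p_zero] using h
  | succ k ih =>
    have hs := hN k (Nat.lt_succ_self k)
    refine ih (fun j hj => hN j (hj.trans (Nat.lt_succ_self k))) (O.Q_anti (Nat.le_succ k) hg) ?_
    have e : g * O.p k = g * O.p (k + 1) + O.s k * (g * O.p (k + 1)) * star (O.s k) := by
      rw [mul_assoc, mul_assoc, O.p_mul_star, ← mul_assoc, (O.mem_Q.mp hg k (Nat.lt_succ_self k)).1,
        mul_assoc, O.mul_star, ← mul_add, add_sub_cancel]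
    rw [e]
    exact add_mem h (mul_mem (mul_mem hs h) (star_mem hs))

lemma le_of_corner {N T : StarSubalgebra ℂ A} (k : ℕ) (hN : ∀ j < k, O.s j ∈ N)
    (hT : ∀ j < k, O.s j ∈ T) (h : ∀ b ∈ N, O.p k * b = b → b * O.p k = b → b ∈ T) : N ≤ T := by
  induction k with
  | zero => exact fun b hb => h b hb (by simp [O.p_zero]) (by simp [O.p_zero])
  | succ k ih =>
    have hs := hN k (Nat.lt_succ_self k)
    have hs' := hT k (Nat.lt_succ_self k)
    have hp := O.p_mem hN
    refine ih (fun j hj => hN j (hj.trans (Nat.lt_succ_self k)))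
      (fun j hj => hT j (hj.trans (Nat.lt_succ_self k))) fun b hb h1 h2 => ?_
    have e1 : O.p k = O.p (k + 1) + O.s k * star (O.s k) := by rw [O.mul_star, add_sub_cancel]
    have e : b = O.p (k + 1) * b * O.p (k + 1) + (O.p (k + 1) * b * O.s k) * star (O.s k) +
        O.s k * (star (O.s k) * b * O.p (k + 1)) +
        O.s k * (star (O.s k) * b * O.s k) * star (O.s k) := by
      calc b = O.p k * b * O.p k := by rw [h1, h2]
        _ = _ := by rw [e1]; noncomm_ring
    rw [e]
    refine add_mem (add_mem (add_mem ?_ (mul_mem ?_ (star_mem hs'))) (mul_mem hs' ?_))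
      (mul_mem (mul_mem hs' ?_) (star_mem hs'))
    · exact h _ (mul_mem (mul_mem hp hb) hp) (by rw [← mul_assoc, ← mul_assoc, O.pp])
        (by rw [mul_assoc _ (O.p _), O.pp])
    · exact h _ (mul_mem (mul_mem hp hb) hs) (by rw [← mul_assoc, ← mul_assoc, O.pp])
        (by rw [mul_assoc _ (O.s _), O.s_mul_p])
    · exact h _ (mul_mem (mul_mem (star_mem hs) hb) hp)
        (by rw [← mul_assoc, ← mul_assoc, O.p_mul_star]) (by rw [mul_assoc _ (O.p _), O.pp])
    · exact h _ (mul_mem (mul_mem (star_mem hs) hb) hs)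
        (by rw [← mul_assoc, ← mul_assoc, O.p_mul_star]) (by rw [mul_assoc _ (O.s _), O.s_mul_p])

/-- The matrix units and the relative commutant generate. -/
lemma gen {N T : StarSubalgebra ℂ A} (k : ℕ) (hN : ∀ j < k, O.s j ∈ N)
    (hT : ∀ j < k, O.s j ∈ T) (h : ∀ g ∈ N, g ∈ O.Q k → g ∈ T) : N ≤ T :=
  O.le_of_corner k hN hT fun b hb h1 h2 => by
    obtain ⟨g, hgN, hgQ, rfl⟩ := O.exists_amp k hN hb h1 h2
    exact mul_mem (h g hgN hgQ) (O.p_mem hT)

/-- An element of `Q k` commuting with `N ⊓ Q k` commutes with `N`. -/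
lemma comm_of_comm {N : StarSubalgebra ℂ A} (k : ℕ) (hN : ∀ j < k, O.s j ∈ N) {z : A}
    (hz : z ∈ O.Q k) (h : ∀ g ∈ N, g ∈ O.Q k → z * g = g * z) : ∀ g ∈ N, z * g = g * z := by
  have key : N ≤ StarSubalgebra.centralizer ℂ {z} := by
    refine O.gen k hN (fun j hj => ?_) fun g hg hgQ => ?_
    · simp only [StarSubalgebra.mem_centralizer_iff, Set.mem_singleton_iff, forall_eq]
      refine ⟨(O.mem_Q.mp hz j hj).1.symm, ?_⟩
      have := congrArg star (O.mem_Q.mp hz j hj).2
      simpa using this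
    · simp only [StarSubalgebra.mem_centralizer_iff, Set.mem_singleton_iff, forall_eq]
      refine ⟨h g hg hgQ, ?_⟩
      have := congrArg star (h _ (star_mem hg) (star_mem hgQ))
      simpa using this.symm
  intro g hg
  have := key hg
  simp only [StarSubalgebra.mem_centralizer_iff, Set.mem_singleton_iff, forall_eq] at this
  exact this.1

lemma linearIndependent_f : LinearIndependent ℂ O.f := by
  classical
  refine linearIndependent_iff'.mpr fun t c hc i hi => ?_
  have := congrArg (O.f i * ·) hc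
  simp only [Finset.mul_sum, mul_smul_comm, mul_zero] at this
  rw [Finset.sum_eq_single i (fun j _ hj => by rw [O.f_mul_f (Ne.symm hj), smul_zero])
    (fun h => absurd hi h), (O.f_proj i).isIdempotentElem.eq] at this
  exact (smul_eq_zero.mp this).resolve_right (O.f_ne i)

end Odo

theorem exists_odo [TW A] (hirr : Irr (⊤ : StarSubalgebra ℂ A)) (hinf : ¬ FiniteDimensional ℂ A) :
    Nonempty (Odo A) := by
  have hinf' : ¬ FiniteDimensional ℂ (⊤ : StarSubalgebra ℂ A) := fun h =>
    hinf (Module.Finite.of_surjective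
      ((⊤ : StarSubalgebra ℂ A).subtype.toAlgHom.toLinearMap) fun x => ⟨⟨x, trivial⟩, rfl⟩)
  have step : ∀ q : {q : A // IsStarProjection q ∧ 0 < (τ q).re},
      ∃ q' : {q : A // IsStarProjection q ∧ 0 < (τ q).re}, ∃ s : A, q.1 * q'.1 = q'.1 ∧
        star s * s = q'.1 ∧ s * star s = q.1 - q'.1 ∧ q.1 ≠ q'.1 := by
    rintro ⟨q, hq, hq0⟩
    obtain ⟨q', -, hq', hqq, ht⟩ := exists_proj_trace isVN_top hirr hinf' (p := q) trivial hq
      (t := (τ q).re / 2) (by linarith) (by linarith)
    obtain ⟨v, -, h1, h2⟩ := exists_equiv isVN_top hirr (p := q') (q := q - q') trivial hq' trivial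
      (hq'.sub_of_mul_eq_right hq hqq) (by rw [map_sub, Complex.sub_re, ht]; ring)
    refine ⟨⟨q', hq', by linarith⟩, v, hqq, h1, h2, fun h => ?_⟩
    simp only at h
    rw [← h] at ht
    linarith
  choose F s h using step
  let q : ℕ → {q : A // IsStarProjection q ∧ 0 < (τ q).re} := fun k =>
    F^[k] ⟨1, IsStarProjection.one A, by simp [τ_one]⟩
  have hq : ∀ k, q (k + 1) = F (q k) := fun k => Function.iterate_succ_apply' _ _ _
  exact ⟨{ p := fun k => (q k).1
           s := fun k => s (q k)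
           p_zero := rfl
           proj := fun k => (q k).2.1
           p_mul := fun k => by rw [hq]; exact (h _).1
           star_mul := fun k => by rw [hq]; exact (h _).2.1
           mul_star := fun k => by rw [hq]; exact (h _).2.2.1
           ne := fun k => by rw [hq]; exact (h _).2.2.2 }⟩

end Crest.Agent.R95
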