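import Crest.Agent.R95.RP

/-! Row 95: packing countably many self-adjoint elements into orthogonal slots. -/

set_option autoImplicit false

namespace Crest.Agent.R95

open Filter Topology
open scoped ComplexConjugate InnerProductSpace

variable {A : Type*} [CStarAlgebra A] [TW A]

attribute [local instance] CStarAlgebra.spectralOrder CStarAlgebra.spectralOrderedRing

/-- Peeling off the top slot. -/
theorem peel {N : StarSubalgebra ℂ A} (hN : IsVN N) {f a R : A} (hf : IsStarProjection f)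
    (ha : IsSelfAdjoint a) (ha1 : ‖a‖ ≤ 1) (hc : a * f = f * a) (hR : IsSelfAdjoint R)
    (hR1 : ‖R‖ ≤ 1 / 2) (hfR : f * R = 0) (hD : (a + 2) * f + R ∈ N) :
    f ∈ N ∧ a * f ∈ N ∧ R ∈ N := by
  have hff : f * f = f := hf.isIdempotentElem.eq
  have hfs : star f = f := hf.isSelfAdjoint.star_eq
  have hRf : R * f = 0 := by
    have := congrArg star hfR
    rwa [star_mul, hfs, hR.star_eq, star_zero] at this
  set h : A := algebraMap ℝ A (1 / 2) with hh
  have hhc : ∀ x : A, h * x = x * h := fun x => Algebra.commutes _ _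
  have h2 : h + h = 1 := by rw [hh, ← map_add]; norm_num
  set u : A := a + 1 + h with hu
  have hu0 : 0 ≤ u := by
    have h1 := ha.neg_algebraMap_norm_le_self
    have h3 : algebraMap ℝ A ‖a‖ ≤ 1 + h := by
      rw [hh, ← map_one (algebraMap ℝ A), ← map_add, ← sub_nonneg, ← map_sub]
      exact algebraMap_nonneg A (by linarith)
    rw [hu, add_assoc, ← neg_le_iff_add_nonneg]
    exact (neg_le_neg h3).trans h1
  have hv0 : 0 ≤ h - R := by
    have h1 := hR.le_algebraMap_norm_self
    have h3 : algebraMap ℝ A ‖R‖ ≤ h := by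
      rw [hh, ← sub_nonneg, ← map_sub]
      exact algebraMap_nonneg A (by linarith)
    exact sub_nonneg.2 (h1.trans h3)
  have huf : u * f = f * u := by rw [hu, add_mul, add_mul, mul_add, mul_add, hc, hhc]; simp
  have hb : 0 ≤ u * f := by
    have := star_left_conjugate_nonneg hu0 f
    rwa [hfs, ← huf, mul_assoc, hff] at this
  have hc' : 0 ≤ h * (1 - f) - R := by
    have := star_left_conjugate_nonneg hv0 (1 - f)
    rw [star_sub, star_one, hfs] at this
    convert this using 1
    simp only [mul_sub, sub_mul, one_mul, mul_one, hfR, hRf, ← hhc, mul_assoc, hff, zero_mul]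
    abel
  have hpos := (CFC.posPart_negPart_unique (a := (a + 2) * f + R - h) (b := u * f)
    (c := h * (1 - f) - R) (by
      have : (2 : A) = 1 + h + h := by rw [add_assoc, h2]; norm_num
      rw [this, hu]; noncomm_ring) (by
      rw [mul_assoc, mul_sub f, hfR, ← mul_assoc f, ← hhc, mul_assoc h, mul_sub f, hff]; simp)
    hb hc').1
  have hhN : h ∈ N := by
    rw [hh, IsScalarTower.algebraMap_apply ℝ ℂ A]; exact algebraMap_mem N _
  have hcl := hN.isClosed
  have hbN : u * f ∈ N := by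
    rw [← hpos, CFC.posPart_def]
    exact cfcₙ_mem (𝕜' := ℂ) _ (sub_mem hD hhN)
  obtain ⟨e, heN, he, he1, he2⟩ := exists_rp hN hbN
  have hunit : IsUnit u := by
    have h1 : IsUnit (1 - ((-2 / 3 : ℝ) • a)) := isUnit_one_sub_of_norm_lt_one (by
      rw [norm_smul, Real.norm_eq_abs, abs_of_neg (by norm_num)]; linarith)
    have h3 : u = algebraMap ℝ A (3 / 2) * (1 - ((-2 / 3 : ℝ) • a)) := by
      rw [hu, hh, ← Algebra.smul_def, Algebra.algebraMap_eq_smul_one]; module
    rw [h3]
    exact ((IsUnit.mk0 (3 / 2 : ℝ) (by norm_num)).map _).mul h1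
  have h3 : e * f = f := by
    rw [huf, ← mul_assoc] at he1
    exact hunit.mul_right_cancel he1
  have h4 : e = f * e := by
    have := he2 (1 - f) (by rw [huf, ← mul_assoc, sub_mul, hff]; simp)
    rw [sub_mul, one_mul, sub_eq_zero] at this
    exact this
  have h5 : e = f := by
    rw [h4, ← hfs, ← he.isSelfAdjoint.star_eq, ← star_mul, h3]
  have hfN : f ∈ N := h5 ▸ heN
  have haf : a * f ∈ N := by
    have : a * f = u * f - f - h * f := by rw [hu]; noncomm_ring
    rw [this]
    exact sub_mem (sub_mem hbN hfN) (mul_mem hhN hfN)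
  refine ⟨hfN, haf, ?_⟩
  have : R = (a + 2) * f + R - a * f - f - f := by noncomm_ring
  rw [this]
  exact sub_mem (sub_mem (sub_mem hD haf) hfN) hfN

theorem packing (f a : ℕ → A) (hf : ∀ k, IsStarProjection (f k))
    (hff : ∀ j k, j ≠ k → f j * f k = 0) (ha : ∀ k, IsSelfAdjoint (a k)) (ha1 : ∀ k, ‖a k‖ ≤ 1)
    (hc : ∀ k, a k * f k = f k * a k) :
    ∃ D : A, IsSelfAdjoint D ∧
      ∀ N : StarSubalgebra ℂ A, IsVN N → D ∈ N → ∀ k, f k ∈ N ∧ a k * f k ∈ N := by
  have := nontrivial_of_tr A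
  set c : ℕ → A := fun k => (a k + 2) * f k with hcdef
  have hcf : ∀ k, c k = f k * (a k + 2) := fun k => by
    simp only [hcdef, add_mul, mul_add, hc, two_mul, mul_two]
  have hcs : ∀ k, star (c k) = c k := fun k => by
    rw [hcf, star_mul, star_add, (ha k).star_eq, (hf k).isSelfAdjoint.star_eq, star_ofNat]
    exact hcf k
  have hcn : ∀ k, ‖c k‖ ≤ 3 := fun k => by
    have h1 : ‖a k + 2‖ ≤ 3 := by
      have h2 : ‖(2 : A)‖ ≤ 2 := by
        rw [← one_add_one_eq_two]; exact (norm_add_le _ _).trans (by rw [norm_one]; norm_num)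
      linarith [norm_add_le (a k) 2, ha1 k]
    exact (norm_mul_le _ _).trans ((mul_le_of_le_one_right (norm_nonneg _) (hf k).norm_le).trans h1)
  have hb : ∀ k j, ‖((1 / 8 : ℝ) ^ j) • c (j + k)‖ ≤ 3 * (1 / 8 : ℝ) ^ j := fun k j => by
    rw [norm_smul, Real.norm_of_nonneg (by positivity), mul_comm]
    exact mul_le_mul_of_nonneg_right (hcn _) (by positivity)
  have hg : HasSum (fun j : ℕ => 3 * (1 / 8 : ℝ) ^ j) (3 * (1 - 1 / 8)⁻¹) :=
    (hasSum_geometric_of_lt_one (by norm_num) (by norm_num)).mul_left 3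
  have hs : ∀ k, Summable fun j => ((1 / 8 : ℝ) ^ j) • c (j + k) := fun k =>
    Summable.of_norm_bounded hg.summable (hb k)
  set T : ℕ → A := fun k => ∑' j, ((1 / 8 : ℝ) ^ j) • c (j + k) with hT
  have hTn : ∀ k, ‖T k‖ ≤ 3 * (1 - 1 / 8)⁻¹ := fun k => tsum_of_norm_bounded hg (hb k)
  have hTs : ∀ k, IsSelfAdjoint (T k) := fun k => by
    simp only [IsSelfAdjoint, hT, tsum_star, star_smul, star_trivial, hcs]
  have hTsucc : ∀ k, T k = c k + (1 / 8 : ℝ) • T (k + 1) := fun k => by
    simp only [hT]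
    rw [(hs k).tsum_eq_zero_add, ← (hs (k + 1)).tsum_const_smul]
    simp only [pow_zero, one_smul, zero_add, smul_smul, pow_succ', add_assoc, add_comm 1 k]
  have hfT : ∀ k, f k * T (k + 1) = 0 := fun k => by
    simp only [hT]
    rw [← (hs (k + 1)).tsum_mul_left]
    have h0 : ∀ j, f k * f (j + (k + 1)) = 0 := fun j => hff _ _ (by omega)
    simp only [mul_smul_comm, hcf, ← mul_assoc, h0, zero_mul, smul_zero, tsum_zero]
  refine ⟨T 0, hTs 0, fun N hN hD => ?_⟩
  have key : ∀ k, T k ∈ N → f k ∈ N ∧ a k * f k ∈ N ∧ T (k + 1) ∈ N := fun k hk => by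
    obtain ⟨h1, h2, h3⟩ := peel hN (hf k) (ha k) (ha1 k) (hc k) (R := (1 / 8 : ℝ) • T (k + 1))
      (IsSelfAdjoint.smul (.all _) (hTs _)) (by
        rw [norm_smul, Real.norm_of_nonneg (by norm_num)]; linarith [hTn (k + 1)])
      (by rw [mul_smul_comm, hfT, smul_zero]) (hTsucc k ▸ hk)
    refine ⟨h1, h2, ?_⟩
    have h4 := N.smul_mem h3 8
    rwa [← Complex.coe_smul, smul_smul, show (8 : ℂ) * ((1 / 8 : ℝ) : ℂ) = 1 by push_cast; norm_num,
      one_smul] at h4
  have hall : ∀ k, T k ∈ N := fun k => by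
    induction k with
    | zero => exact hD
    | succ k ih => exact (key k ih).2.2
  exact fun k => ⟨(key k (hall k)).1, (key k (hall k)).2.1⟩

end Crest.Agent.R95
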