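import Crest.Agent.R95.Baire
import Crest.Agent.R95.Pack
import Crest.Agent.R95.Odo1

/-! Row 95: a single generator. -/

set_option autoImplicit false

namespace Crest.Agent.R95

open Filter Topology
open scoped ComplexConjugate InnerProductSpace

variable {A : Type*} [CStarAlgebra A] [TW A]

namespace OdoAux

omit [TW A] in
/-- Real and imaginary parts of a contraction. -/
lemma exists_parts {Q : StarSubalgebra ℂ A} {g : A} (hg : g ∈ Q) (h1 : ‖g‖ ≤ 1) :
    ∃ a b : A, (a ∈ Q ∧ IsSelfAdjoint a ∧ ‖a‖ ≤ 1) ∧ (b ∈ Q ∧ IsSelfAdjoint b ∧ ‖b‖ ≤ 1) ∧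
      g = a + Complex.I • b := by
  refine ⟨(realPart g : A), (imaginaryPart g : A), ⟨?_, (realPart g).2,
    (realPart.norm_le g).trans h1⟩, ⟨?_, (imaginaryPart g).2, (imaginaryPart.norm_le g).trans h1⟩,
    (realPart_add_I_smul_imaginaryPart g).symm⟩
  · rw [realPart_apply_coe, ← Complex.coe_smul]
    exact SMulMemClass.smul_mem _ (add_mem hg (star_mem hg))
  · rw [imaginaryPart_apply_coe, ← Complex.coe_smul]
    exact SMulMemClass.smul_mem _ (SMulMemClass.smul_mem _ (sub_mem hg (star_mem hg)))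

lemma n2_comm_le {a x y : A} (ha : ‖a‖ ≤ 1) :
    n2 (a * x - x * a) ≤ n2 (a * y - y * a) + 2 * n2 (x - y) := by
  have e : a * x - x * a = (a * y - y * a) + (a * (x - y) - (x - y) * a) := by noncomm_ring
  have h1 := n2_mul_le_left a (x - y)
  have h2 := n2_mul_le_right (x - y) a
  have h3 := n2_sub_le (a * (x - y)) ((x - y) * a)
  have h4 := n2_add_le (a * y - y * a) (a * (x - y) - (x - y) * a)
  have := n2_nonneg (x - y)
  rw [e]
  nlinarith

/-- A nearly optimal test element. -/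
lemma exists_test (Q : StarSubalgebra ℂ A) (x : A) :
    ∃ a₀ : A, (a₀ ∈ Q ∧ IsSelfAdjoint a₀ ∧ ‖a₀‖ ≤ 1) ∧ ∀ a : A, a ∈ Q ∧ IsSelfAdjoint a ∧ ‖a‖ ≤ 1 →
      n2 (a * x - x * a) ≤ 2 * n2 (a₀ * x - x * a₀) := by
  let S : Set ℝ := (fun a => n2 (a * x - x * a)) '' {a | a ∈ Q ∧ IsSelfAdjoint a ∧ ‖a‖ ≤ 1}
  have h0 : (0 : A) ∈ {a | a ∈ Q ∧ IsSelfAdjoint a ∧ ‖a‖ ≤ 1} :=
    ⟨zero_mem Q, IsSelfAdjoint.zero A, by simp⟩
  have hb : BddAbove S := ⟨2 * n2 x, by
    rintro _ ⟨a, ha, rfl⟩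
    simpa using n2_comm_le (x := x) (y := 0) ha.2.2⟩
  rcases le_or_gt (sSup S) 0 with h | h
  · exact ⟨0, h0, fun a ha => ((le_csSup hb ⟨a, ha, rfl⟩).trans h).trans (by simp)⟩
  · obtain ⟨_, ⟨a₀, ha₀, rfl⟩, h'⟩ := exists_lt_of_lt_csSup (s := S) ⟨_, 0, h0, rfl⟩
      (half_lt_self h)
    exact ⟨a₀, ha₀, fun a ha => (le_csSup hb ⟨a, ha, rfl⟩).trans (by simp only at h'; linarith)⟩

/-- An element of `Q k` of trace zero almost commuting with `Q k` is small. -/
lemma n2_le_of_almost (hirr : Irr (⊤ : StarSubalgebra ℂ A)) (O : Odo A) (k : ℕ) {y : A}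
    (hy : y ∈ O.Q k) (h0 : τ y = 0) {η : ℝ}
    (h : ∀ a : A, a ∈ O.Q k ∧ IsSelfAdjoint a ∧ ‖a‖ ≤ 1 → n2 (a * y - y * a) ≤ η) :
    n2 y ≤ 2 * η := by
  have := nontrivial_of_tr A
  have hu : ∀ g ∈ O.Q k, g ∈ unitary A → n2 (g * y * star g - y) ≤ 2 * η := fun g hg hgu => by
    obtain ⟨a, b, ha, hb, e⟩ := exists_parts hg (CStarRing.norm_of_mem_unitary hgu).le
    have e1 : g * y * star g - y = (g * y - y * g) * star g := by
      rw [sub_mul, mul_assoc y, hgu.2, mul_one]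
    have e2 : g * y - y * g = (a * y - y * a) + Complex.I • (b * y - y * b) := by
      rw [e]; simp only [add_mul, mul_add, smul_mul_assoc, mul_smul_comm, smul_sub]; abel
    rw [e1, n2_mul_unitary (Unitary.star_mem hgu), e2]
    refine (n2_add_le _ _).trans ?_
    rw [n2_smul, Complex.norm_I, one_mul]
    linarith [h a ha, h b hb]
  obtain ⟨z, hz, hap⟩ := mix0 (isVN_centralizer (O.s '' {j | j < k})) y
  have hap' : ∀ ε : ℝ, 0 < ε → ∃ v ∈ O.Q k, τ v = 0 ∧ n2 (v - y) ≤ 2 * η ∧ n2 (v - z) < ε := by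
    intro ε hε
    obtain ⟨ι, _, w, g, hw, hw1, hg, hv⟩ := hap ε hε
    refine ⟨_, ?_, ?_, ?_, hv⟩
    · refine sum_mem fun i _ => ?_
      rw [← Complex.coe_smul]
      exact SMulMemClass.smul_mem _ (mul_mem (mul_mem (hg i).1 hy) (star_mem (hg i).1))
    · rw [map_sum]
      refine Finset.sum_eq_zero fun i _ => ?_
      rw [τ_rsmul, τ_comm, ← mul_assoc, (hg i).2.1, one_mul, h0, mul_zero]
    · have e : ∑ i, w i • (g i * y * star (g i)) - y = ∑ i, w i • (g i * y * star (g i) - y) := by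
        simp only [smul_sub, Finset.sum_sub_distrib, ← Finset.sum_smul, hw1, one_smul]
      rw [e]
      refine (n2_sum_le _ _).trans ?_
      calc ∑ i, n2 (w i • (g i * y * star (g i) - y)) ≤ ∑ i, w i * (2 * η) :=
            Finset.sum_le_sum fun i _ => by
              rw [n2_rsmul, abs_of_nonneg (hw i)]
              exact mul_le_mul_of_nonneg_left (hu _ (hg i).1 (hg i).2) (hw i)
        _ = 2 * η := by rw [← Finset.sum_mul, hw1, one_mul]
  have hcomm : ∀ t : A, ‖t‖ ≤ 1 → (∀ v ∈ O.Q k, t * v = v * t) → t * z = z * t := by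
    intro t ht htv
    rw [← sub_eq_zero, ← n2_eq_zero]
    refine le_antisymm (le_of_forall_pos_le_add fun ε hε => ?_) (n2_nonneg _)
    obtain ⟨v, hv, -, -, hvz⟩ := hap' (ε / 2) (half_pos hε)
    have := n2_comm_le (x := z) (y := v) ht
    rw [htv v hv, sub_self, n2_zero, n2_sub_comm z v] at this
    linarith
  have hzQ : z ∈ O.Q k := O.mem_Q.mpr fun j hj =>
    ⟨hcomm _ (O.norm_s j) fun v hv => (O.mem_Q.mp hv j hj).1,
      hcomm _ (by simpa using O.norm_s j) fun v hv => (O.mem_Q.mp hv j hj).2⟩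
  obtain ⟨c, hc⟩ := hirr z
    (O.comm_of_comm (N := ⊤) k (fun _ _ => trivial) hzQ fun g _ hg => hz g hg)
  have hτ : τ z = 0 := by
    rw [← norm_le_zero_iff]
    refine le_of_forall_pos_le_add fun ε hε => ?_
    obtain ⟨v, -, hv0, -, hvz⟩ := hap' ε hε
    have := norm_τ_le_n2 (v - z)
    rw [map_sub, hv0, zero_sub, norm_neg] at this
    linarith
  have hz0 : z = 0 := by
    rw [hc, map_smul, τ_one, smul_eq_mul, mul_one] at hτ
    rw [hc, hτ, zero_smul]
  refine le_of_forall_pos_le_add fun ε hε => ?_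
  obtain ⟨v, -, -, h1, h2⟩ := hap' ε hε
  have := n2_triangle y v 0
  rw [sub_zero, n2_sub_comm y v] at this
  rw [hz0] at h2
  linarith

/-- Countably many test elements make the algebra generated with the odometer irreducible. -/
lemma exists_tests (hirr : Irr (⊤ : StarSubalgebra ℂ A)) (O : Odo A) :
    ∃ a : ℕ → A, (∀ k, a k ∈ O.Q (k + 3) ∧ IsSelfAdjoint (a k) ∧ ‖a k‖ ≤ 1) ∧
      ∀ P : StarSubalgebra ℂ A, (∀ k, O.s k ∈ P) → (∀ k, a k ∈ P) → Irr P := by
  have : Nonempty (L2 A) := ⟨0⟩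
  let x : ℕ → A := fun k => toL2.symm (TopologicalSpace.denseSeq (L2 A) k)
  choose a ha ha' using fun k => exists_test (O.Q (k + 3)) (x k)
  refine ⟨a, ha, fun P hs haP y hy => ⟨τ y, ?_⟩⟩
  set y' := y - τ y • (1 : A) with hy'
  have hc : ∀ g ∈ P, y' * g = g * y' := fun g hg => by
    rw [hy', sub_mul, mul_sub, hy g hg, smul_mul_assoc, mul_smul_comm, one_mul, mul_one]
  rw [← sub_eq_zero, ← hy', ← n2_eq_zero]
  refine le_antisymm (le_of_forall_pos_le_add fun ε hε => ?_) (n2_nonneg _)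
  obtain ⟨k, hk⟩ := (TopologicalSpace.denseRange_denseSeq (L2 A)).exists_dist_lt (toL2 y')
    (show 0 < ε / 12 by positivity)
  have hk' : n2 (y' - x k) < ε / 12 := by rwa [← dist_toL2, toL2.apply_symm_apply]
  have := n2_le_of_almost hirr O (k + 3) (y := y') (η := ε / 2)
    (O.mem_Q.mpr fun j _ => ⟨(hc _ (hs j)).symm, (hc _ (star_mem (hs j))).symm⟩)
    (by rw [hy', map_sub, map_smul, τ_one, smul_eq_mul, mul_one, sub_self]) fun b hb => by
      have h1 := n2_comm_le (x := y') (y := x k) hb.2.2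
      have h2 := ha' k b hb
      have h3 := n2_comm_le (x := x k) (y := y') (ha k).2.2
      rw [hc _ (haP k), sub_self, n2_zero, n2_sub_comm (x k)] at h3
      linarith
  linarith

lemma isVN_comap (Q : StarSubalgebra ℂ A) [IsClosed (Q : Set A)] (hQ : IsVN Q)
    {N : StarSubalgebra ℂ A} (hN : IsVN N) :
    @IsVN Q _ (subTW Q hQ).toTr (N.comap Q.subtype) := by
  intro x y C hx hC hl
  refine hN (fun n => (x n : A)) y C hx hC ?_
  have : ∀ z : Q, @n2 Q _ (subTW Q hQ).toTr z = n2 (z : A) := n2_sub_eq Q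
  simp only [Lim, this] at hl
  exact hl

/-- One unitary of `Q 2` generates together with `P`. -/
lemma exists_unitary (O : Odo A) {P : StarSubalgebra ℂ A} (hP : IsVN P) (hirr : Irr P)
    (hs : ∀ k, O.s k ∈ P) : ∃ u ∈ O.Q 2, ‖u‖ ≤ 1 ∧
      ∀ N : StarSubalgebra ℂ A, IsVN N → P ≤ N → u ∈ N → N = ⊤ := by
  have hQ : IsVN (O.Q 2) := isVN_centralizer _
  have : IsClosed (O.Q 2 : Set A) := hQ.isClosed
  let _ := subTW (O.Q 2) hQ
  have := nontrivial_of_tr (O.Q 2)
  have hirr' : Irr (P.comap (O.Q 2).subtype) := fun y hy => by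
    obtain ⟨c, hc⟩ := hirr y (O.comm_of_comm 2 (fun j _ => hs j) y.2 fun g hg hgQ =>
      congrArg Subtype.val (hy ⟨g, hgQ⟩ hg))
    exact ⟨c, Subtype.ext hc⟩
  have hinf : ¬ FiniteDimensional ℂ (P.comap (O.Q 2).subtype) := fun hfin => by
    have hf : ∀ k, O.f k ∈ P := fun k =>
      sub_mem (O.p_mem fun j _ => hs j) (O.p_mem fun j _ => hs j)
    choose g hgP hgQ hg using fun k => O.exists_amp 2 (fun j _ => hs j) (hf (k + 2))
      (O.p_mul_f' (Nat.le_add_left 2 k)) (O.f_mul_p' (Nat.le_add_left 2 k))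
    let φ : P.comap (O.Q 2).subtype →ₗ[ℂ] A :=
      (LinearMap.mulRight ℂ (O.p 2)).comp (((O.Q 2).subtype.comp
        (P.comap (O.Q 2).subtype).subtype).toAlgHom.toLinearMap)
    have hli : LinearIndependent ℂ
        (fun k => (⟨⟨g k, hgQ k⟩, hgP k⟩ : P.comap (O.Q 2).subtype)) := by
      refine LinearIndependent.of_comp φ ?_
      have := O.linearIndependent_f.comp (fun k => k + 2) (add_left_injective 2)
      convert this using 1
      exact funext fun k => hg k
    exact Module.Finite.not_linearIndependent_of_infinite _ hli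
  obtain ⟨u, hu, -, h⟩ := generic (isVN_comap _ hQ hP) hirr' hinf (one_mem _) one_pos
  refine ⟨u, u.2, (CStarRing.norm_of_mem_unitary hu).le, fun N hN hPN huN => ?_⟩
  have h' := h (N.comap (O.Q 2).subtype) (isVN_comap _ hQ hN) (fun x hx => hPN hx) huN
  refine top_le_iff.mp (O.gen 2 (fun _ _ => trivial) (fun j _ => hPN (hs j)) fun g _ hg => ?_)
  have : (⟨g, hg⟩ : O.Q 2) ∈ N.comap (O.Q 2).subtype := h' ▸ trivial
  exact this

omit [TW A] in
/-- All matrix units in one self-adjoint element. -/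
lemma exists_H (O : Odo A) : ∃ H : A, IsSelfAdjoint H ∧
    ∀ k, O.f k * H * O.p (k + 1) = ((1 / 2 : ℂ) ^ k) • O.s k := by
  have hsum : Summable fun k => ((1 / 2 : ℂ) ^ k) • (O.s k + star (O.s k)) := by
    refine Summable.of_norm_bounded (g := fun k => (1 / 2 : ℝ) ^ k * 2)
      (summable_geometric_two.mul_right 2) fun k => ?_
    rw [norm_smul, norm_pow]
    refine mul_le_mul (by simp) ((norm_add_le _ _).trans ?_) (norm_nonneg _) (by positivity)
    rw [norm_star]
    linarith [O.norm_s k]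
  refine ⟨_, hsum.hasSum.star.unique ?_, fun k => ?_⟩
  · convert hsum.hasSum using 2 with k
    simp [add_comm]
  · refine ((hsum.hasSum.mul_left (O.f k)).mul_right (O.p (k + 1))).unique ?_
    have e : ∀ j, O.f k * star (O.s j) * O.p (k + 1) = 0 := fun j => by
      rcases le_total k j with h | h
      · rw [← O.p_mul_star, ← mul_assoc, O.f_mul_p (Nat.lt_succ_of_le h), zero_mul, zero_mul]
      · rw [← O.star_mul_f, mul_assoc, mul_assoc, O.f_mul_p (Nat.lt_succ_of_le h), mul_zero,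
          mul_zero]
    convert hasSum_single k fun j hj => ?_ using 1
    · rw [mul_smul_comm, smul_mul_assoc, mul_add, add_mul, e, add_zero, O.f_mul_s, O.s_mul_p]
    · rw [mul_smul_comm, smul_mul_assoc, mul_add, add_mul, e, add_zero, ← O.f_mul_s,
        ← mul_assoc, O.f_mul_f (Ne.symm hj), zero_mul, zero_mul, smul_zero]

end OdoAux

open OdoAux in
theorem single_gen (hirr : Irr (⊤ : StarSubalgebra ℂ A)) (hinf : ¬ FiniteDimensional ℂ A) :
    ∃ x : A, ∀ N : StarSubalgebra ℂ A, IsVN N → x ∈ N → N = ⊤ := by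
  obtain ⟨O⟩ := exists_odo hirr hinf
  obtain ⟨a, ha, hirrP⟩ := exists_tests hirr O
  let S : Set (StarSubalgebra ℂ A) := {N | IsVN N ∧ (∀ k, O.s k ∈ N) ∧ ∀ k, a k ∈ N}
  have hs : ∀ k, O.s k ∈ sInf S := fun k => StarSubalgebra.mem_sInf.mpr fun N hN => hN.2.1 k
  have haP : ∀ k, a k ∈ sInf S := fun k => StarSubalgebra.mem_sInf.mpr fun N hN => hN.2.2 k
  obtain ⟨u, huQ, hu1, hu⟩ := exists_unitary O (isVN_sInf fun N (hN : N ∈ S) => hN.1)
    (hirrP _ hs haP) hs
  obtain ⟨a0, a1, ha0, ha1, hua⟩ := exists_parts huQ hu1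
  let b : ℕ → A := fun k => match k with
    | 0 => a0
    | 1 => a1
    | k + 2 => a k
  have hb : ∀ k, b k ∈ O.Q (k + 1) ∧ IsSelfAdjoint (b k) ∧ ‖b k‖ ≤ 1 := fun k => match k with
    | 0 => ⟨O.Q_anti (by norm_num) ha0.1, ha0.2⟩
    | 1 => ha1
    | k + 2 => ha k
  obtain ⟨D, hD, hDN⟩ := packing O.f b O.f_proj (fun _ _ => O.f_mul_f) (fun k => (hb k).2.1)
    (fun k => (hb k).2.2) fun k => O.comm_f (hb k).1
  obtain ⟨H, hH, hHs⟩ := exists_H O
  refine ⟨D + Complex.I • H, fun N hN hx => ?_⟩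
  have hx' : D - Complex.I • H ∈ N := by
    have := star_mem hx
    rwa [star_add, star_smul, hD.star_eq, hH.star_eq, Complex.star_def, Complex.conj_I, neg_smul,
      ← sub_eq_add_neg] at this
  have hDm : D ∈ N := by
    have := SMulMemClass.smul_mem (1 / 2 : ℂ) (add_mem hx hx')
    convert this using 1
    module
  have hHm : H ∈ N := by
    have := SMulMemClass.smul_mem (-Complex.I) (sub_mem hx hDm)
    rwa [add_sub_cancel_left, smul_smul, neg_mul, Complex.I_mul_I, neg_neg, one_smul] at this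
  have hp : ∀ k, O.p k ∈ N := fun k => by
    induction k with
    | zero => rw [O.p_zero]; exact one_mem N
    | succ k ih => simpa [Odo.f] using sub_mem ih (hDN N hN hDm k).1
  have hsN : ∀ k, O.s k ∈ N := fun k => by
    have := SMulMemClass.smul_mem ((2 : ℂ) ^ k)
      (mul_mem (mul_mem (hDN N hN hDm k).1 hHm) (hp (k + 1)))
    rwa [hHs, smul_smul, ← mul_pow, mul_one_div_cancel two_ne_zero, one_pow, one_smul] at this
  have hbN : ∀ k, b k ∈ N := fun k => by
    refine O.mem_of_corner (k + 1) (fun j _ => hsN j) (hb k).1 ?_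
    have := mul_mem (mul_mem (star_mem (hsN k)) (hDN N hN hDm k).2) (hsN k)
    rwa [mul_assoc, mul_assoc, O.f_mul_s, ← mul_assoc,
      (O.mem_Q.mp (hb k).1 k (Nat.lt_succ_self k)).2, mul_assoc, O.star_mul] at this
  refine hu N hN (sInf_le ⟨hN, hsN, fun k => hbN (k + 2)⟩) ?_
  rw [hua]
  exact add_mem (hbN 0) (SMulMemClass.smul_mem _ (hbN 1))

end Crest.Agent.R95
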