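import Crest.Agent.R95.Basic

/-! Row 95: range projections. -/

set_option autoImplicit false

namespace Crest.Agent.R95

open Filter Topology
open scoped ComplexConjugate InnerProductSpace

variable {A : Type*} [CStarAlgebra A] [TW A]

attribute [local instance] CStarAlgebra.spectralOrder CStarAlgebra.spectralOrderedRing

/-- The powers of a positive contraction converge. -/
theorem exists_lim_pow {a : A} (h0 : 0 ≤ a) (h1 : a ≤ 1) : ∃ p, Lim (fun n => a ^ n) p := by
  have hn : ∀ n, ‖a ^ n‖ ≤ 1 := fun n => by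
    have := nontrivial_of_tr A
    exact (norm_pow_le a n).trans
      (pow_le_one₀ (norm_nonneg _) ((CStarAlgebra.norm_le_one_iff_of_nonneg a h0).2 h1))
  let t : ℕ → ℝ := fun n => (τ (a ^ n)).re
  have hp : ∀ n, 0 ≤ a ^ n := fun n => CStarAlgebra.pow_nonneg h0 n
  have ht : Antitone t := antitone_nat_of_succ_le fun n => by
    have := τ_mul_re_nonneg (hp n) (sub_nonneg.2 h1)
    rw [mul_sub, mul_one, ← pow_succ, map_sub, Complex.sub_re] at this
    exact sub_nonneg.1 this
  have hb : BddBelow (Set.range t) := ⟨0, by rintro _ ⟨n, rfl⟩; exact τ_re_nonneg (hp n)⟩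
  have hl := tendsto_atTop_ciInf ht hb
  obtain ⟨p, -, hp⟩ := exists_lim hn (cauchySeq_of_le_tendsto_0
    (fun N => √(2 * (t N - ⨅ i, t i))) (fun n m N hn hm => by
      rw [dist_toL2]
      refine Real.le_sqrt_of_sq_le ?_
      have e : star (a ^ n - a ^ m) * (a ^ n - a ^ m) =
          a ^ (n + n) - a ^ (n + m) - a ^ (n + m) + a ^ (m + m) := by
        rw [star_sub, (hp n).isSelfAdjoint.star_eq, (hp m).isSelfAdjoint.star_eq, sub_mul, mul_sub,
          mul_sub, ← pow_add, ← pow_add, ← pow_add, ← pow_add, add_comm m n]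
        abel
      rw [n2_sq, e]
      simp only [map_add, map_sub, Complex.add_re, Complex.sub_re]
      have h2 := ht (show N ≤ n + n by omega)
      have h3 := ht (show N ≤ m + m by omega)
      have h4 := ciInf_le hb (n + m)
      simp only [t] at h2 h3 h4 ⊢
      linarith) (by simpa using ((hl.sub_const (⨅ i, t i)).const_mul 2).sqrt))
  exact ⟨p, hp⟩

/-- The range projection of `b`. -/
theorem exists_rp {N : StarSubalgebra ℂ A} (hN : IsVN N) {b : A} (hb : b ∈ N) :
    ∃ e ∈ N, IsStarProjection e ∧ e * b = b ∧ ∀ y : A, y * b = 0 → y * e = 0 := by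
  set r : ℝ := (‖b * star b‖ + 1)⁻¹ with hr
  have hr0 : 0 < r := by positivity
  set c : A := r • (b * star b) with hc
  have hc0 : 0 ≤ c := smul_nonneg hr0.le (mul_star_self_nonneg b)
  have hc1 : c ≤ 1 := (CStarAlgebra.norm_le_one_iff_of_nonneg c hc0).1 (by
    rw [hc, norm_smul, Real.norm_of_nonneg hr0.le, hr, inv_mul_le_iff₀ (by positivity)]
    linarith)
  have h0 : 0 ≤ 1 - c := sub_nonneg.2 hc1
  have h1 : 1 - c ≤ 1 := sub_le_self _ hc0
  obtain ⟨p, hp⟩ := exists_lim_pow h0 h1
  have hn : ∀ n, ‖(1 - c) ^ n‖ ≤ 1 := fun n => by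
    have := nontrivial_of_tr A
    exact (norm_pow_le _ n).trans
      (pow_le_one₀ (norm_nonneg _) ((CStarAlgebra.norm_le_one_iff_of_nonneg _ h0).2 h1))
  have hcN : c ∈ N := by
    rw [hc, ← Complex.coe_smul]
    exact N.smul_mem (mul_mem hb (star_mem hb)) _
  have hpN : p ∈ N := hN _ p 1 (fun n => pow_mem (sub_mem (one_mem N) hcN) n) hn hp
  have hs : star p = p := hp.star.unique (by
    simpa only [star_pow, h0.isSelfAdjoint.star_eq] using hp)
  have hfix : ∀ y : A, y * c = 0 → y * p = y := fun y hy => (hp.mul_left y).unique (by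
    have : ∀ n, y * (1 - c) ^ n = y := fun n => by
      induction n with
      | zero => simp
      | succ n ih => rw [pow_succ', ← mul_assoc, mul_sub, mul_one, hy, sub_zero, ih]
    simpa only [this] using Lim.const y)
  have hpc : p * c = 0 := by
    have h2 : Lim (fun n => (1 - c) ^ (n + 1)) p := hp.comp (tendsto_add_atTop_nat 1)
    have h3 := (hp.mul_right (1 - c)).unique (by simpa only [← pow_succ] using h2)
    rwa [mul_sub, mul_one, sub_eq_self] at h3
  have hpb : p * b = 0 := by
    rw [hc, mul_smul_comm, smul_eq_zero_iff_right hr0.ne'] at hpc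
    rw [← CStarRing.mul_star_self_eq_zero_iff, star_mul, ← mul_assoc, mul_assoc p, hpc, zero_mul]
  refine ⟨1 - p, sub_mem (one_mem N) hpN, IsStarProjection.one_sub ⟨hfix p hpc, hs⟩,
    by rw [sub_mul, one_mul, hpb, sub_zero], fun y hy => ?_⟩
  rw [mul_sub, mul_one, hfix y (by rw [hc, mul_smul_comm, ← mul_assoc, hy, zero_mul, smul_zero]),
    sub_self]

end Crest.Agent.R95
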