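import Crest.Agent.R95.Mix
import Crest.Agent.R95.RP

/-! Row 95: projections in a factor of type II₁. -/

set_option autoImplicit false

namespace Crest.Agent.R95

open Filter Topology
open scoped ComplexConjugate InnerProductSpace

variable {A : Type*} [CStarAlgebra A] [TW A]

attribute [local instance] CStarAlgebra.spectralOrder CStarAlgebra.spectralOrderedRing

/-- The order of partial isometries. -/
def PLe (v w : A) : Prop := w * star v = v * star v ∧ star v * w = star v * v

omit [TW A] in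
lemma PLe.trans {v w u : A} (hv : v * star v * v = v) (h : PLe v w) (h' : PLe w u) : PLe v u := by
  have hs : star v * v * star v = star v := by
    simpa [mul_assoc] using congrArg star hv
  have h1 : star w * v = star v * v := by simpa using congrArg star h.2
  have h2 : v * star w = v * star v := by simpa using congrArg star h.1
  constructor
  · calc u * star v = u * star w * v * star v := by
          rw [mul_assoc u, h1, mul_assoc u, hs]
      _ = w * (star v * v * star v) := by rw [h'.1, mul_assoc w, h1, mul_assoc w]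
      _ = v * star v := by rw [hs, h.1]
  · calc star v * u = star v * v * (star w * u) := by
          rw [← mul_assoc, mul_assoc (star v) v, h2, ← mul_assoc, hs]
      _ = star v * v * star v * w := by
          rw [h'.2, ← mul_assoc, mul_assoc (star v) v, h2, ← mul_assoc]
      _ = star v * v := by rw [hs, h.2]

lemma PLe.n2_sq {v w : A} (h : PLe v w) :
    n2 (w - v) ^ 2 = (τ (star w * w)).re - (τ (star v * v)).re := by
  have h1 : star w * v = star v * v := by simpa using congrArg star h.2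
  rw [R95.n2_sq, star_sub, sub_mul, mul_sub, mul_sub, h1, h.2]
  simp

omit [TW A] in
lemma proj_of_pi {v : A} (hv : v * star v * v = v) : IsStarProjection (star v * v) :=
  ⟨by rw [IsIdempotentElem, mul_assoc, ← mul_assoc v, hv], IsSelfAdjoint.star_mul_self v⟩

omit [TW A] in
lemma proj_of_pi' {v : A} (hv : v * star v * v = v) : IsStarProjection (v * star v) :=
  ⟨by rw [IsIdempotentElem, ← mul_assoc, hv], IsSelfAdjoint.mul_star_self v⟩

omit [TW A] in
lemma norm_le_of_pi {v : A} (hv : v * star v * v = v) : ‖v‖ ≤ 1 := by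
  have := (proj_of_pi hv).norm_le
  rw [CStarRing.norm_star_mul_self] at this
  nlinarith [norm_nonneg v]

/-- A closed nonempty class of partial isometries has a maximal element. -/
lemma exists_max_pi {S : Set A} (hne : S.Nonempty) (hS : ∀ v ∈ S, v * star v * v = v)
    (hcl : ∀ (x : ℕ → A) (y : A), (∀ n, x n ∈ S) → Lim x y → y ∈ S) :
    ∃ v ∈ S, ∀ w ∈ S, PLe v w → w = v := by
  have hb : ∀ w ∈ S, (τ (star w * w)).re ≤ 1 := fun w hw => by
    rw [← R95.n2_sq]
    have := (n2_le_norm w).trans (norm_le_of_pi (hS w hw))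
    nlinarith [n2_nonneg w]
  have step : ∀ (n : ℕ) (v : S), ∃ v' : S, PLe v.1 v'.1 ∧ ∀ w ∈ S, PLe v.1 w →
      (τ (star w * w)).re < (τ (star v'.1 * v'.1)).re + (1 / (n + 1 : ℝ)) ^ 2 := by
    intro n v
    set T : Set ℝ := (fun w => (τ (star w * w)).re) '' {w | w ∈ S ∧ PLe v.1 w} with hT
    have hTb : BddAbove T := ⟨1, by rintro _ ⟨w, hw, rfl⟩; exact hb w hw.1⟩
    have hTn : T.Nonempty := ⟨_, v.1, ⟨v.2, rfl, rfl⟩, rfl⟩
    obtain ⟨_, ⟨v', hv', rfl⟩, hlt⟩ := exists_lt_of_lt_csSup hTn
      (show sSup T - (1 / (n + 1 : ℝ)) ^ 2 < sSup T from sub_lt_self _ (by positivity))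
    refine ⟨⟨v', hv'.1⟩, hv'.2, fun w hw hvw => ?_⟩
    have := le_csSup hTb ⟨w, ⟨hw, hvw⟩, rfl⟩
    simp only at this hlt ⊢
    linarith
  choose F hF hF' using step
  obtain ⟨x, hx⟩ : ∃ x : ℕ → S, ∀ n, x (n + 1) = F n (x n) :=
    ⟨fun n => Nat.rec ⟨hne.some, hne.some_mem⟩ F n, fun n => rfl⟩
  have hmono : ∀ n m, n ≤ m → PLe (x n).1 (x m).1 := by
    intro n m hnm
    induction m, hnm using Nat.le_induction with
    | base => exact ⟨rfl, rfl⟩
    | succ m _ ih => exact ih.trans (hS _ (x n).2) (by rw [hx]; exact hF m (x m))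
  have key : ∀ n, ∀ w ∈ S, PLe (x (n + 1)).1 w → n2 ((x (n + 1)).1 - w) ≤ 1 / (n + 1 : ℝ) := by
    intro n w hw hle
    have h1 := hF' n (x n) w hw ((hmono n (n + 1) n.le_succ).trans (hS _ (x n).2) hle)
    rw [← hx] at h1
    rw [n2_sub_comm]
    refine (pow_le_pow_iff_left₀ (n2_nonneg _) (by positivity) two_ne_zero).mp ?_
    rw [hle.n2_sq]
    linarith
  obtain ⟨y, -, hy⟩ := exists_lim (x := fun n => (x (n + 1)).1) (C := 1)
    (fun n => norm_le_of_pi (hS _ (x (n + 1)).2))
    (cauchySeq_of_le_tendsto_0' (fun n => 1 / (n + 1 : ℝ)) (fun n m hnm => by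
      rw [dist_toL2]
      exact key n _ (x (m + 1)).2 (hmono (n + 1) (m + 1) (by omega)))
      tendsto_one_div_add_atTop_nhds_zero_nat)
  have hle : ∀ n, PLe (x n).1 y := fun n => by
    have hy' : Lim (fun m => (x (m + n + 1)).1) y := hy.comp (tendsto_add_atTop_nat n)
    constructor
    · refine (hy'.mul_right _).unique ?_
      simpa only [fun m => (hmono n (m + n + 1) (by omega)).1] using Lim.const _
    · refine (hy'.mul_left _).unique ?_
      simpa only [fun m => (hmono n (m + n + 1) (by omega)).2] using Lim.const _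
  refine ⟨y, hcl _ y (fun n => (x _).2) hy, fun w hw hyw => ?_⟩
  exact (Lim.of_le tendsto_one_div_add_atTop_nhds_zero_nat fun n =>
    key n w hw ((hle _).trans (hS _ (x _).2) hyw)).unique hy

lemma τ_proj_pos {p : A} (hp : IsStarProjection p) (h0 : p ≠ 0) : 0 < (τ p).re := by
  rw [← n2_sq_proj hp]
  exact pow_pos ((n2_nonneg p).lt_of_ne' fun h => h0 (n2_eq_zero.mp h)) 2

lemma exists_mul_ne {P : StarSubalgebra ℂ A} (hP : IsVN P) (hirr : Irr P) {p q : A}
    (hp : IsStarProjection p) (hp0 : p ≠ 0) (hq : IsStarProjection q) (hq0 : q ≠ 0) :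
    ∃ g ∈ P, q * g * p ≠ 0 := by
  by_contra! hcon
  have hpos : 0 < ‖τ p‖ * n2 q :=
    mul_pos ((τ_proj_pos hp hp0).trans_le (Complex.re_le_norm _))
      ((n2_nonneg q).lt_of_ne' fun h => hq0 (n2_eq_zero.mp h))
  obtain ⟨ι, _, w, g, -, -, hg, h⟩ := mix hP hirr {p} hpos
  have h1 := h p (Finset.mem_singleton_self p)
  have h2 := n2_mul_le_left q (∑ i, w i • (g i * p * star (g i)) - τ p • (1 : A))
  have h3 : q * (∑ i, w i • (g i * p * star (g i)) - τ p • (1 : A)) = -(τ p • q) := by
    rw [mul_sub, Finset.mul_sum, Finset.sum_eq_zero fun i _ => by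
      rw [mul_smul_comm, ← mul_assoc, ← mul_assoc, hcon _ (hg i).1, zero_mul, smul_zero]]
    simp
  rw [h3, n2_neg, n2_smul] at h2
  nlinarith [hq.norm_le, norm_nonneg q, n2_nonneg (∑ i, w i • (g i * p * star (g i)) - τ p • (1 : A))]

lemma exists_cut {c : ℝ} (hc : 0 < c) : ∃ k f : ℝ → ℝ, Continuous k ∧ Continuous f ∧ k c ≠ 0 ∧
    ∀ s, f s * s * f s * (s * k s) = s * k s := by
  refine ⟨fun s => max (s - c / 2) 0, fun s => (√(max s (c / 2)))⁻¹, by fun_prop,
    Continuous.inv₀ (by fun_prop) fun s =>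
      (Real.sqrt_pos.mpr ((half_pos hc).trans_le (le_max_right _ _))).ne', ?_, fun s => ?_⟩
  · exact (lt_max_of_lt_left (by linarith)).ne'
  · rcases le_total s (c / 2) with h | h
    · simp [h]
    · have hs : 0 < s := (half_pos hc).trans_le h
      have : (√s)⁻¹ * s * (√s)⁻¹ = 1 := by
        field_simp
        rw [Real.sq_sqrt hs.le]
      simp only [max_eq_left h, this, one_mul]

/-- A nonzero partial isometry between two nonzero projections. -/
lemma exists_pi_ne {P : StarSubalgebra ℂ A} (hP : IsVN P) (hirr : Irr P) {p q : A}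
    (hpP : p ∈ P) (hp : IsStarProjection p) (hp0 : p ≠ 0) (hqP : q ∈ P) (hq : IsStarProjection q)
    (hq0 : q ≠ 0) : ∃ w ∈ P, w ≠ 0 ∧ w * star w * w = w ∧ q * w = w ∧ w * p = w := by
  have := nontrivial_of_tr A
  have := hP.isClosed
  obtain ⟨g, hg, hy0⟩ := exists_mul_ne hP hirr hp hp0 hq hq0
  set y := q * g * p with hy
  have hyP : y ∈ P := mul_mem (mul_mem hqP hg) hpP
  have hqy : q * y = y := by rw [hy, ← mul_assoc, ← mul_assoc, hq.isIdempotentElem.eq]
  have hyp : y * p = y := by rw [hy, mul_assoc, hp.isIdempotentElem.eq]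
  set d := star y * y with hd
  have hdP : d ∈ P := mul_mem (star_mem hyP) hyP
  have hd0 : 0 ≤ d := star_mul_self_nonneg y
  have hdsa : IsSelfAdjoint d := hd0.isSelfAdjoint
  have hpd : p * d = d := by
    have := congrArg star hyp
    rw [star_mul, hp.isSelfAdjoint.star_eq] at this
    rw [hd, ← mul_assoc, this]
  have hn : 0 < ‖d‖ := by
    rw [hd, CStarRing.norm_star_mul_self]
    exact mul_pos (norm_pos_iff.mpr hy0) (norm_pos_iff.mpr hy0)
  obtain ⟨k, f, hkc, hfc, hk, hf⟩ := exists_cut hn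
  have hb : d * cfc k d = cfc (fun s => s * k s) d := by
    rw [cfc_mul _ _ d, cfc_id' ℝ d]
  have hb0 : d * cfc k d ≠ 0 := by
    intro h
    rw [hb, ← cfc_zero ℝ d] at h
    have := eqOn_of_cfc_eq_cfc h (by fun_prop) (by fun_prop) hdsa
      (CStarAlgebra.norm_mem_spectrum_of_nonneg hd0)
    simp [hk, hn.ne'] at this
  obtain ⟨e, heP, he, heb, hmin⟩ := exists_rp hP (mul_mem hdP (cfc_mem k hdP))
  have hpe : p * e = e := by
    have := hmin (1 - p) (by rw [← mul_assoc, sub_mul, one_mul, hpd, sub_self, zero_mul])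
    rw [sub_mul, one_mul, sub_eq_zero] at this
    exact this.symm
  have hfe : cfc f d * d * cfc f d * e = e := by
    have := hmin (1 - cfc f d * d * cfc f d) (by
      have h1 : cfc f d * d * cfc f d = cfc (fun s => f s * s * f s) d := by
        rw [cfc_mul _ _ d, cfc_mul _ _ d, cfc_id' ℝ d]
      rw [h1, hb, sub_mul, one_mul, ← cfc_mul _ _ d, sub_eq_zero]
      exact cfc_congr fun s _ => (hf s).symm)
    rw [sub_mul, one_mul, sub_eq_zero] at this
    exact this.symm
  have hfsa : star (cfc f d) = cfc f d := (cfc_predicate f d : IsSelfAdjoint _).star_eq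
  have hww : star (y * cfc f d * e) * (y * cfc f d * e) = e := by
    calc _ = e * (cfc f d * (star y * y) * cfc f d * e) := by
          simp only [star_mul, hfsa, he.isSelfAdjoint.star_eq, mul_assoc]
      _ = e := by rw [hfe, he.isIdempotentElem.eq]
  have hep : e * p = e := by
    simpa [he.isSelfAdjoint.star_eq, hp.isSelfAdjoint.star_eq] using congrArg star hpe
  refine ⟨y * cfc f d * e, mul_mem (mul_mem hyP (cfc_mem f hdP)) heP, fun h => hb0 ?_, ?_, ?_, ?_⟩
  · rw [h, mul_zero] at hww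
    rw [← heb, ← hww, zero_mul]
  · rw [mul_assoc, hww, mul_assoc, he.isIdempotentElem.eq]
  · rw [← mul_assoc, ← mul_assoc, hqy]
  · rw [mul_assoc, hep]

/-- Comparison of projections. -/
lemma exists_cmp {P : StarSubalgebra ℂ A} (hP : IsVN P) (hirr : Irr P) {p q : A}
    (hpP : p ∈ P) (hp : IsStarProjection p) (hqP : q ∈ P) (hq : IsStarProjection q) :
    ∃ v ∈ P, v * star v * v = v ∧ q * v = v ∧ v * p = v ∧ (star v * v = p ∨ v * star v = q) := by
  obtain ⟨v, ⟨hvP, hv, hqv, hvp⟩, hmax⟩ := exists_max_pi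
    (S := {v | v ∈ P ∧ v * star v * v = v ∧ q * v = v ∧ v * p = v}) ⟨0, zero_mem _, by simp⟩
    (fun v hv => hv.2.1) (fun x y hx hl => by
      have h1 : ∀ n, ‖x n‖ ≤ 1 := fun n => norm_le_of_pi (hx n).2.1
      refine ⟨hP x y 1 (fun n => (hx n).1) h1 hl, ?_, ?_, ?_⟩
      · refine ((hl.mul h1 hl.star).mul (C := 1) (fun n => (proj_of_pi' (hx n).2.1).norm_le)
          hl).unique ?_
        simpa only [(hx _).2.1] using hl
      · exact (hl.mul_left q).unique (by simpa only [(hx _).2.2.1] using hl)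
      · exact (hl.mul_right p).unique (by simpa only [(hx _).2.2.2] using hl))
  refine ⟨v, hvP, hv, hqv, hvp, ?_⟩
  by_contra! hcon
  have hp' := (proj_of_pi hv).sub_of_mul_eq_left hp (by rw [mul_assoc, hvp])
  have hq' := (proj_of_pi' hv).sub_of_mul_eq_right hq (by rw [← mul_assoc, hqv])
  obtain ⟨w, hwP, hw0, hw, hqw, hwp⟩ := exists_pi_ne hP hirr
    (sub_mem hpP (mul_mem (star_mem hvP) hvP)) hp' (sub_ne_zero.mpr hcon.1.symm)
    (sub_mem hqP (mul_mem hvP (star_mem hvP))) hq' (sub_ne_zero.mpr hcon.2.symm)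
  have hs : star v * v * star v = star v := by simpa [mul_assoc] using congrArg star hv
  have hpv : p * star v = star v := by simpa [hp.isSelfAdjoint.star_eq] using congrArg star hvp
  have hvq : star v * q = star v := by simpa [hq.isSelfAdjoint.star_eq] using congrArg star hqv
  have h1 : w * star v = 0 := by rw [← hwp, mul_assoc, sub_mul, hpv, hs, sub_self, mul_zero]
  have h2 : star v * w = 0 := by
    rw [← hqw, ← mul_assoc, mul_sub, hvq, ← mul_assoc, hs, sub_self, zero_mul]
  have h1' : v * star w = 0 := by simpa using congrArg star h1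
  have h2' : star w * v = 0 := by simpa using congrArg star h2
  have hqw' : q * w = w := by
    rwa [sub_mul, mul_assoc, h2, mul_zero, sub_zero] at hqw
  have hwp' : w * p = w := by
    rwa [mul_sub, ← mul_assoc, h1, zero_mul, sub_zero] at hwp
  have := hmax (v + w) ⟨add_mem hvP hwP, ?_, by rw [mul_add, hqv, hqw'],
    by rw [add_mul, hvp, hwp']⟩ ⟨by rw [add_mul, h1, add_zero], by rw [mul_add, h2, add_zero]⟩
  · exact hw0 (by simpa using this)
  · rw [star_add, mul_add (v + w), add_mul v, add_mul v, h1, h1', add_zero, zero_add, add_mul,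
      mul_add, mul_add, hv, hw, mul_assoc, h2, mul_assoc, h2']
    simp

/-- Under a minimal projection, a self-adjoint element of trace zero vanishes. -/
lemma eq_zero_of_min {P : StarSubalgebra ℂ A} (hP : IsVN P) {p : A} (hp : IsStarProjection p)
    (hmin : ∀ e ∈ P, IsStarProjection e → p * e = e → e = 0 ∨ e = p) {a : A} (haP : a ∈ P)
    (ha : IsSelfAdjoint a) (hpa : p * a = a) (h0 : (τ a).re = 0) : a = 0 := by
  have := hP.isClosed
  have hap : a * p = a := by
    simpa [ha.star_eq, hp.isSelfAdjoint.star_eq] using congrArg star hpa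
  have hpos : a⁺ ∈ P := cfcₙ_mem _ haP
  obtain ⟨e, heP, he, heb, hrp⟩ := exists_rp hP (mul_mem haP hpos)
  have hpe : p * e = e := by
    have := hrp (1 - p) (by rw [← mul_assoc, sub_mul, one_mul, hpa, sub_self, zero_mul])
    rw [sub_mul, one_mul, sub_eq_zero] at this
    exact this.symm
  have hd := CFC.posPart_sub_negPart a ha
  have haa : a * a⁺ = a⁺ * a⁺ := by
    nth_rw 1 [← hd]
    rw [sub_mul, CFC.negPart_mul_posPart, sub_zero]
  rcases hmin e heP he hpe with h | h
  · rw [h, zero_mul, haa] at heb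
    have h1 : a⁺ = 0 := by
      rw [← CStarRing.star_mul_self_eq_zero_iff, (CFC.posPart_nonneg a).isSelfAdjoint.star_eq, heb]
    rw [h1, zero_sub] at hd
    have := eq_zero_of_τ_re (CFC.negPart_nonneg a) (by
      rw [← neg_eq_zero, ← Complex.neg_re, ← map_neg, hd, h0])
    rw [← hd, this, neg_zero]
  · have h1 := hrp a⁻ (by rw [haa, ← mul_assoc, CFC.negPart_mul_posPart, zero_mul])
    rw [h] at h1
    refine eq_zero_of_τ_re ?_ h0
    have h2 : a = star p * a⁺ * p := by
      rw [hp.isSelfAdjoint.star_eq, mul_assoc, ← sub_zero (a⁺ * p), ← h1, ← sub_mul, hd, hap, hpa]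
    rw [h2]
    exact star_left_conjugate_nonneg (CFC.posPart_nonneg a) p

lemma exists_smul_of_min {P : StarSubalgebra ℂ A} (hP : IsVN P) {p : A} (hpP : p ∈ P)
    (hp : IsStarProjection p) (hp0 : p ≠ 0)
    (hmin : ∀ e ∈ P, IsStarProjection e → p * e = e → e = 0 ∨ e = p) {x : A} (hx : x ∈ P)
    (hpx : p * x = x) (hxp : x * p = x) : ∃ c : ℂ, x = c • p := by
  have hτ : τ p ≠ 0 := fun h => by simpa [h] using τ_proj_pos hp hp0
  refine ⟨τ x / τ p, ?_⟩
  set y := x - (τ x / τ p) • p with hy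
  have hyP : y ∈ P := sub_mem hx (SMulMemClass.smul_mem _ hpP)
  have hτy : τ y = 0 := by simp [hy, hτ]
  have hpy : p * y = y := by simp [hy, mul_sub, hpx, hp.isIdempotentElem.eq]
  have hyp : y * p = y := by simp [hy, sub_mul, hxp, hp.isIdempotentElem.eq]
  have hpy' : p * star y = star y := by simpa [hp.isSelfAdjoint.star_eq] using congrArg star hyp
  have h1 := eq_zero_of_min hP hp hmin (add_mem hyP (star_mem hyP)) (IsSelfAdjoint.add_star_self y)
    (by rw [mul_add, hpy, hpy']) (by simp [τ_star, hτy])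
  have h2 := eq_zero_of_min hP hp hmin (a := Complex.I • y + star (Complex.I • y))
    (add_mem (SMulMemClass.smul_mem _ hyP) (star_mem (SMulMemClass.smul_mem _ hyP)))
    (IsSelfAdjoint.add_star_self _) (by simp [mul_add, hpy, hpy']) (by simp [τ_star, hτy])
  have h3 : star y = -y := (neg_eq_of_add_eq_zero_right h1).symm
  rw [star_smul, h3, Complex.star_def, Complex.conj_I, smul_neg, neg_smul, neg_neg, ← two_smul ℂ,
    smul_smul, smul_eq_zero] at h2
  exact sub_eq_zero.mp (h2.resolve_left (by simp))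

lemma exists_proper {P : StarSubalgebra ℂ A} (hP : IsVN P) (hirr : Irr P)
    (hinf : ¬ FiniteDimensional ℂ P) {p : A} (hpP : p ∈ P) (hp : IsStarProjection p)
    (hp0 : p ≠ 0) : ∃ e ∈ P, IsStarProjection e ∧ p * e = e ∧ e ≠ 0 ∧ e ≠ p := by
  by_contra! hcon
  have hmin : ∀ e ∈ P, IsStarProjection e → p * e = e → e = 0 ∨ e = p := fun e h1 h2 h3 =>
    or_iff_not_imp_left.mpr (hcon e h1 h2 h3)
  have hpos := τ_proj_pos hp hp0
  have key : ∀ (n : ℕ), ∀ r ∈ P, IsStarProjection r → (τ r).re < n * (τ p).re →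
      ∃ (m : ℕ) (v : Fin m → A), (∀ i, v i ∈ P ∧ v i * p = v i) ∧ ∑ i, v i * star (v i) = r := by
    intro n
    induction n with
    | zero =>
      intro r _ hr h
      rw [← n2_sq_proj hr, Nat.cast_zero, zero_mul] at h
      exact absurd h (sq_nonneg _).not_gt
    | succ n ih =>
      intro r hrP hr h
      by_cases hr0 : r = 0
      · exact ⟨0, Fin.elim0, fun i => i.elim0, by simp [hr0]⟩
      obtain ⟨v, hvP, hv0, hv, hrv, hvp⟩ := exists_pi_ne hP hirr hpP hp hp0 hrP hr hr0
      have hpv : p * star v = star v := by simpa [hp.isSelfAdjoint.star_eq] using congrArg star hvp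
      have h1 : star v * v = p :=
        (hmin _ (mul_mem (star_mem hvP) hvP) (proj_of_pi hv) (by rw [← mul_assoc, hpv])).resolve_left
          fun h => hv0 (CStarRing.star_mul_self_eq_zero_iff _ |>.mp h)
      obtain ⟨m, w, hw, hs⟩ := ih (r - v * star v) (sub_mem hrP (mul_mem hvP (star_mem hvP)))
        ((proj_of_pi' hv).sub_of_mul_eq_right hr (by rw [← mul_assoc, hrv])) (by
          rw [map_sub, τ_comm v, h1, Complex.sub_re]
          push_cast at h
          linarith)
      refine ⟨m + 1, Fin.cons v w, Fin.cases ⟨hvP, hvp⟩ hw, ?_⟩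
      simp [Fin.sum_univ_succ, hs]
  obtain ⟨n, hn⟩ := exists_lt_nsmul hpos (τ (1 : A)).re
  obtain ⟨m, v, hv, hs⟩ := key n 1 (one_mem _) (IsStarProjection.one A) (by simpa using hn)
  apply hinf
  have hle : Subalgebra.toSubmodule P.toSubalgebra ≤
      Submodule.span ℂ (Set.range fun ij : Fin m × Fin m => v ij.1 * star (v ij.2)) := by
    intro x hx
    have hxP : x ∈ P := hx
    have : x = ∑ i, ∑ j, v i * (star (v i) * x * v j) * star (v j) := by
      calc x = (∑ i, v i * star (v i)) * x * ∑ j, v j * star (v j) := by rw [hs, one_mul, mul_one]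
        _ = _ := by simp only [Finset.sum_mul, Finset.mul_sum, mul_assoc]; exact Finset.sum_comm
    rw [this]
    refine Submodule.sum_mem _ fun i _ => Submodule.sum_mem _ fun j _ => ?_
    have hpv : p * star (v i) = star (v i) := by
      simpa [hp.isSelfAdjoint.star_eq] using congrArg star (hv i).2
    obtain ⟨c, hc⟩ := exists_smul_of_min hP hpP hp hp0 hmin
      (mul_mem (mul_mem (star_mem (hv i).1) hxP) (hv j).1)
      (by rw [← mul_assoc, ← mul_assoc, hpv]) (by rw [mul_assoc, (hv j).2])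
    rw [hc, mul_smul_comm, (hv i).2, smul_mul_assoc]
    exact Submodule.smul_mem _ _ (Submodule.subset_span ⟨(i, j), rfl⟩)
  have := FiniteDimensional.span_of_finite ℂ
    (Set.finite_range fun ij : Fin m × Fin m => v ij.1 * star (v ij.2))
  exact Submodule.finiteDimensional_of_le hle

lemma exists_small {P : StarSubalgebra ℂ A} (hP : IsVN P) (hirr : Irr P)
    (hinf : ¬ FiniteDimensional ℂ P) {p : A} (hpP : p ∈ P) (hp : IsStarProjection p)
    (hp0 : p ≠ 0) (n : ℕ) :
    ∃ e ∈ P, IsStarProjection e ∧ p * e = e ∧ e ≠ 0 ∧ (τ e).re ≤ (1 / 2) ^ n * (τ p).re := by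
  induction n with
  | zero => exact ⟨p, hpP, hp, hp.isIdempotentElem.eq, hp0, by simp⟩
  | succ n ih =>
    obtain ⟨e, heP, he, hpe, he0, hτ⟩ := ih
    obtain ⟨f, hfP, hf, hef, hf0, hfe⟩ := exists_proper hP hirr hinf heP he he0
    have hpf : p * f = f := by rw [← hef, ← mul_assoc, hpe]
    rcases le_total (τ f).re ((τ e).re / 2) with h | h
    · exact ⟨f, hfP, hf, hpf, hf0, by rw [pow_succ]; linarith⟩
    · refine ⟨e - f, sub_mem heP hfP, hf.sub_of_mul_eq_right he hef, by rw [mul_sub, hpe, hpf],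
        sub_ne_zero.mpr hfe.symm, ?_⟩
      rw [map_sub, Complex.sub_re, pow_succ]
      linarith

theorem exists_proj_trace {P : StarSubalgebra ℂ A} (hP : IsVN P) (hirr : Irr P)
    (hinf : ¬ FiniteDimensional ℂ P) {p : A} (hpP : p ∈ P) (hp : IsStarProjection p) {t : ℝ}
    (h0 : 0 ≤ t) (ht : t ≤ (τ p).re) :
    ∃ q ∈ P, IsStarProjection q ∧ p * q = q ∧ (τ q).re = t := by
  obtain ⟨q, ⟨hqP, hq, hpq, hqt⟩, hmax⟩ := exists_max_pi
    (S := {q | q ∈ P ∧ IsStarProjection q ∧ p * q = q ∧ (τ q).re ≤ t})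
    ⟨0, zero_mem _, IsStarProjection.zero A, by simp, by simpa using h0⟩
    (fun v hv => by simp only [hv.2.1.isSelfAdjoint.star_eq, hv.2.1.isIdempotentElem.eq])
    (fun x y hx hl => by
      have h1 : ∀ n, ‖x n‖ ≤ 1 := fun n => (hx n).2.1.norm_le
      refine ⟨hP x y 1 (fun n => (hx n).1) h1 hl, ⟨?_, ?_⟩, ?_, ?_⟩
      · exact (hl.mul h1 hl).unique (by simpa only [(hx _).2.1.isIdempotentElem.eq] using hl)
      · exact hl.star.unique (by simpa only [(hx _).2.1.isSelfAdjoint.star_eq] using hl)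
      · exact (hl.mul_left p).unique (by simpa only [(hx _).2.2.1] using hl)
      · exact le_of_tendsto' ((Complex.continuous_re.tendsto _).comp hl.τ) fun n => (hx n).2.2.2)
  refine ⟨q, hqP, hq, hpq, hqt.eq_of_not_lt fun hlt => ?_⟩
  have hr := hq.sub_of_mul_eq_right hp hpq
  have hr0 : p - q ≠ 0 := fun h => by rw [sub_eq_zero.mp h] at ht; linarith
  obtain ⟨n, hn⟩ := exists_pow_lt_of_lt_one
    (div_pos (sub_pos.mpr hlt) (τ_proj_pos hr hr0)) (show (1 / 2 : ℝ) < 1 by norm_num)
  obtain ⟨e, heP, he, hre, he0, hτ⟩ := exists_small hP hirr hinf (sub_mem hpP hqP) hr hr0 n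
  rw [lt_div_iff₀ (τ_proj_pos hr hr0)] at hn
  have hqp : q * p = q := by
    simpa [hq.isSelfAdjoint.star_eq, hp.isSelfAdjoint.star_eq] using congrArg star hpq
  have hqe : q * e = 0 := by
    rw [← hre, ← mul_assoc, mul_sub, hqp, hq.isIdempotentElem.eq, sub_self, zero_mul]
  have heq : e * q = 0 := by
    simpa [hq.isSelfAdjoint.star_eq, he.isSelfAdjoint.star_eq] using congrArg star hqe
  have hpe : p * e = e := by rwa [sub_mul, hqe, sub_zero] at hre
  have := hmax (q + e) ⟨add_mem hqP heP, hq.add he hqe, by rw [mul_add, hpq, hpe], by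
    rw [map_add, Complex.add_re]; linarith⟩
    ⟨by rw [hq.isSelfAdjoint.star_eq, add_mul, heq, add_zero],
      by rw [hq.isSelfAdjoint.star_eq, mul_add, hqe, add_zero]⟩
  exact he0 (by simpa using this)

theorem exists_equiv {P : StarSubalgebra ℂ A} (hP : IsVN P) (hirr : Irr P) {p q : A}
    (hpP : p ∈ P) (hp : IsStarProjection p) (hqP : q ∈ P) (hq : IsStarProjection q)
    (h : (τ p).re = (τ q).re) : ∃ v ∈ P, star v * v = p ∧ v * star v = q := by
  obtain ⟨v, hvP, hv, hqv, hvp, hor⟩ := exists_cmp hP hirr hpP hp hqP hq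
  have hp' := (proj_of_pi hv).sub_of_mul_eq_left hp (by rw [mul_assoc, hvp])
  have hq' := (proj_of_pi' hv).sub_of_mul_eq_right hq (by rw [← mul_assoc, hqv])
  have hτ : (τ (p - star v * v)).re = (τ (q - v * star v)).re := by
    simp only [map_sub, Complex.sub_re, h, τ_comm v]
  refine ⟨v, hvP, ?_⟩
  rcases hor with h1 | h1
  · refine ⟨h1, (sub_eq_zero.mp (by_contra fun h2 => ?_)).symm⟩
    have := τ_proj_pos hq' h2
    rw [← hτ, h1] at this
    simp at this
  · refine ⟨(sub_eq_zero.mp (by_contra fun h2 => ?_)).symm, h1⟩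
    have := τ_proj_pos hp' h2
    rw [hτ, h1] at this
    simp at this

end Crest.Agent.R95
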