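import Crest.Agent.R95.Proj
import Crest.Agent.R95.Defs

/-! Row 95: random directions. -/

set_option autoImplicit false

namespace Crest.Agent.R95

open Filter Topology
open scoped ComplexConjugate InnerProductSpace

variable {A : Type*} [CStarAlgebra A] [TW A]

theorem n2_sq_proj_mul {p : A} (hp : IsStarProjection p) (Z : A) :
    n2 (p * Z) ^ 2 = (τ (star Z * p * Z)).re := by
  rw [n2_sq, star_mul, hp.isSelfAdjoint.star_eq, mul_assoc, ← mul_assoc p, hp.isIdempotentElem.eq,
    mul_assoc]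

/-- Random signs on a partition of `r` into `m` projections of trace `δ`. -/
theorem exists_signs {P : StarSubalgebra ℂ A} (hP : IsVN P) (hirr : Irr P)
    (hinf : ¬ FiniteDimensional ℂ P) {δ : ℝ} (hδ : 0 ≤ δ) (m : ℕ) {r : A} (hrP : r ∈ P)
    (hr : IsStarProjection r) (ht : (τ r).re = m * δ) :
    ∃ (ι : Type) (_ : Fintype ι) (_ : Nonempty ι) (k : ι → A),
      (∀ i, k i ∈ P ∧ star (k i) = k i ∧ k i * k i = r ∧ r * k i = k i) ∧
      ∀ Z, ∑ i, ‖τ (k i * Z)‖ ^ 2 ≤ Fintype.card ι * (δ * n2 (r * Z) ^ 2) := by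
  induction m generalizing r with
  | zero =>
    have h0 : r = 0 := by
      rw [← n2_eq_zero, ← pow_eq_zero_iff two_ne_zero, n2_sq_proj hr, ht]; simp
    subst h0
    exact ⟨Unit, inferInstance, inferInstance, fun _ => 0, fun _ => by simp, fun Z => by simp⟩
  | succ m ih =>
    obtain ⟨q, hqP, hq, hrq, hqt⟩ := exists_proj_trace hP hirr hinf hrP hr hδ (by
      rw [ht]; push_cast; nlinarith [m.cast_nonneg (α := ℝ)])
    have hqq : q * q = q := hq.isIdempotentElem.eq
    have hqs : star q = q := hq.isSelfAdjoint.star_eq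
    have hqr : q * r = q := by
      have := congrArg star hrq
      rwa [star_mul, hqs, hr.isSelfAdjoint.star_eq] at this
    have hr' : IsStarProjection (r - q) := hq.sub_of_mul_eq_left hr hqr
    obtain ⟨ι, _, _, k, hk, hZ⟩ := ih (sub_mem hrP hqP) hr' (by
      rw [map_sub, Complex.sub_re, ht, hqt]; push_cast; ring)
    have hqk : ∀ i, q * k i = 0 := fun i => by
      rw [← (hk i).2.2.2, ← mul_assoc, mul_sub, hqr, hqq, sub_self, zero_mul]
    have hkq : ∀ i, k i * q = 0 := fun i => by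
      have := congrArg star (hqk i)
      rwa [star_mul, hqs, (hk i).2.1, star_zero] at this
    have hrk : ∀ i, r * k i = k i := fun i => by
      have := (hk i).2.2.2
      rwa [sub_mul, hqk, sub_zero] at this
    refine ⟨ι × Bool, inferInstance, inferInstance, fun z => if z.2 then k z.1 + q else k z.1 - q,
      fun z => ?_, fun Z => ?_⟩
    · obtain ⟨h1, h2, h3, -⟩ := hk z.1
      dsimp only
      split_ifs
      · exact ⟨add_mem h1 hqP, by rw [star_add, h2, hqs],
          by simp [add_mul, mul_add, h3, hqk, hkq, hqq], by rw [mul_add, hrk, hrq]⟩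
      · exact ⟨sub_mem h1 hqP, by rw [star_sub, h2, hqs],
          by simp [sub_mul, mul_sub, h3, hqk, hkq, hqq], by rw [mul_sub, hrk, hrq]⟩
    · have h1 : ‖τ (q * Z)‖ ^ 2 ≤ δ * n2 (q * Z) ^ 2 := by
        have := norm_τ_mul_le q (q * Z)
        rw [← mul_assoc, hqq] at this
        rw [← hqt, ← n2_sq_proj hq, ← mul_pow]
        exact pow_le_pow_left₀ (norm_nonneg _) this 2
      have h2 : n2 (r * Z) ^ 2 = n2 ((r - q) * Z) ^ 2 + n2 (q * Z) ^ 2 := by
        rw [n2_sq_proj_mul hr, n2_sq_proj_mul hr', n2_sq_proj_mul hq]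
        simp [mul_sub, sub_mul]
      have h3 : ∀ i, ‖τ ((k i + q) * Z)‖ ^ 2 + ‖τ ((k i - q) * Z)‖ ^ 2 =
          2 * (‖τ (k i * Z)‖ ^ 2 + ‖τ (q * Z)‖ ^ 2) := fun i => by
        simp only [add_mul, sub_mul, map_add, map_sub]
        exact parallelogram_law_with_norm ℂ _ _
      simp only [Fintype.sum_prod_type, Fintype.sum_bool, if_true, Bool.false_eq_true, if_false, h3,
        Fintype.card_prod, Fintype.card_bool, ← Finset.mul_sum, Finset.sum_add_distrib,
        Finset.sum_const, Finset.card_univ, nsmul_eq_mul, h2]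
      push_cast
      nlinarith [hZ Z, mul_le_mul_of_nonneg_left h1 (Nat.cast_nonneg (α := ℝ) (Fintype.card ι))]

theorem exists_le_avg {Z : Type} [Fintype Z] (W f : Z → ℝ) (hW : ∀ z, 0 ≤ W z)
    (h1 : ∑ z, W z = 1) : ∃ z, f z ≤ ∑ z, W z * f z := by
  have hne : (Finset.univ : Finset Z).Nonempty := by
    by_contra h
    rw [Finset.not_nonempty_iff_eq_empty.1 h] at h1
    simp at h1
  obtain ⟨z, -, hz⟩ := Finset.exists_min_image Finset.univ f hne
  refine ⟨z, ?_⟩
  rw [← one_mul (f z), ← h1, Finset.sum_mul]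
  exact Finset.sum_le_sum fun z' hz' => mul_le_mul_of_nonneg_left (hz z' hz') (hW z')

theorem rs0 {P : StarSubalgebra ℂ A} (hP : IsVN P) (hirr : Irr P)
    (hinf : ¬ FiniteDimensional ℂ P) : RS {s : A | s ∈ P ∧ IsSelfAdjoint s ∧ ‖s‖ ≤ 2} := by
  classical
  have := nontrivial_of_tr A
  intro F ε hε
  obtain ⟨C, hC0, hC⟩ : ∃ C : ℝ, 0 < C ∧ ∀ X ∈ F, ‖X‖ ≤ C :=
    ⟨∑ X ∈ F, ‖X‖ + 1, by positivity, fun X hX =>
      (Finset.single_le_sum (f := fun X => ‖X‖) (fun _ _ => norm_nonneg _) hX).trans (by linarith)⟩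
  obtain ⟨n, hn⟩ := exists_nat_gt (2 * C ^ 2 / ε)
  have hn0 : (0 : ℝ) < n := lt_trans (by positivity) hn
  obtain ⟨ι, _, _, k, hk, hZ⟩ := exists_signs hP hirr hinf (δ := (n : ℝ)⁻¹) (by positivity) n
    (one_mem P) (IsStarProjection.one A) (by rw [τ_one, mul_inv_cancel₀ hn0.ne']; simp)
  have hι : (0 : ℝ) < Fintype.card ι := by exact_mod_cast Fintype.card_pos
  have hku : ∀ i, k i ∈ unitary A := fun i => by
    rw [Unitary.mem_iff, (hk i).2.1]; exact ⟨(hk i).2.2.1, (hk i).2.2.1⟩
  obtain ⟨κ, _, w, g, hw, hw1, hg, hmix⟩ := mix hP hirr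
    (Finset.image₂ (fun i X => k i * X * k i) Finset.univ F) (ε := ε / (2 * C)) (by positivity)
  let s : ι × κ × Bool → A := fun z =>
    if z.2.2 then g z.2.1 * k z.1 + k z.1 * star (g z.2.1)
    else Complex.I • (g z.2.1 * k z.1 - k z.1 * star (g z.2.1))
  let W : ι × κ × Bool → ℝ := fun z => (Fintype.card ι : ℝ)⁻¹ * (w z.2.1 * (1 / 2))
  let E : (A → ℝ) →ₗ[ℝ] ℝ := ∑ z, W z • LinearMap.proj (s z)
  have hE0 : ∀ f, E f = ∑ z, W z * f (s z) := fun f => by simp [E, LinearMap.sum_apply]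
  have hE : ∀ f, E f = (Fintype.card ι : ℝ)⁻¹ * ∑ i, ∑ j, w j *
      ((f (g j * k i + k i * star (g j)) +
        f (Complex.I • (g j * k i - k i * star (g j)))) / 2) := fun f => by
    simp only [hE0, Fintype.sum_prod_type, Fintype.sum_bool, W, s, Finset.mul_sum, if_true,
      Bool.false_eq_true, if_false]
    exact Finset.sum_congr rfl fun i _ => Finset.sum_congr rfl fun j _ => by ring
  refine ⟨E, fun f => ?_, fun X hX X' hX' => ?_, fun Y hY => ?_⟩
  · obtain ⟨z, hz⟩ := exists_le_avg W (fun z => f (s z))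
      (fun z => mul_nonneg (by positivity) (mul_nonneg (hw _) (by norm_num))) (by
        have := hE fun _ => 1
        rw [hE0] at this
        simpa [← Finset.sum_mul, hw1, hι.ne'] using this)
    refine ⟨s z, ?_, by rwa [hE0]⟩
    obtain ⟨i, j, b⟩ := z
    have h1 : g j * k i ∈ P := mul_mem (hg j).1 (hk i).1
    have h2 : k i * star (g j) = star (g j * k i) := by rw [star_mul, (hk i).2.1]
    have h3 : ‖g j * k i‖ = 1 := CStarRing.norm_of_mem_unitary (mul_mem (hg j).2 (hku i))
    simp only [s, h2]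
    split_ifs
    · exact ⟨add_mem h1 (star_mem h1), .add_star_self _,
        (norm_add_le _ _).trans (by rw [norm_star, h3]; norm_num)⟩
    · refine ⟨P.smul_mem (sub_mem h1 (star_mem h1)) _, ?_, ?_⟩
      · simp [IsSelfAdjoint, smul_sub, neg_add_eq_sub]
      · rw [norm_smul, Complex.norm_I, one_mul]
        exact (norm_sub_le _ _).trans (by rw [norm_star, h3]; norm_num)
  · have key : ∀ i, ∀ X ∈ F, ∀ X' ∈ F,
        |∑ j, w j * (τ (g j * (k i * X * k i) * star (g j) * X')).re - (τ X * τ X').re| ≤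
          ε / 2 := by
      intro i X hX X' hX'
      have h1 := hmix _ (Finset.mem_image₂_of_mem (Finset.mem_univ i) hX)
      have h2 : τ (k i * X * k i) = τ X := by
        rw [τ_comm, ← mul_assoc, (hk i).2.2.1, one_mul]
      have h3 := norm_τ_mul_le (∑ j, w j • (g j * (k i * X * k i) * star (g j)) -
        τ (k i * X * k i) • (1 : A)) X'
      have h4 := mul_le_mul h1.le ((n2_le_norm X').trans (hC X' hX')) (n2_nonneg _) (by positivity)
      refine le_trans (le_of_eq ?_) ((Complex.abs_re_le_norm _).trans (h3.trans (h4.trans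
        (le_of_eq (by field_simp)))))
      congr 1
      simp [h2, sub_mul, Finset.sum_mul]
    have h5 : ∀ i j, ((τ ((g j * k i + k i * star (g j)) * X * (g j * k i + k i * star (g j)) *
        X')).re + (τ (Complex.I • (g j * k i - k i * star (g j)) * X *
          Complex.I • (g j * k i - k i * star (g j)) * X')).re) / 2 =
        (τ (g j * (k i * X * k i) * star (g j) * X')).re +
          (τ (g j * (k i * X' * k i) * star (g j) * X)).re := by
      intro i j
      have h6 : τ (g j * (k i * X' * k i) * star (g j) * X) =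
          τ (k i * star (g j) * X * (g j * k i) * X') := by
        rw [show k i * star (g j) * X * (g j * k i) * X' =
          (k i * star (g j) * X) * (g j * k i * X') by noncomm_ring, τ_comm (k i * star (g j) * X)]
        congr 1; noncomm_ring
      rw [h6, ← Complex.add_re, ← Complex.add_re, ← map_add, ← map_add, div_eq_iff two_ne_zero]
      simp only [smul_mul_assoc, mul_smul_comm, smul_smul, Complex.I_mul_I, neg_smul, one_smul]
      rw [mul_two, ← Complex.add_re, ← map_add]
      congr 2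
      noncomm_ring
    rw [hE]
    simp only [h5]
    simp only [mul_add (w _), Finset.sum_add_distrib (s := (Finset.univ : Finset κ))]
    have h7 : 2 * (τ X * τ X').re = (Fintype.card ι : ℝ)⁻¹ *
        ∑ _i : ι, ((τ X * τ X').re + (τ X' * τ X).re) := by
      rw [mul_comm (τ X'), Finset.sum_const, Finset.card_univ, nsmul_eq_mul, ← mul_assoc,
        inv_mul_cancel₀ hι.ne']
      ring
    rw [h7, ← mul_sub, ← Finset.sum_sub_distrib, abs_mul, abs_of_pos (inv_pos.2 hι),
      inv_mul_le_iff₀ hι]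
    refine (Finset.abs_sum_le_sum_abs _ _).trans ((Finset.sum_le_card_nsmul _ _ ε fun i _ => ?_).trans
      (by simp))
    rw [add_sub_add_comm]
    exact (abs_add_le _ _).trans (by linarith [key i X hX X' hX', key i X' hX' X hX])
  · have h5 : ∀ i j, (‖τ ((g j * k i + k i * star (g j)) * Y)‖ ^ 2 +
        ‖τ (Complex.I • (g j * k i - k i * star (g j)) * Y)‖ ^ 2) / 2 =
        ‖τ (k i * (Y * g j))‖ ^ 2 + ‖τ (k i * (star (g j) * Y))‖ ^ 2 := by
      intro i j
      rw [← mul_assoc, τ_comm (k i * Y), smul_mul_assoc, map_smul, norm_smul, Complex.norm_I,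
        one_mul, div_eq_iff two_ne_zero, mul_comm _ (2 : ℝ)]
      simp only [add_mul, sub_mul, map_add, map_sub, mul_assoc]
      exact parallelogram_law_with_norm ℂ _ _
    have h6 : ∀ j, (Fintype.card ι : ℝ)⁻¹ *
        ∑ i, (‖τ (k i * (Y * g j))‖ ^ 2 + ‖τ (k i * (star (g j) * Y))‖ ^ 2) ≤ ε := by
      intro j
      have h7 := hZ (Y * g j)
      have h8 := hZ (star (g j) * Y)
      rw [one_mul, n2_mul_unitary (hg j).2] at h7
      rw [one_mul, n2_unitary_mul (Unitary.star_mem (hg j).2)] at h8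
      have h9 : n2 Y ^ 2 ≤ C ^ 2 :=
        pow_le_pow_left₀ (n2_nonneg _) ((n2_le_norm Y).trans (hC Y hY)) 2
      have h10 : 2 * ((n : ℝ)⁻¹ * n2 Y ^ 2) ≤ ε := by
        rw [div_lt_iff₀ hε] at hn
        rw [mul_left_comm, inv_mul_le_iff₀ hn0]
        linarith
      rw [inv_mul_le_iff₀ hι, Finset.sum_add_distrib]
      nlinarith
    rw [hE]
    simp only [h5]
    rw [Finset.sum_comm, abs_of_nonneg (mul_nonneg (by positivity) (Finset.sum_nonneg fun j _ =>
      Finset.sum_nonneg fun i _ => mul_nonneg (hw j) (by positivity))), Finset.mul_sum,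
      ← one_mul ε, ← hw1, Finset.sum_mul]
    refine Finset.sum_le_sum fun j _ => ?_
    rw [← Finset.mul_sum, mul_left_comm]
    exact mul_le_mul_of_nonneg_left (h6 j) (hw j)

theorem rs {P : StarSubalgebra ℂ A} (hP : IsVN P) (hirr : Irr P) (hinf : ¬ FiniteDimensional ℂ P)
    {B : A} (hB : B ∈ unitary A) :
    RS {s : A | ∃ s₀ ∈ P, IsSelfAdjoint s₀ ∧ ‖s₀‖ ≤ 2 ∧ s = star B * s₀ * B} := by
  classical
  intro F ε hε
  obtain ⟨E, h1, h2, h3⟩ := rs0 hP hirr hinf (F.image fun X => B * X * star B) ε hε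
  have hτ : ∀ X : A, τ (B * X * star B) = τ X := fun X => by
    rw [τ_comm, ← mul_assoc, hB.1, one_mul]
  refine ⟨E ∘ₗ LinearMap.funLeft ℝ ℝ (fun s => star B * s * B), fun f => ?_,
    fun X hX X' hX' => ?_, fun Y hY => ?_⟩
  · obtain ⟨s, hs, h⟩ := h1 fun s => f (star B * s * B)
    exact ⟨_, ⟨s, hs.1, hs.2.1, hs.2.2, rfl⟩, h⟩
  · have := h2 _ (Finset.mem_image_of_mem _ hX) _ (Finset.mem_image_of_mem _ hX')
    rw [hτ, hτ] at this
    rw [LinearMap.comp_apply]
    convert this using 4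
    ext s
    rw [LinearMap.funLeft_apply, ← mul_assoc _ _ (star B), τ_comm _ (star B)]
    simp only [mul_assoc]
  · have := h3 _ (Finset.mem_image_of_mem _ hY)
    rw [LinearMap.comp_apply]
    convert this using 3
    ext s
    rw [LinearMap.funLeft_apply, ← mul_assoc _ _ (star B), τ_comm _ (star B)]
    simp only [mul_assoc]

end Crest.Agent.R95
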