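import Crest.Agent.R95.Defs

/-! Row 95: second order expansions. -/

set_option autoImplicit false

namespace Crest.Agent.R95

open Filter Topology Finset
open scoped Nat

variable {A : Type*} [CStarAlgebra A]

lemma norm_exp_sub_sum_le [Nontrivial A] (X : A) (n : ℕ) :
    ‖NormedSpace.exp X - ∑ i ∈ range n, ((i ! : ℂ)⁻¹) • X ^ i‖ ≤ ‖X‖ ^ n * Real.exp ‖X‖ := by
  have h := (hasSum_nat_add_iff' n).mpr (NormedSpace.exp_series_hasSum_exp' (𝕂 := ℂ) X)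
  have h2 : HasSum (fun i : ℕ => ‖X‖ ^ n * (‖X‖ ^ i / i !)) (‖X‖ ^ n * Real.exp ‖X‖) := by
    rw [Real.exp_eq_exp_ℝ]
    exact (NormedSpace.expSeries_div_hasSum_exp ‖X‖).mul_left _
  refine h.norm_le_of_bounded h2 fun i => ?_
  rw [norm_smul, norm_inv, Complex.norm_natCast, ← mul_div_assoc, ← pow_add, add_comm n i,
    div_eq_inv_mul]
  gcongr
  · omega
  · exact norm_pow_le _ _

/-- Second order expansion with all constants bounded by `K`. -/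
def Tay {B : Type*} [NormedAddCommGroup B] [NormedSpace ℝ B] (K : ℝ) (F : ℝ → B) (a₀ a₁ a₂ : B) :
    Prop :=
  ‖a₀‖ ≤ K ∧ ‖a₁‖ ≤ K ∧ ‖a₂‖ ≤ K ∧
    ∀ δ : ℝ, |δ| ≤ 1 → ‖F δ - (a₀ + δ • a₁ + δ ^ 2 • a₂)‖ ≤ K * |δ| ^ 3

lemma Tay.mono {B : Type*} [NormedAddCommGroup B] [NormedSpace ℝ B] {K K' : ℝ} {F : ℝ → B}
    {a₀ a₁ a₂ : B} (h : Tay K F a₀ a₁ a₂) (hK : K ≤ K') : Tay K' F a₀ a₁ a₂ :=
  ⟨h.1.trans hK, h.2.1.trans hK, h.2.2.1.trans hK, fun δ hδ => (h.2.2.2 δ hδ).trans (by gcongr)⟩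

lemma Tay.poly_le {B : Type*} [NormedAddCommGroup B] [NormedSpace ℝ B] {K : ℝ} {F : ℝ → B}
    {a₀ a₁ a₂ : B} (h : Tay K F a₀ a₁ a₂) {δ : ℝ} (hδ : |δ| ≤ 1) :
    ‖a₀ + δ • a₁ + δ ^ 2 • a₂‖ ≤ 3 * K := by
  have h0 : 0 ≤ K := (norm_nonneg _).trans h.1
  have h1 : ‖δ • a₁‖ ≤ 1 * K := by
    rw [norm_smul, Real.norm_eq_abs]; gcongr; exact h.2.1
  have h2 : ‖δ ^ 2 • a₂‖ ≤ 1 ^ 2 * K := by
    rw [norm_smul, norm_pow, Real.norm_eq_abs]; gcongr; exact h.2.2.1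
  have := norm_add₃_le (a := a₀) (b := δ • a₁) (c := δ ^ 2 • a₂)
  linarith [h.1]

lemma Tay.mul {K K' : ℝ} {F G : ℝ → A} {a₀ a₁ a₂ b₀ b₁ b₂ : A} (h : Tay K F a₀ a₁ a₂)
    (h' : Tay K' G b₀ b₁ b₂) :
    Tay (10 * K * K') (fun δ => F δ * G δ) (a₀ * b₀) (a₁ * b₀ + a₀ * b₁)
      (a₂ * b₀ + a₁ * b₁ + a₀ * b₂) := by
  have h0 : 0 ≤ K := (norm_nonneg _).trans h.1
  have h0' : 0 ≤ K' := (norm_nonneg _).trans h'.1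
  have hKK : 0 ≤ K * K' := mul_nonneg h0 h0'
  have m : ∀ {x y : A}, ‖x‖ ≤ K → ‖y‖ ≤ K' → ‖x * y‖ ≤ K * K' := fun hx hy =>
    (norm_mul_le _ _).trans (by gcongr)
  obtain ⟨p0, p1, p2, p3⟩ := id h
  obtain ⟨q0, q1, q2, q3⟩ := id h'
  refine ⟨by linarith [m p0 q0], ?_, ?_, fun δ hδ => ?_⟩
  · linarith [norm_add_le (a₁ * b₀) (a₀ * b₁), m p1 q0, m p0 q1]
  · linarith [norm_add₃_le (a := a₂ * b₀) (b := a₁ * b₁) (c := a₀ * b₂), m p2 q0, m p1 q1, m p0 q2]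
  set p := a₀ + δ • a₁ + δ ^ 2 • a₂ with hp
  set q := b₀ + δ • b₁ + δ ^ 2 • b₂ with hq
  have e : F δ * G δ - (a₀ * b₀ + δ • (a₁ * b₀ + a₀ * b₁) + δ ^ 2 • (a₂ * b₀ + a₁ * b₁ + a₀ * b₂)) =
      (F δ - p) * (G δ - q) + (F δ - p) * q + p * (G δ - q) +
        δ ^ 3 • (a₁ * b₂ + a₂ * b₁ + δ • (a₂ * b₂)) := by
    simp only [hp, hq, mul_add, add_mul, mul_sub, sub_mul, smul_mul_assoc, mul_smul_comm]
    module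
  have d3 : |δ| ^ 3 ≤ 1 := pow_le_one₀ (abs_nonneg _) hδ
  have d0 : 0 ≤ |δ| ^ 3 := by positivity
  have t1 : ‖(F δ - p) * (G δ - q)‖ ≤ K * |δ| ^ 3 * (K' * 1) :=
    (norm_mul_le _ _).trans (mul_le_mul (p3 δ hδ) ((q3 δ hδ).trans (by gcongr)) (norm_nonneg _)
      (by positivity))
  have t2 : ‖(F δ - p) * q‖ ≤ K * |δ| ^ 3 * (3 * K') :=
    (norm_mul_le _ _).trans (mul_le_mul (p3 δ hδ) (h'.poly_le hδ) (norm_nonneg _) (by positivity))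
  have t3 : ‖p * (G δ - q)‖ ≤ 3 * K * (K' * |δ| ^ 3) :=
    (norm_mul_le _ _).trans (mul_le_mul (h.poly_le hδ) (q3 δ hδ) (norm_nonneg _) (by positivity))
  have t4 : ‖δ ^ 3 • (a₁ * b₂ + a₂ * b₁ + δ • (a₂ * b₂))‖ ≤ |δ| ^ 3 * (3 * (K * K')) := by
    rw [norm_smul, norm_pow, Real.norm_eq_abs]
    gcongr
    have : ‖δ • (a₂ * b₂)‖ ≤ 1 * (K * K') := by
      rw [norm_smul, Real.norm_eq_abs]; gcongr; exact m p2 q2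
    linarith [norm_add₃_le (a := a₁ * b₂) (b := a₂ * b₁) (c := δ • (a₂ * b₂)), m p1 q2, m p2 q1]
  rw [e]
  refine (norm_add_le _ _).trans ((add_le_add_left norm_add₃_le _).trans ?_)
  nlinarith

lemma Tay.sq_add {K : ℝ} {f : ℝ → ℂ} {a₀ a₁ a₂ : ℂ} (h : Tay K f a₀ a₁ a₂) {δ : ℝ} (h0 : 0 ≤ δ)
    (h1 : δ ≤ 1) : ‖f δ‖ ^ 2 + ‖f (-δ)‖ ^ 2 ≤
      2 * ‖a₀‖ ^ 2 + 2 * δ ^ 2 * (‖a₁‖ ^ 2 + 2 * ((starRingEnd ℂ) a₀ * a₂).re) +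
        16 * K ^ 2 * δ ^ 3 := by
  have hK : 0 ≤ K := (norm_nonneg _).trans h.1
  have key : ∀ η : ℝ, |η| = δ →
      ‖f η‖ ^ 2 ≤ ‖a₀ + η • a₁ + η ^ 2 • a₂‖ ^ 2 + 7 * K ^ 2 * δ ^ 3 := fun η hη => by
    have h2 := h.2.2.2 η (hη ▸ h1)
    have h3 := h.poly_le (δ := η) (hη ▸ h1)
    rw [hη] at h2
    have h4 : ‖f η‖ ≤ ‖a₀ + η • a₁ + η ^ 2 • a₂‖ + K * δ ^ 3 := by
      linarith [norm_sub_norm_le (f η) (a₀ + η • a₁ + η ^ 2 • a₂)]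
    have d3 : δ ^ 3 ≤ 1 := pow_le_one₀ h0 h1
    have d0 : 0 ≤ K * δ ^ 3 := by positivity
    have h5 := pow_le_pow_left₀ (norm_nonneg _) h4 2
    have h6 : K * δ ^ 3 * (K * δ ^ 3) ≤ K * δ ^ 3 * (K * 1) := by gcongr
    nlinarith [mul_le_mul_of_nonneg_right h3 d0]
  have k1 := key δ (abs_of_nonneg h0)
  have k2 := key (-δ) (by rw [abs_neg, abs_of_nonneg h0])
  have e : ‖a₀ + δ • a₁ + δ ^ 2 • a₂‖ ^ 2 + ‖a₀ + (-δ) • a₁ + (-δ) ^ 2 • a₂‖ ^ 2 =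
      2 * ‖a₀‖ ^ 2 + 2 * δ ^ 2 * (‖a₁‖ ^ 2 + 2 * ((starRingEnd ℂ) a₀ * a₂).re) +
        2 * δ ^ 4 * ‖a₂‖ ^ 2 := by
    simp only [Complex.sq_norm, Complex.normSq_apply, Complex.add_re, Complex.add_im,
      Complex.smul_re, Complex.smul_im, smul_eq_mul, Complex.mul_re, Complex.conj_re,
      Complex.conj_im]
    ring
  have h7 : δ ^ 4 * ‖a₂‖ ^ 2 ≤ δ ^ 3 * K ^ 2 := by
    gcongr ?_ * ?_
    · exact pow_le_pow_of_le_one h0 h1 (by norm_num)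
    · exact pow_le_pow_left₀ (norm_nonneg _) h.2.2.1 2
  nlinarith

lemma tay_exp [Nontrivial A] {σ : A} (hσ : ‖σ‖ ≤ 2) :
    Tay (8 * Real.exp 2) (fun δ : ℝ => NormedSpace.exp ((δ : ℂ) • σ)) 1 σ
      ((1 / 2 : ℂ) • (σ * σ)) := by
  have he : 1 ≤ Real.exp 2 := Real.one_le_exp (by norm_num)
  refine ⟨by rw [norm_one]; linarith, by linarith, ?_, fun δ hδ => ?_⟩
  · rw [norm_smul]
    have : ‖σ * σ‖ ≤ 2 * 2 := (norm_mul_le _ _).trans (by gcongr)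
    norm_num; linarith
  have h := norm_exp_sub_sum_le ((δ : ℂ) • σ) 3
  have e : ∑ i ∈ range 3, ((i ! : ℂ)⁻¹) • ((δ : ℂ) • σ) ^ i =
      1 + δ • σ + δ ^ 2 • ((1 / 2 : ℂ) • (σ * σ)) := by
    simp only [sum_range_succ, range_zero, sum_empty, ← Complex.coe_smul, smul_pow, sq]
    simp [Nat.factorial, smul_smul, mul_comm]
  rw [e] at h
  refine h.trans ?_
  have h1 : ‖(δ : ℂ) • σ‖ ≤ |δ| * 2 := by
    rw [norm_smul, Complex.norm_real, Real.norm_eq_abs]; gcongr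
  calc _ ≤ (|δ| * 2) ^ 3 * Real.exp 2 := by gcongr; linarith
    _ = _ := by ring

end Crest.Agent.R95
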